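import Vale.Agent.P092.Setup

/-!
# Frames for unitary representations and equivariant exchange
-/

namespace Vale.Agent.P092

open scoped InnerProductSpace ENNReal ComplexConjugate
open ContinuousLinearMap InnerProductSpace

noncomputable section

variable {ι κ κ' Λ : Type} [Group Λ]
  {K : Type} [NormedAddCommGroup K] [InnerProductSpace ℂ K] [CompleteSpace K]
  {K' : Type} [NormedAddCommGroup K'] [InnerProductSpace ℂ K'] [CompleteSpace K']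

theorem unitary_inner_map (W : unitary (K →L[ℂ] K)) (x y : K) :
    ⟪(W : K →L[ℂ] K) x, (W : K →L[ℂ] K) y⟫_ℂ = ⟪x, y⟫_ℂ := by
  rw [← adjoint_inner_right, ← comp_apply, ← ContinuousLinearMap.mul_def,
    ← ContinuousLinearMap.star_eq_adjoint, Unitary.coe_star_mul_self]
  rfl

theorem rep_mul_apply (W : Λ →* unitary (K →L[ℂ] K)) (s t : Λ) (x : K) :
    (W (s * t) : K →L[ℂ] K) x = (W s : K →L[ℂ] K) ((W t : K →L[ℂ] K) x) := by
  rw [map_mul]; rfl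

theorem rep_one_apply (W : Λ →* unitary (K →L[ℂ] K)) (x : K) :
    (W 1 : K →L[ℂ] K) x = x := by
  rw [map_one]; rfl

theorem rep_inv_apply_apply (W : Λ →* unitary (K →L[ℂ] K)) (s : Λ) (x : K) :
    (W s⁻¹ : K →L[ℂ] K) ((W s : K →L[ℂ] K) x) = x := by
  rw [← rep_mul_apply, inv_mul_cancel, rep_one_apply]

theorem rep_apply_inv_apply (W : Λ →* unitary (K →L[ℂ] K)) (s : Λ) (x : K) :
    (W s : K →L[ℂ] K) ((W s⁻¹ : K →L[ℂ] K) x) = x := by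
  rw [← rep_mul_apply, mul_inv_cancel, rep_one_apply]

theorem adjoint_rep (W : Λ →* unitary (K →L[ℂ] K)) (s : Λ) :
    adjoint (W s : K →L[ℂ] K) = (W s⁻¹ : K →L[ℂ] K) := by
  rw [map_inv, ← ContinuousLinearMap.star_eq_adjoint, ← Unitary.coe_star]
  rfl

theorem rep_inner_left (W : Λ →* unitary (K →L[ℂ] K)) (s : Λ) (x y : K) :
    ⟪(W s : K →L[ℂ] K) x, y⟫_ℂ = ⟪x, (W s⁻¹ : K →L[ℂ] K) y⟫_ℂ := by
  rw [← adjoint_rep, adjoint_inner_right]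

theorem rep_inner_right (W : Λ →* unitary (K →L[ℂ] K)) (s : Λ) (x y : K) :
    ⟪x, (W s : K →L[ℂ] K) y⟫_ℂ = ⟪(W s⁻¹ : K →L[ℂ] K) x, y⟫_ℂ := by
  rw [← adjoint_rep, adjoint_inner_left]

theorem rep_norm (W : Λ →* unitary (K →L[ℂ] K)) (s : Λ) (x : K) :
    ‖(W s : K →L[ℂ] K) x‖ = ‖x‖ := by
  have h := unitary_inner_map (W s) x x
  rw [inner_self_eq_norm_sq_to_K (𝕜 := ℂ), inner_self_eq_norm_sq_to_K (𝕜 := ℂ)] at h
  have h2 : ‖(W s : K →L[ℂ] K) x‖ ^ 2 = ‖x‖ ^ 2 := by exact_mod_cast h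
  exact (sq_eq_sq₀ (norm_nonneg _) (norm_nonneg _)).1 h2

theorem rep_enorm (W : Λ →* unitary (K →L[ℂ] K)) (s : Λ) (x : K) :
    ‖(W s : K →L[ℂ] K) x‖ₑ = ‖x‖ₑ := by
  rw [← ofReal_norm, rep_norm, ofReal_norm]

/-- `f` generates a Parseval family under the unitary representation `W`. -/
def IsFrame (W : Λ →* unitary (K →L[ℂ] K)) (f : κ → K) : Prop :=
  IsParseval fun p : κ × Λ => (W p.2 : K →L[ℂ] K) (f p.1)

/-- `f` generates a Bessel family under the unitary representation `W`. -/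
def IsBFrame (W : Λ →* unitary (K →L[ℂ] K)) (f : κ → K) : Prop :=
  IsBessel fun p : κ × Λ => (W p.2 : K →L[ℂ] K) (f p.1)

theorem IsFrame.tsum_inv {W : Λ →* unitary (K →L[ℂ] K)} {f : κ → K} (hf : IsFrame W f) (x : K) :
    ∑' k, ∑' s, ‖⟪x, (W s⁻¹ : K →L[ℂ] K) (f k)⟫_ℂ‖ₑ ^ 2 = ‖x‖ₑ ^ 2 := by
  rw [← hf x, ENNReal.tsum_prod']
  refine tsum_congr fun k => ?_
  rw [← (Equiv.inv Λ).tsum_eq]
  refine tsum_congr fun s => ?_
  simp only [Equiv.inv_apply, inv_inv]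
  rw [enorm_inner_symm]

theorem IsBFrame.tsum_inv_le {W : Λ →* unitary (K →L[ℂ] K)} {f : κ → K} (hf : IsBFrame W f)
    (x : K) :
    ∑' k, ∑' s, ‖⟪x, (W s⁻¹ : K →L[ℂ] K) (f k)⟫_ℂ‖ₑ ^ 2 ≤ ‖x‖ₑ ^ 2 := by
  refine le_trans (le_of_eq ?_) (hf x)
  rw [ENNReal.tsum_prod']
  refine tsum_congr fun k => ?_
  rw [← (Equiv.inv Λ).tsum_eq]
  refine tsum_congr fun s => ?_
  simp only [Equiv.inv_apply, inv_inv]
  rw [enorm_inner_symm]

theorem frame_aux (W : Λ →* unitary (K →L[ℂ] K)) (W' : Λ →* unitary (K' →L[ℂ] K'))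
    {f : κ → K} {f' : κ' → K'} (hf' : IsFrame W' f') (A : K →L[ℂ] K')
    (hA : ∀ s v, A ((W s : K →L[ℂ] K) v) = (W' s : K' →L[ℂ] K') (A v)) :
    ∑' k, ‖A (f k)‖ₑ ^ 2 =
      ∑' k', ∑' k, ∑' s, ‖⟪adjoint A (f' k'), (W s⁻¹ : K →L[ℂ] K) (f k)⟫_ℂ‖ₑ ^ 2 := by
  calc ∑' k, ‖A (f k)‖ₑ ^ 2
      = ∑' k, ∑' k', ∑' s, ‖⟪A (f k), (W' s⁻¹ : K' →L[ℂ] K') (f' k')⟫_ℂ‖ₑ ^ 2 :=
        tsum_congr fun k => (hf'.tsum_inv _).symm
    _ = ∑' k', ∑' k, ∑' s, ‖⟪A (f k), (W' s⁻¹ : K' →L[ℂ] K') (f' k')⟫_ℂ‖ₑ ^ 2 :=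
        ENNReal.tsum_comm
    _ = ∑' k', ∑' k, ∑' s, ‖⟪adjoint A (f' k'), (W s⁻¹ : K →L[ℂ] K) (f k)⟫_ℂ‖ₑ ^ 2 := by
        refine tsum_congr fun k' => tsum_congr fun k => ?_
        rw [← (Equiv.inv Λ).tsum_eq]
        refine tsum_congr fun s => ?_
        simp only [Equiv.inv_apply, inv_inv]
        rw [rep_inner_right, ← hA, adjoint_inner_left, enorm_inner_symm]

/-- Equivariant exchange of frames: `∑ ‖A f_k‖² = ∑ ‖A† f'_k‖²` for an intertwiner `A`. -/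
theorem frame_exchange (W : Λ →* unitary (K →L[ℂ] K)) (W' : Λ →* unitary (K' →L[ℂ] K'))
    {f : κ → K} {f' : κ' → K'} (hf : IsFrame W f) (hf' : IsFrame W' f') (A : K →L[ℂ] K')
    (hA : ∀ s v, A ((W s : K →L[ℂ] K) v) = (W' s : K' →L[ℂ] K') (A v)) :
    ∑' k, ‖A (f k)‖ₑ ^ 2 = ∑' k', ‖adjoint A (f' k')‖ₑ ^ 2 := by
  rw [frame_aux W W' hf' A hA]
  exact tsum_congr fun k' => hf.tsum_inv _

theorem bframe_exchange_le (W : Λ →* unitary (K →L[ℂ] K)) (W' : Λ →* unitary (K' →L[ℂ] K'))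
    {f : κ → K} {f' : κ' → K'} (hf : IsBFrame W f) (hf' : IsFrame W' f') (A : K →L[ℂ] K')
    (hA : ∀ s v, A ((W s : K →L[ℂ] K) v) = (W' s : K' →L[ℂ] K') (A v)) :
    ∑' k, ‖A (f k)‖ₑ ^ 2 ≤ ∑' k', ‖adjoint A (f' k')‖ₑ ^ 2 := by
  rw [frame_aux W W' hf' A hA]
  exact ENNReal.tsum_le_tsum fun k' => hf.tsum_inv_le _

/-- The value `∑ ‖A f_k‖²` does not depend on the frame. -/
theorem frame_indep (W : Λ →* unitary (K →L[ℂ] K))
    {f : κ → K} {f' : κ' → K} (hf : IsFrame W f) (hf' : IsFrame W f') (A : K →L[ℂ] K)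
    (hA : ∀ s, Commute (W s : K →L[ℂ] K) A) :
    ∑' k, ‖A (f k)‖ₑ ^ 2 = ∑' k', ‖A (f' k')‖ₑ ^ 2 := by
  have h : ∀ s v, A ((W s : K →L[ℂ] K) v) = (W s : K →L[ℂ] K) (A v) := fun s v =>
    (DFunLike.congr_fun (hA s).eq v).symm
  rw [frame_exchange W W hf hf A h, frame_exchange W W hf' hf A h]

/-- The trace property: `∑ ‖A f_k‖² = ∑ ‖A† f_k‖²`. -/
theorem frame_adjoint (W : Λ →* unitary (K →L[ℂ] K))
    {f : κ → K} (hf : IsFrame W f) (A : K →L[ℂ] K) (hA : ∀ s, Commute (W s : K →L[ℂ] K) A) :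
    ∑' k, ‖A (f k)‖ₑ ^ 2 = ∑' k, ‖adjoint A (f k)‖ₑ ^ 2 :=
  frame_exchange W W hf hf A fun s v => (DFunLike.congr_fun (hA s).eq v).symm

/-- The analysis operator of a Bessel family. -/
def analysis (F : κ → K) (hF : IsBessel F) : K →L[ℂ] lp (fun _ : κ => ℂ) 2 :=
  LinearMap.mkContinuous
    { toFun := fun Z => ⟨fun k => ⟪F k, Z⟫_ℂ,
        memℓp_two_of_tsum_ne_top (ne_top_of_le_ne_top (by finiteness) (hF Z))⟩
      map_add' := fun Z Z' => by ext k; exact inner_add_right _ _ _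
      map_smul' := fun c Z => by ext k; exact inner_smul_right _ _ _ } 1 (fun Z => by
        refine norm_le_of_enorm_sq_le (by positivity) ?_
        rw [one_mul, ofReal_norm, ← lp_enorm_sq]
        exact hF Z)

omit [CompleteSpace K] in
theorem analysis_apply (F : κ → K) (hF : IsBessel F) (Z : K) (k : κ) :
    analysis F hF Z k = ⟪F k, Z⟫_ℂ := rfl

/-- The frame operator `Z ↦ ∑ ⟨F_k, Z⟩ F_k` of a Bessel family. -/
def frameOp (F : κ → K) (hF : IsBessel F) : K →L[ℂ] K :=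
  adjoint (analysis F hF) ∘L analysis F hF

theorem inner_frameOp (F : κ → K) (hF : IsBessel F) (W Z : K) :
    ⟪W, frameOp F hF Z⟫_ℂ = ∑' k, conj ⟪F k, W⟫_ℂ * ⟪F k, Z⟫_ℂ := by
  rw [frameOp, comp_apply, adjoint_inner_right, lp.inner_eq_tsum]
  refine tsum_congr fun k => ?_
  rw [analysis_apply, analysis_apply, RCLike.inner_apply, mul_comm]

theorem quad_frameOp (F : κ → K) (hF : IsBessel F) (Z : K) :
    quad (frameOp F hF) Z = ∑' k, ‖⟪F k, Z⟫_ℂ‖ₑ ^ 2 := by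
  have h : quad (frameOp F hF) Z = ‖analysis F hF Z‖ₑ ^ 2 := by
    rw [quad, frameOp, comp_apply, adjoint_inner_right, inner_self_eq_norm_sq,
      ENNReal.ofReal_pow (norm_nonneg _), ofReal_norm]
  rw [h, ← lp_enorm_sq]
  rfl

/-- The unitary representation `s ↦ Ad (V s)` on Hilbert–Schmidt operators. -/
def AdRep {H : Type} [NormedAddCommGroup H] [InnerProductSpace ℂ H] [CompleteSpace H]
    (b : HilbertBasis ι ℂ H) (V : Λ →* unitary (H →L[ℂ] H)) :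
    Λ →* unitary (HS ι H →L[ℂ] HS ι H) where
  toFun s := ⟨Ad b (V s : H →L[ℂ] H), by
    have h : star (Ad b (V s : H →L[ℂ] H)) = Ad b (V s⁻¹ : H →L[ℂ] H) := by
      rw [ContinuousLinearMap.star_eq_adjoint, adjoint_Ad, adjoint_rep]
    rw [Unitary.mem_iff, h, ← Ad_mul, ← Ad_mul]
    constructor
    · rw [← Submonoid.coe_mul, ← map_mul, inv_mul_cancel, map_one]
      exact Ad_one b
    · rw [← Submonoid.coe_mul, ← map_mul, mul_inv_cancel, map_one]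
      exact Ad_one b⟩
  map_one' := by
    apply Subtype.ext
    show Ad b (V 1 : H →L[ℂ] H) = 1
    rw [map_one]
    exact Ad_one b
  map_mul' s t := by
    apply Subtype.ext
    show Ad b (V (s * t) : H →L[ℂ] H) = Ad b (V s : H →L[ℂ] H) * Ad b (V t : H →L[ℂ] H)
    rw [map_mul]
    exact Ad_mul b _ _

@[simp]
theorem AdRep_coe {H : Type} [NormedAddCommGroup H] [InnerProductSpace ℂ H] [CompleteSpace H]
    (b : HilbertBasis ι ℂ H) (V : Λ →* unitary (H →L[ℂ] H)) (s : Λ) :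
    (AdRep b V s : HS ι H →L[ℂ] HS ι H) = Ad b (V s : H →L[ℂ] H) := rfl

/-- The family `ten (e j) (b l)` is a frame for `Ad V` if `e` is a frame for `V`. -/
theorem isFrame_ten {H : Type} [NormedAddCommGroup H] [InnerProductSpace ℂ H] [CompleteSpace H]
    (b : HilbertBasis ι ℂ H) (V : Λ →* unitary (H →L[ℂ] H)) {e : κ → H} (he : IsFrame V e)
    {f : κ' → H} (hf : IsParseval f) :
    IsFrame (AdRep b V) fun p : κ × κ' => ten b (e p.1) (f p.2) := by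
  intro Z
  have key : ∀ (j : κ) (s : Λ), ∑' l, ‖⟪(AdRep b V s : HS ι H →L[ℂ] HS ι H)
      (ten b (e j) (f l)), Z⟫_ℂ‖ₑ ^ 2
        = ‖adjoint (op b Z) ((V s : H →L[ℂ] H) (e j))‖ₑ ^ 2 := by
    intro j s
    have h1 : ∀ l, ⟪(AdRep b V s : HS ι H →L[ℂ] HS ι H) (ten b (e j) (f l)), Z⟫_ℂ
        = ⟪(V s⁻¹ : H →L[ℂ] H) (adjoint (op b Z) ((V s : H →L[ℂ] H) (e j))), f l⟫_ℂ := by
      intro l
      rw [AdRep_coe, Ad_ten, inner_ten_left, rep_inner_left V s⁻¹, inv_inv, adjoint_inner_left]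
    simp_rw [h1]
    rw [hf.symm_apply, rep_enorm]
  rw [ENNReal.tsum_prod', ENNReal.tsum_prod']
  calc ∑' j, ∑' l, ∑' s, ‖⟪(AdRep b V s : HS ι H →L[ℂ] HS ι H) (ten b (e j) (f l)), Z⟫_ℂ‖ₑ ^ 2
      = ∑' j, ∑' s, ∑' l,
        ‖⟪(AdRep b V s : HS ι H →L[ℂ] HS ι H) (ten b (e j) (f l)), Z⟫_ℂ‖ₑ ^ 2 :=
        tsum_congr fun j => ENNReal.tsum_comm
    _ = ∑' j, ∑' s, ‖adjoint (op b Z) ((V s : H →L[ℂ] H) (e j))‖ₑ ^ 2 :=
        tsum_congr fun j => tsum_congr fun s => key j s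
    _ = ∑' p : κ × Λ, ‖adjoint (op b Z) ((V p.2 : H →L[ℂ] H) (e p.1))‖ₑ ^ 2 :=
        (ENNReal.tsum_prod'
          (f := fun p : κ × Λ => ‖adjoint (op b Z) ((V p.2 : H →L[ℂ] H) (e p.1))‖ₑ ^ 2)).symm
    _ = ‖Z‖ₑ ^ 2 := enorm_sq_eq_tsum_adjoint b Z he

theorem total_of_isParseval {f : κ → K} (hf : IsParseval f) :
    (Submodule.span ℂ (Set.range f)).topologicalClosure = ⊤ := by
  rw [Submodule.topologicalClosure_eq_top_iff, Submodule.eq_bot_iff]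
  intro x hx
  have h := hf x
  have h0 : ∀ k, ⟪f k, x⟫_ℂ = 0 := fun k =>
    (Submodule.mem_orthogonal _ _).1 hx _ (Submodule.subset_span ⟨k, rfl⟩)
  simp only [h0, enorm_zero, ne_eq, OfNat.ofNat_ne_zero, not_false_eq_true, zero_pow,
    tsum_zero] at h
  have h2 : ‖x‖ₑ ^ 2 = 0 := h.symm
  simpa using h2

end

end Vale.Agent.P092
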