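import Vale.Agent.P092.H414.Dichotomy
import Vale.Agent.P092.H418.Model

/-!
# The fourth power sums of an amplified isomorphism
-/

namespace Vale.Agent.P092

open scoped InnerProductSpace ENNReal ComplexConjugate
open ContinuousLinearMap InnerProductSpace

noncomputable section

variable {Γ Λ : Type} [Group Γ] [Group Λ] {n : ℕ} (Φ : AmpIso Γ Λ n)

theorem enorm_inner_smul_smul {H : Type} [NormedAddCommGroup H] [InnerProductSpace ℂ H] (c : ℝ)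
    (x y : H) : ‖⟪(c : ℂ) • x, (c : ℂ) • y⟫_ℂ‖ₑ ^ 4 = ‖(c : ℂ)‖ₑ ^ 8 * ‖⟪x, y⟫_ℂ‖ₑ ^ 4 := by
  rw [inner_smul_left, inner_smul_right, Complex.conj_ofReal, enorm_mul, enorm_mul]
  ring

namespace AmpIso

/-- The Fourier coefficient at `g` of the entry `(i,j)` of `Φ(v_s)`. -/
def cf (s : Λ) (i j : Fin n) (g : Γ) : ℂ := coef (Φ.toHom (u s) i j) g

theorem fourth_eq (g : Γ) : Φ.fourth g = ∑' s : Λ, ∑ i, ∑ j, ‖Φ.cf s i j g‖ₑ ^ 4 := rfl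

theorem cf_eq (s : Λ) (i j : Fin n) (g : Γ) : Φ.cf s i j g
    = ⟪(Φ.Urep g⁻¹ : Φ.HH →L[ℂ] Φ.HH) (Φ.zv i), (Φ.Vrep s : Φ.HH →L[ℂ] Φ.HH) (Φ.zv j)⟫_ℂ :=
  Φ.coef_eq_inner (u s) i j g

theorem enorm_cf (s : Λ) (i j : Fin n) (g : Γ) :
    ‖Φ.cf s i j g‖ₑ
      = ‖⟪(Φ.Vrep s : Φ.HH →L[ℂ] Φ.HH) ((Φ.Urep g : Φ.HH →L[ℂ] Φ.HH) (Φ.zv j)), Φ.zv i⟫_ℂ‖ₑ := by
  have h : (Φ.Urep g : Φ.HH →L[ℂ] Φ.HH) ((Φ.Vrep s : Φ.HH →L[ℂ] Φ.HH) (Φ.zv j))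
      = (Φ.Vrep s : Φ.HH →L[ℂ] Φ.HH) ((Φ.Urep g : Φ.HH →L[ℂ] Φ.HH) (Φ.zv j)) :=
    DFunLike.congr_fun (Φ.commute_U_V g s).eq (Φ.zv j)
  rw [cf_eq, rep_inner_left, inv_inv, h, enorm_inner_symm]

theorem enorm_term (c : ℝ) (s : Λ) (i j : Fin n) (g : Γ) :
    ‖⟪(Φ.Vrep s : Φ.HH →L[ℂ] Φ.HH) ((Φ.Urep g : Φ.HH →L[ℂ] Φ.HH) ((c : ℂ) • Φ.zv j)),
        (c : ℂ) • Φ.zv i⟫_ℂ‖ₑ ^ 4 = ‖(c : ℂ)‖ₑ ^ 8 * ‖Φ.cf s i j g‖ₑ ^ 4 := by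
  have h1 : (Φ.Urep g : Φ.HH →L[ℂ] Φ.HH) ((c : ℂ) • Φ.zv j)
      = (c : ℂ) • (Φ.Urep g : Φ.HH →L[ℂ] Φ.HH) (Φ.zv j) :=
    (Φ.Urep g : Φ.HH →L[ℂ] Φ.HH).map_smul _ _
  have h2 : (Φ.Vrep s : Φ.HH →L[ℂ] Φ.HH) ((c : ℂ) • (Φ.Urep g : Φ.HH →L[ℂ] Φ.HH) (Φ.zv j))
      = (c : ℂ) • (Φ.Vrep s : Φ.HH →L[ℂ] Φ.HH) ((Φ.Urep g : Φ.HH →L[ℂ] Φ.HH) (Φ.zv j)) :=
    (Φ.Vrep s : Φ.HH →L[ℂ] Φ.HH).map_smul _ _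
  rw [h1, h2, enorm_cf]
  exact enorm_inner_smul_smul c ((Φ.Vrep s : Φ.HH →L[ℂ] Φ.HH)
    ((Φ.Urep g : Φ.HH →L[ℂ] Φ.HH) (Φ.zv j))) (Φ.zv i)

theorem phi4_eq (c : ℝ) (g : Γ) :
    phi4 Φ.Urep Φ.Vrep (fun i => (c : ℂ) • Φ.zv i) g = ‖(c : ℂ)‖ₑ ^ 8 * Φ.fourth g := by
  calc phi4 Φ.Urep Φ.Vrep (fun i => (c : ℂ) • Φ.zv i) g
      = ∑ i, ∑ j, ∑' s : Λ, ‖(c : ℂ)‖ₑ ^ 8 * ‖Φ.cf s i j g‖ₑ ^ 4 := by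
        rw [phi4]
        refine Finset.sum_congr rfl fun i _ => ?_
        rw [ENNReal.tsum_prod', tsum_fintype]
        exact Finset.sum_congr rfl fun j _ => tsum_congr fun s => Φ.enorm_term c s i j g
    _ = ∑' s : Λ, ∑ i, ∑ j, ‖(c : ℂ)‖ₑ ^ 8 * ‖Φ.cf s i j g‖ₑ ^ 4 := by
        rw [Summable.tsum_finsetSum fun i _ => ENNReal.summable]
        refine Finset.sum_congr rfl fun i _ => ?_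
        rw [Summable.tsum_finsetSum fun i _ => ENNReal.summable]
    _ = ‖(c : ℂ)‖ₑ ^ 8 * Φ.fourth g := by
        rw [fourth_eq, ← ENNReal.tsum_mul_left]
        refine tsum_congr fun s => ?_
        rw [Finset.mul_sum]
        exact Finset.sum_congr rfl fun i _ => (Finset.mul_sum _ _ _).symm

end AmpIso

theorem walkAvg_mul_left (S : Finset Γ) (k : ℕ) (C : ℝ≥0∞) (f : Γ → ℝ≥0∞) :
    walkAvg S k (fun g => C * f g) = C * walkAvg S k f := by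
  rw [walkAvg, walkAvg, ← Finset.mul_sum, mul_div_assoc]

end

end Vale.Agent.P092
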