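import Vale.Agent.P092.H414.Step2

/-!
# Step 3: the projection `E`
-/

namespace Vale.Agent.P092

open scoped InnerProductSpace ENNReal ComplexConjugate ComplexOrder
open ContinuousLinearMap InnerProductSpace Filter Topology

noncomputable section

section general

variable {τ : Type} {K K' : Type} [NormedAddCommGroup K] [InnerProductSpace ℂ K]
  [NormedAddCommGroup K'] [InnerProductSpace ℂ K']

/-- The operator `Z ↦ (f_i Z)_i` into `ℓ²`. -/
def familyOp (f : τ → K →L[ℂ] K') (C : ℝ) (hC : 0 ≤ C)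
    (hf : ∀ Z, ∑' i, ‖f i Z‖ₑ ^ 2 ≤ ENNReal.ofReal C ^ 2 * ‖Z‖ₑ ^ 2) :
    K →L[ℂ] lp (fun _ : τ => K') 2 :=
  LinearMap.mkContinuous
    { toFun := fun Z => ⟨fun i => f i Z,
        memℓp_two_of_tsum_ne_top (ne_top_of_le_ne_top (by finiteness) (hf Z))⟩
      map_add' := fun Z Z' => by ext i; exact (f i).map_add _ _
      map_smul' := fun c Z => by ext i; exact (f i).map_smul _ _ } C (fun Z => by
        refine norm_le_of_enorm_sq_le (by positivity) ?_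
        rw [ENNReal.ofReal_mul hC, ofReal_norm, ← lp_enorm_sq, mul_pow]
        exact hf Z)

theorem familyOp_apply (f : τ → K →L[ℂ] K') (C : ℝ) (hC : 0 ≤ C)
    (hf : ∀ Z, ∑' i, ‖f i Z‖ₑ ^ 2 ≤ ENNReal.ofReal C ^ 2 * ‖Z‖ₑ ^ 2) (Z : K) (i : τ) :
    familyOp f C hC hf Z i = f i Z := rfl

variable [CompleteSpace K] [CompleteSpace K']

theorem exists_gram (f : τ → K →L[ℂ] K') (C : ℝ) (hC : 0 ≤ C)
    (hf : ∀ Z, ∑' i, ‖f i Z‖ₑ ^ 2 ≤ ENNReal.ofReal C ^ 2 * ‖Z‖ₑ ^ 2) :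
    ∃ F : K →L[ℂ] K, (∀ W Z, ⟪W, F Z⟫_ℂ = ∑' i, ⟪f i W, f i Z⟫_ℂ) ∧
      (∀ W Z, Summable fun i => ⟪f i W, f i Z⟫_ℂ) ∧
      (∀ Z, ENNReal.ofReal (RCLike.re ⟪Z, F Z⟫_ℂ) = ∑' i, ‖f i Z‖ₑ ^ 2) ∧ F.IsPositive := by
  refine ⟨adjoint (familyOp f C hC hf) ∘L familyOp f C hC hf, fun W Z => ?_, fun W Z => ?_,
    fun Z => ?_, isPositive_adjoint_comp_self _⟩
  · rw [comp_apply, adjoint_inner_right, lp.inner_eq_tsum]
    rfl
  · exact lp.summable_inner (familyOp f C hC hf W) (familyOp f C hC hf Z)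
  · rw [comp_apply, adjoint_inner_right, inner_self_eq_norm_sq, ← enorm_sq_eq_ofReal,
      ← lp_enorm_sq]
    rfl

end general

variable {ι κ γ τ Γ Λ : Type} [Group Γ] [Group Λ]
  {H : Type} [NormedAddCommGroup H] [InnerProductSpace ℂ H] [CompleteSpace H]
  {b : HilbertBasis ι ℂ H} {U : Γ →* unitary (H →L[ℂ] H)} {V : Λ →* unitary (H →L[ℂ] H)}

theorem unitary_commute_of_inner {K : Type} [NormedAddCommGroup K] [InnerProductSpace ℂ K]
    [CompleteSpace K] (W : unitary (K →L[ℂ] K)) (F : K →L[ℂ] K)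
    (h : ∀ x y, ⟪(W : K →L[ℂ] K) x, F ((W : K →L[ℂ] K) y)⟫_ℂ = ⟪x, F y⟫_ℂ) :
    Commute (W : K →L[ℂ] K) F := by
  have h1 : adjoint (W : K →L[ℂ] K) * F * (W : K →L[ℂ] K) = F := by
    refine ContinuousLinearMap.ext fun y => ?_
    refine ext_inner_left ℂ fun x => ?_
    show ⟪x, adjoint (W : K →L[ℂ] K) (F ((W : K →L[ℂ] K) y))⟫_ℂ = _
    rw [adjoint_inner_right, h]
  have h2 : (W : K →L[ℂ] K) * adjoint (W : K →L[ℂ] K) = 1 := by
    rw [← ContinuousLinearMap.star_eq_adjoint, Unitary.mul_star_self_of_mem W.2]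
  show (W : K →L[ℂ] K) * F = F * (W : K →L[ℂ] K)
  calc (W : K →L[ℂ] K) * F
      = (W : K →L[ℂ] K) * (adjoint (W : K →L[ℂ] K) * F * (W : K →L[ℂ] K)) := by rw [h1]
    _ = ((W : K →L[ℂ] K) * adjoint (W : K →L[ℂ] K)) * (F * (W : K →L[ℂ] K)) := by
        rw [mul_assoc, mul_assoc]
    _ = F * (W : K →L[ℂ] K) := by rw [h2, one_mul]

theorem lmul_eq_Ad_rmul (s : Λ) (Z : HS ι H) :
    lmul (V s : H →L[ℂ] H) Z = Ad b (V s : H →L[ℂ] H) (rmul b (V s : H →L[ℂ] H) Z) := by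
  refine op_injective b ?_
  rw [op_lmul, op_Ad_rep, op_rmul, comp_assoc, rep_comp, mul_inv_cancel, rep_coe_one]
  rfl

/-- A positive operator `T` with `T⁴ = c T²` is a multiple of a projection. -/
theorem sq_eq_of_four {K : Type} [NormedAddCommGroup K] [InnerProductSpace ℂ K]
    {T : K →L[ℂ] K} (h0 : T.IsPositive) {a : ℝ} (ha : 0 < a)
    (h4 : ∀ x, T (T (T (T x))) = ((a ^ 2 : ℝ) : ℂ) • T (T x)) (x : K) :
    T (T x) = (a : ℂ) • T x := by
  have hsym : ∀ x y, ⟪T x, y⟫_ℂ = ⟪x, T y⟫_ℂ := h0.inner_left_eq_inner_right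
  -- `X = T² - a T`
  have hX : ∀ x, ⟪T (T x) - (a : ℂ) • T x, T (T (T (T x) - (a : ℂ) • T x))
      + (a : ℂ) • T (T (T x) - (a : ℂ) • T x)⟫_ℂ = 0 := by
    intro x
    have h1 : T (T (T (T x) - (a : ℂ) • T x)) + (a : ℂ) • T (T (T x) - (a : ℂ) • T x) = 0 := by
      rw [map_sub, map_sub, h4, map_smul, map_smul, smul_sub, smul_smul]
      push_cast
      rw [← pow_two]
      abel
    rw [h1, inner_zero_right]
  have h1 : ∀ x, T (T (T x) - (a : ℂ) • T x) = 0 := by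
    intro x
    have h2 := hX x
    set y := T (T x) - (a : ℂ) • T x with hy
    rw [inner_add_right, ← hsym, inner_smul_right] at h2
    have h3 := congrArg RCLike.re h2
    rw [map_add, inner_self_eq_norm_sq] at h3
    have h5 : RCLike.re ((a : ℂ) * ⟪y, T y⟫_ℂ) = a * RCLike.re ⟪y, T y⟫_ℂ := by
      simp
    rw [h5, map_zero] at h3
    have h6 : 0 ≤ RCLike.re ⟪y, T y⟫_ℂ := h0.re_inner_nonneg_right y
    have h7 : ‖T y‖ ^ 2 = 0 := by nlinarith [sq_nonneg ‖T y‖, mul_nonneg ha.le h6]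
    have h8 : ‖T y‖ = 0 := by simpa using h7
    exact norm_eq_zero.1 h8
  have h2 : ⟪T (T x) - (a : ℂ) • T x, T (T x) - (a : ℂ) • T x⟫_ℂ = 0 := by
    have h3 := h1 x
    set y := T (T x) - (a : ℂ) • T x with hy
    nth_rewrite 2 [hy]
    rw [inner_sub_right, inner_smul_right, ← hsym y (T x), ← hsym y x, h3]
    simp
  exact sub_eq_zero.1 (inner_self_eq_zero.1 h2)

/-- The Gram operator of Step 3. -/
theorem GoodOp.exists_F (hUV : ∀ g s, Commute (U g : H →L[ℂ] H) (V s : H →L[ℂ] H))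
    {T : HS ι H →L[ℂ] HS ι H} (hT : GoodOp b U V T) :
    ∃ F : HS ι H →L[ℂ] HS ι H,
      (∀ W Z, ⟪W, F Z⟫_ℂ = ∑' k : Λ, ⟪T (rmul b (V k : H →L[ℂ] H) W),
        T (rmul b (V k : H →L[ℂ] H) Z)⟫_ℂ) ∧
      (∀ Z, ENNReal.ofReal (RCLike.re ⟪Z, F Z⟫_ℂ)
        = ∑' k : Λ, ‖T (rmul b (V k : H →L[ℂ] H) Z)‖ₑ ^ 2) ∧
      (∀ s, Commute (lmul (V s : H →L[ℂ] H)) F) ∧
      (∀ s, Commute (rmul b (V s : H →L[ℂ] H)) F) ∧
      (∀ g, Commute (Ad b (U g : H →L[ℂ] H)) F) := by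
  have hTV : ∀ s x, T (Ad b (V s : H →L[ℂ] H) x) = Ad b (V s : H →L[ℂ] H) (T x) := fun s x =>
    (DFunLike.congr_fun (hT.commV s).eq x).symm
  have hTU : ∀ g x, T (Ad b (U g : H →L[ℂ] H) x) = Ad b (U g : H →L[ℂ] H) (T x) := fun s x =>
    (DFunLike.congr_fun (hT.commU s).eq x).symm
  obtain ⟨F, hF, -, hFq, -⟩ := exists_gram
    (fun k : Λ => T ∘L rmul b (V k : H →L[ℂ] H)) 1 zero_le_one (fun Z => by
      rw [ENNReal.ofReal_one, one_pow, one_mul]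
      refine le_trans (ENNReal.tsum_le_tsum fun k => ?_) (hT.fbound Z)
      exact enorm_sq_le_quad hT.pos hT.le_one _)
  simp only [comp_apply] at hF hFq
  -- it commutes with `Ad (V s)`
  have hFV : ∀ s, Commute (Ad b (V s : H →L[ℂ] H)) F := by
    intro s
    refine unitary_commute_of_inner (AdRep b V s) F fun x y => ?_
    rw [hF, hF]
    let σ : Λ ≃ Λ := (MulAut.conj s⁻¹).toEquiv
    have hσ : ∀ k, σ k = s⁻¹ * k * s := fun k => by simp [σ]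
    rw [← σ.tsum_eq (fun k : Λ => ⟪T (rmul b (V k : H →L[ℂ] H) x),
        T (rmul b (V k : H →L[ℂ] H) y)⟫_ℂ)]
    refine tsum_congr fun k => ?_
    rw [AdRep_coe, rmul_Ad_conj, rmul_Ad_conj, hTV, hTV, hσ]
    exact unitary_inner_map (AdRep b V s) _ _
  have hFU : ∀ g, Commute (Ad b (U g : H →L[ℂ] H)) F := by
    intro g
    refine unitary_commute_of_inner (AdRep b U g) F fun x y => ?_
    rw [hF, hF]
    refine tsum_congr fun k => ?_
    have h1 : ∀ x, rmul b (V k : H →L[ℂ] H) (Ad b (U g : H →L[ℂ] H) x)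
        = Ad b (U g : H →L[ℂ] H) (rmul b (V k : H →L[ℂ] H) x) := fun x =>
      (DFunLike.congr_fun (rmul_Ad_comm b U V hUV g k).eq x).symm
    rw [AdRep_coe, h1, h1, hTU, hTU]
    exact unitary_inner_map (AdRep b U g) _ _
  have hFR : ∀ s, Commute (rmul b (V s : H →L[ℂ] H)) F := by
    intro s
    refine ContinuousLinearMap.ext fun Z => ?_
    refine ext_inner_left ℂ fun W => ?_
    show ⟪W, rmul b (V s : H →L[ℂ] H) (F Z)⟫_ℂ = ⟪W, F (rmul b (V s : H →L[ℂ] H) Z)⟫_ℂ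
    rw [← adjoint_inner_left, adjoint_rmul, adjoint_rep, hF, hF,
      ← (Equiv.mulLeft s).tsum_eq (fun k : Λ => ⟪T (rmul b (V k : H →L[ℂ] H)
        (rmul b (V s⁻¹ : H →L[ℂ] H) W)), T (rmul b (V k : H →L[ℂ] H) Z)⟫_ℂ)]
    refine tsum_congr fun k => ?_
    rw [rmul_rmul, rmul_rmul]
    simp only [Equiv.coe_mulLeft, inv_mul_cancel_left]
  have hFL : ∀ s, Commute (lmul (V s : H →L[ℂ] H)) F := by
    intro s
    have h1 : lmul (ι := ι) (V s : H →L[ℂ] H)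
        = Ad b (V s : H →L[ℂ] H) * rmul b (V s : H →L[ℂ] H) := by
      refine ContinuousLinearMap.ext fun Z => ?_
      rw [ContinuousLinearMap.mul_def, comp_apply]
      exact lmul_eq_Ad_rmul s Z
    rw [h1]
    exact Commute.mul_left (hFV s) (hFR s)
  exact ⟨F, hF, hFq, hFL, hFR, hFU⟩

omit [CompleteSpace H] in
theorem inner_self_eq_ofReal (x : H) : ⟪x, x⟫_ℂ = ((‖x‖ ^ 2 : ℝ) : ℂ) := by
  rw [inner_self_eq_norm_sq_to_K (𝕜 := ℂ)]; simp

/-- `T` is a positive multiple of a projection. -/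
theorem GoodOp.exists_scale (hUV : ∀ g s, Commute (U g : H →L[ℂ] H) (V s : H →L[ℂ] H))
    {T : HS ι H →L[ℂ] HS ι H} (hT : GoodOp b U V T)
    {z : γ → H} (hz : IsFrame U z) (hzfin : ∑' i, ‖z i‖ₑ ^ 2 ≠ ∞) (hicc : IsICC Λ)
    (hirr : Irr b U V) : ∃ a : ℝ, 0 < a ∧ (∀ x, T (T x) = (a : ℂ) • T x) ∧
      ∀ Z : HS ι H, ∑' k : Λ, ‖T (rmul b (V k : H →L[ℂ] H) Z)‖ₑ ^ 2
        = ENNReal.ofReal (a ^ 2) * ‖Z‖ₑ ^ 2 := by
  have hmal := hT.malnormal hUV hz hzfin hicc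
  have hsym : ∀ x y, ⟪T x, y⟫_ℂ = ⟪x, T y⟫_ℂ := hT.pos.inner_left_eq_inner_right
  obtain ⟨F, hF, hFq, hFL, hFR, hFU⟩ := hT.exists_F hUV
  obtain ⟨c, hc⟩ := hirr F hFL hFR hFU
  have hFc : ∀ x, F x = c • x := fun x => by rw [hc]; rfl
  -- `T⁴ = c T²`
  have hT4 : ∀ x, T (T (T (T x))) = c • T (T x) := by
    intro x
    refine ext_inner_left ℂ fun y => ?_
    have h1 : ⟪T y, F (T x)⟫_ℂ = ⟪T (T y), T (T x)⟫_ℂ := by
      rw [hF, tsum_eq_single 1]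
      · rw [rep_coe_one, rmul_one]
        rfl
      · intro k hk
        have h2 : T (rmul b (V k : H →L[ℂ] H) (T x)) = 0 :=
          DFunLike.congr_fun (hmal k hk) x
        rw [h2, inner_zero_right]
    rw [hFc, inner_smul_right] at h1
    rw [← hsym y, ← hsym (T y), ← h1, inner_smul_right, ← hsym y]
  -- `c` is real and positive
  have hTne : ∃ x, T (T x) ≠ 0 := by
    by_contra hall
    have hall' : ∀ x, T (T x) = 0 := fun x => by
      by_contra h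
      exact hall ⟨x, h⟩
    refine hT.ne_zero (ContinuousLinearMap.ext fun x => ?_)
    have h1 : ⟪T x, T x⟫_ℂ = 0 := by rw [hsym, hall', inner_zero_right]
    exact inner_self_eq_zero.1 h1
  obtain ⟨x0, hx0⟩ := hTne
  have hcre : ∃ r : ℝ, 0 < r ∧ c = r := by
    have h2 : ⟪T (T x0), T (T x0)⟫_ℂ = c * ⟪T x0, T x0⟫_ℂ := by
      calc ⟪T (T x0), T (T x0)⟫_ℂ = ⟪x0, T (T (T (T x0)))⟫_ℂ := by
            rw [hsym (T x0), hsym x0]
        _ = c * ⟪T x0, T x0⟫_ℂ := by rw [hT4, inner_smul_right, ← hsym x0]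
    have h5 : T x0 ≠ 0 := fun h => hx0 (by rw [h, map_zero])
    have h6 : (0 : ℝ) < ‖T x0‖ ^ 2 := by positivity
    have h7 : (0 : ℝ) < ‖T (T x0)‖ ^ 2 := by positivity
    refine ⟨‖T (T x0)‖ ^ 2 / ‖T x0‖ ^ 2, by positivity, ?_⟩
    rw [inner_self_eq_ofReal, inner_self_eq_ofReal] at h2
    have h8 : ((‖T x0‖ ^ 2 : ℝ) : ℂ) ≠ 0 := by exact_mod_cast h6.ne'
    rw [Complex.ofReal_div, eq_div_iff h8]
    exact h2.symm
  obtain ⟨r, hr, hcr⟩ := hcre
  obtain ⟨a, ha, har⟩ : ∃ a : ℝ, 0 < a ∧ a ^ 2 = r :=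
    ⟨Real.sqrt r, Real.sqrt_pos.2 hr, Real.sq_sqrt hr.le⟩
  have hT4' : ∀ x, T (T (T (T x))) = ((a ^ 2 : ℝ) : ℂ) • T (T x) := fun x => by
    rw [hT4, hcr, har]
  refine ⟨a, ha, sq_eq_of_four hT.pos ha hT4', fun Z => ?_⟩
  rw [← hFq, hFc, hcr, ← har, inner_smul_right, inner_self_eq_ofReal, ← Complex.ofReal_mul]
  have h2 : RCLike.re (((a ^ 2 * ‖Z‖ ^ 2 : ℝ) : ℂ)) = a ^ 2 * ‖Z‖ ^ 2 := Complex.ofReal_re _
  rw [h2, enorm_sq_eq_ofReal, ← ENNReal.ofReal_mul (by positivity)]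

theorem unitary_enorm {K : Type} [NormedAddCommGroup K] [InnerProductSpace ℂ K]
    [CompleteSpace K] (W : unitary (K →L[ℂ] K)) (x : K) :
    ‖(W : K →L[ℂ] K) x‖ₑ = ‖x‖ₑ := by
  have h5 := unitary_inner_map W x x
  rw [inner_self_eq_ofReal, inner_self_eq_ofReal] at h5
  have h6 : ‖(W : K →L[ℂ] K) x‖ ^ 2 = ‖x‖ ^ 2 := by exact_mod_cast h5
  rw [← ofReal_norm, ← ofReal_norm, (sq_eq_sq₀ (norm_nonneg _) (norm_nonneg _)).1 h6]

theorem unitary_adjoint_apply {K : Type} [NormedAddCommGroup K] [InnerProductSpace ℂ K]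
    [CompleteSpace K] (W : unitary (K →L[ℂ] K)) (v : K) :
    adjoint (W : K →L[ℂ] K) ((W : K →L[ℂ] K) v) = v := by
  rw [← comp_apply, ← ContinuousLinearMap.mul_def, ← ContinuousLinearMap.star_eq_adjoint,
    Unitary.coe_star_mul_self]
  rfl

theorem unitary_apply_adjoint {K : Type} [NormedAddCommGroup K] [InnerProductSpace ℂ K]
    [CompleteSpace K] (W : unitary (K →L[ℂ] K)) (v : K) :
    (W : K →L[ℂ] K) (adjoint (W : K →L[ℂ] K) v) = v := by
  rw [← comp_apply, ← ContinuousLinearMap.mul_def, ← ContinuousLinearMap.star_eq_adjoint,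
    Unitary.mul_star_self_of_mem W.2]
  rfl

theorem Ad_enorm (W : unitary (H →L[ℂ] H)) (X : HS ι H) :
    ‖Ad b (W : H →L[ℂ] H) X‖ₑ = ‖X‖ₑ := by
  have h5 : ⟪Ad b (W : H →L[ℂ] H) X, Ad b (W : H →L[ℂ] H) X⟫_ℂ = ⟪X, X⟫_ℂ := by
    rw [← adjoint_inner_right, adjoint_Ad]
    congr 1
    refine op_injective b ?_
    rw [op_Ad, op_Ad, adjoint_adjoint]
    ext x
    simp only [comp_apply]
    rw [unitary_adjoint_apply, unitary_adjoint_apply]
  rw [inner_self_eq_ofReal, inner_self_eq_ofReal] at h5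
  have h6 : ‖Ad b (W : H →L[ℂ] H) X‖ ^ 2 = ‖X‖ ^ 2 := by exact_mod_cast h5
  rw [← ofReal_norm, ← ofReal_norm, (sq_eq_sq₀ (norm_nonneg _) (norm_nonneg _)).1 h6]

/-- The partial sum `∑ ‖E (ten v (b l))‖²` is invariant. -/
theorem partial_invariant (E : HS ι H →L[ℂ] HS ι H) (W : unitary (H →L[ℂ] H))
    (hW : Commute (Ad b (W : H →L[ℂ] H)) E) (v : H) :
    ∑' l, ‖E (ten b ((W : H →L[ℂ] H) v) (b l))‖ₑ ^ 2 = ∑' l, ‖E (ten b v (b l))‖ₑ ^ 2 := by
  have hpar : IsParseval fun l => adjoint (W : H →L[ℂ] H) (b l) := by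
    intro x
    have h3 := parseval_hilbertBasis b ((W : H →L[ℂ] H) x)
    rw [unitary_enorm] at h3
    rw [← h3]
    refine tsum_congr fun l => ?_
    rw [adjoint_inner_left]
  rw [tsum_ten_indep b E (parseval_hilbertBasis b) hpar v]
  refine tsum_congr fun l => ?_
  have h2 : ten b ((W : H →L[ℂ] H) v) (b l)
      = Ad b (W : H →L[ℂ] H) (ten b v (adjoint (W : H →L[ℂ] H) (b l))) := by
    rw [Ad_ten, unitary_apply_adjoint]
  have h3 : E (Ad b (W : H →L[ℂ] H) (ten b v (adjoint (W : H →L[ℂ] H) (b l))))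
      = Ad b (W : H →L[ℂ] H) (E (ten b v (adjoint (W : H →L[ℂ] H) (b l)))) :=
    (DFunLike.congr_fun hW.eq _).symm
  rw [h2, h3, Ad_enorm]

/-- The operator of the partial trace commutes with everything that `E` commutes with. -/
theorem exists_partial (E : HS ι H →L[ℂ] HS ι H) (C : ℝ) (hC : 0 ≤ C)
    (hE : ∀ v, ∑' l, ‖E (ten b v (b l))‖ₑ ^ 2 ≤ ENNReal.ofReal C ^ 2 * ‖v‖ₑ ^ 2) :
    ∃ S : H →L[ℂ] H, (∀ v, ENNReal.ofReal (RCLike.re ⟪v, S v⟫_ℂ)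
        = ∑' l, ‖E (ten b v (b l))‖ₑ ^ 2) ∧
      ∀ W : unitary (H →L[ℂ] H), Commute (Ad b (W : H →L[ℂ] H)) E →
        Commute (W : H →L[ℂ] H) S := by
  obtain ⟨S, hS, hSs, hSq, hSpos⟩ := exists_gram
    (fun l : ι => E ∘L tenL b (b l)) C hC hE
  simp only [comp_apply, tenL_apply] at hS hSs hSq
  refine ⟨S, hSq, fun W hW => ?_⟩
  have hSnn : ∀ v, 0 ≤ RCLike.re ⟪v, S v⟫_ℂ := hSpos.re_inner_nonneg_right
  have h2 : ∀ v, ⟪S ((W : H →L[ℂ] H) v), (W : H →L[ℂ] H) v⟫_ℂ = ⟪S v, v⟫_ℂ := by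
    intro v
    have h3 := partial_invariant E W hW v
    rw [← hSq, ← hSq] at h3
    have h4 := (ENNReal.ofReal_eq_ofReal_iff (hSnn _) (hSnn _)).1 h3
    have h5 : ∀ w, ⟪S w, w⟫_ℂ = ((RCLike.re ⟪w, S w⟫_ℂ : ℝ) : ℂ) := by
      intro w
      have h6 : conj ⟪S w, w⟫_ℂ = ⟪S w, w⟫_ℂ := by
        rw [inner_conj_symm]
        exact (hSpos.inner_left_eq_inner_right w w).symm
      have h7 : RCLike.re ⟪w, S w⟫_ℂ = RCLike.re ⟪S w, w⟫_ℂ := inner_re_symm _ _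
      rw [h7]
      exact (Complex.conj_eq_iff_re.1 h6).symm
    rw [h5, h5, h4]
  have h3 : adjoint (W : H →L[ℂ] H) * S * (W : H →L[ℂ] H) = S := by
    refine ContinuousLinearMap.coe_injective ?_
    rw [← ext_inner_map]
    intro v
    show ⟪adjoint (W : H →L[ℂ] H) (S ((W : H →L[ℂ] H) v)), v⟫_ℂ = ⟪S v, v⟫_ℂ
    rw [adjoint_inner_left, h2]
  show (W : H →L[ℂ] H) * S = S * (W : H →L[ℂ] H)
  refine ContinuousLinearMap.ext fun v => ?_
  have h4 := DFunLike.congr_fun h3 v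
  have h5 : adjoint (W : H →L[ℂ] H) (S ((W : H →L[ℂ] H) v)) = S v := h4
  show (W : H →L[ℂ] H) (S v) = S ((W : H →L[ℂ] H) v)
  rw [← h5, unitary_apply_adjoint]

/-- An operator commuting with both representations is scalar. -/
theorem scalar_of_commute (hirr : Irr b U V) {w0 : H} (hw0 : w0 ≠ 0) (S : H →L[ℂ] H)
    (hSU : ∀ g, Commute (U g : H →L[ℂ] H) S) (hSV : ∀ s, Commute (V s : H →L[ℂ] H) S) :
    ∃ d : ℂ, ∀ v, S v = d • v := by
  have hLS : ∃ d : ℂ, lmul (ι := ι) S = d • 1 := by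
    refine hirr (lmul S) (fun s => ?_) (fun s => ?_) (fun g => ?_)
    · refine ContinuousLinearMap.ext fun Z => op_injective b ?_
      show op b (lmul (V s : H →L[ℂ] H) (lmul S Z)) = op b (lmul S (lmul (V s : H →L[ℂ] H) Z))
      rw [op_lmul, op_lmul, op_lmul, op_lmul, ← comp_assoc, ← comp_assoc]
      congr 1
      exact (hSV s).eq
    · refine ContinuousLinearMap.ext fun Z => op_injective b ?_
      show op b (rmul b (V s : H →L[ℂ] H) (lmul S Z)) = op b (lmul S (rmul b (V s : H →L[ℂ] H) Z))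
      rw [op_lmul, op_rmul, op_rmul, op_lmul, comp_assoc]
    · refine ContinuousLinearMap.ext fun Z => op_injective b ?_
      show op b (Ad b (U g : H →L[ℂ] H) (lmul S Z)) = op b (lmul S (Ad b (U g : H →L[ℂ] H) Z))
      rw [op_lmul, op_Ad, op_Ad, op_lmul]
      have h1 : (U g : H →L[ℂ] H) ∘L S = S ∘L (U g : H →L[ℂ] H) := (hSU g).eq
      rw [comp_assoc, ← comp_assoc (U g : H →L[ℂ] H) S, h1, comp_assoc]
  obtain ⟨d, hd⟩ := hLS
  refine ⟨d, fun v => ?_⟩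
  have h1 := DFunLike.congr_fun hd (ten b v w0)
  rw [lmul_ten] at h1
  have h2 : op b (ten b (S v) w0) w0 = op b (d • ten b v w0) w0 := by rw [h1]; rfl
  rw [op_ten, map_smul, _root_.smul_apply, op_ten, rankOne_apply, rankOne_apply, smul_comm] at h2
  have h3 : ⟪w0, w0⟫_ℂ ≠ 0 := inner_self_ne_zero.2 hw0
  exact smul_right_injective H h3 h2

theorem exists_goodProj (hUV : ∀ g s, Commute (U g : H →L[ℂ] H) (V s : H →L[ℂ] H))
    {T : HS ι H →L[ℂ] HS ι H} (hT : GoodOp b U V T)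
    {z : γ → H} (hz : IsFrame U z) (hzfin : ∑' i, ‖z i‖ₑ ^ 2 ≠ ∞) (hicc : IsICC Λ)
    (hirr : Irr b U V) : ∃ E, GoodProj b U V E := by
  have hmal := hT.malnormal hUV hz hzfin hicc
  obtain ⟨a, ha, hT2, hTfull⟩ := hT.exists_scale hUV hz hzfin hicc hirr
  have hac : (a : ℂ) ≠ 0 := by exact_mod_cast ha.ne'
  -- the projection
  obtain ⟨E, hE⟩ : ∃ E : HS ι H →L[ℂ] HS ι H, E = (a : ℂ)⁻¹ • T := ⟨_, rfl⟩
  have hEapp : ∀ x, E x = (a : ℂ)⁻¹ • T x := fun x => by rw [hE]; rfl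
  have hTE : ∀ x, T x = (a : ℂ) • E x := fun x => by
    rw [hEapp, smul_smul, mul_inv_cancel₀ hac, one_smul]
  have hEpos : E.IsPositive := by
    rw [hE, ← Complex.ofReal_inv]
    refine hT.pos.smul_of_nonneg ?_
    exact_mod_cast (inv_pos.2 ha).le
  have hEidem : ∀ x, E (E x) = E x := fun x => by
    rw [hEapp (E x), hEapp x, map_smul, hT2, smul_smul, smul_smul, mul_assoc,
      inv_mul_cancel₀ hac, mul_one]
  have hEadj : adjoint E = E := hEpos.isSelfAdjoint.adjoint_eq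
  have hEsym : ∀ x y, ⟪E x, y⟫_ℂ = ⟪x, E y⟫_ℂ := hEpos.inner_left_eq_inner_right
  have hEV : ∀ s, Commute (Ad b (V s : H →L[ℂ] H)) E := fun s => by
    rw [hE]
    exact (hT.commV s).smul_right _
  have hEU : ∀ g, Commute (Ad b (U g : H →L[ℂ] H)) E := fun s => by
    rw [hE]
    exact (hT.commU s).smul_right _
  have hEne : E ≠ 0 := by
    intro h
    refine hT.ne_zero (ContinuousLinearMap.ext fun x => ?_)
    rw [hTE, h]
    simp
  have hainv : ‖(a : ℂ)⁻¹‖ₑ ^ 2 * ENNReal.ofReal (a ^ 2) = 1 := by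
    rw [enorm_sq_eq_ofReal, ← ENNReal.ofReal_mul (by positivity), norm_inv, Complex.norm_real,
      Real.norm_eq_abs, abs_of_pos ha, inv_pow, inv_mul_cancel₀ (by positivity),
      ENNReal.ofReal_one]
  have hfull : ∀ Z : HS ι H, ∑' k : Λ, ‖E (rmul b (V k : H →L[ℂ] H) Z)‖ₑ ^ 2 = ‖Z‖ₑ ^ 2 := by
    intro Z
    have h1 : ∀ k : Λ, ‖E (rmul b (V k : H →L[ℂ] H) Z)‖ₑ ^ 2
        = ‖(a : ℂ)⁻¹‖ₑ ^ 2 * ‖T (rmul b (V k : H →L[ℂ] H) Z)‖ₑ ^ 2 := fun k => by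
      rw [hEapp, enorm_smul, mul_pow]
    simp only [h1]
    rw [ENNReal.tsum_mul_left, hTfull, ← mul_assoc, hainv, one_mul]
  -- the partial trace
  have hquadE : ∀ x, ‖E x‖ₑ ^ 2 = ENNReal.ofReal a⁻¹ * quad T x := by
    intro x
    have h1 : ⟪E x, E x⟫_ℂ = (a : ℂ)⁻¹ * ⟪x, T x⟫_ℂ := by
      rw [hEsym, hEidem, hEapp, inner_smul_right]
    have h2 : ‖E x‖ ^ 2 = a⁻¹ * RCLike.re ⟪x, T x⟫_ℂ := by
      rw [← inner_self_eq_norm_sq (𝕜 := ℂ), h1, ← Complex.ofReal_inv]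
      simp
    rw [enorm_sq_eq_ofReal, h2, ENNReal.ofReal_mul (by positivity), quad]
  obtain ⟨S, hSq, hSW⟩ := exists_partial (b := b) E (Real.sqrt a⁻¹) (Real.sqrt_nonneg _)
    (fun v => by
      simp only [hquadE]
      rw [ENNReal.tsum_mul_left, ← ENNReal.ofReal_pow (Real.sqrt_nonneg _),
        Real.sq_sqrt (by positivity)]
      gcongr
      exact hT.pbound v)
  obtain ⟨x1, hx1⟩ : ∃ x : HS ι H, x ≠ 0 := by
    by_contra hall
    refine hEne (ContinuousLinearMap.ext fun x => ?_)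
    by_contra h
    exact hall ⟨_, h⟩
  obtain ⟨w0, hw0⟩ : ∃ w : H, w ≠ 0 := by
    by_contra hall
    refine hx1 ?_
    refine op_injective b ?_
    ext x
    have hx : x = 0 := by
      by_contra h'
      exact hall ⟨x, h'⟩
    rw [hx]
    simp
  obtain ⟨d, hSd⟩ := scalar_of_commute hirr hw0 S (fun g => hSW (U g) (hEU g))
    (fun s => hSW (V s) (hEV s))
  have hpart : ∀ v, ∑' l, ‖E (ten b v (b l))‖ₑ ^ 2
      = ENNReal.ofReal (RCLike.re d) * ‖v‖ₑ ^ 2 := by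
    intro v
    rw [← hSq, hSd, inner_smul_right, inner_self_eq_ofReal, enorm_sq_eq_ofReal,
      ← ENNReal.ofReal_mul' (by positivity)]
    congr 1
    simp [-Complex.ofReal_pow]
  refine ⟨E, { idem := ContinuousLinearMap.ext hEidem, selfAdjoint := hEadj, symm := ?_,
               commU := hEU, commV := hEV, mal := ?_, full := ⟨1, one_ne_zero, by simp, fun Z => ?_⟩
               part := ⟨ENNReal.ofReal (RCLike.re d), ?_, by simp, hpart⟩, ne_zero := hEne }⟩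
  · intro v w v' w'
    rw [hEapp, hEapp, inner_smul_right, inner_smul_right, hT.symm]
  · intro k hk
    refine ContinuousLinearMap.ext fun x => ?_
    show E (rmul b (V k : H →L[ℂ] H) (E x)) = 0
    have h2 : T (rmul b (V k : H →L[ℂ] H) (T x)) = 0 := DFunLike.congr_fun (hmal k hk) x
    rw [hEapp, hEapp, map_smul, map_smul, h2, smul_zero, smul_zero]
  · rw [hfull, one_mul]
  · intro h0
    simp only [h0, zero_mul] at hpart
    refine hEne (ContinuousLinearMap.ext fun W => ?_)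
    refine op_injective b ?_
    refine clm_ext_basis b fun l => ?_
    refine ext_inner_left ℂ fun v => ?_
    rw [← inner_ten_left, ← hEsym]
    have h1 := ENNReal.tsum_eq_zero.1 (hpart v) l
    have h2 : E (ten b v (b l)) = 0 := by simpa using h1
    rw [h2, inner_zero_left]
    simp

end

end Vale.Agent.P092
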