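import Vale.Agent.P092.H414.Main
import Vale.Agent.P092.H418.CanLower

/-!
# The fourth power sums as coefficients of unitary representations
-/

namespace Vale.Agent.P092

open scoped InnerProductSpace ENNReal ComplexConjugate
open ContinuousLinearMap InnerProductSpace

noncomputable section

variable {Γ : Type} [Group Γ]

/-- A family of vectors with an invariant Gram matrix comes from a representation without
invariant vectors, or its convex hull stays away from `0`. -/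
theorem rep_or_hull {K : Type} [NormedAddCommGroup K] [InnerProductSpace ℂ K] [CompleteSpace K]
    (κ : Γ → K) (hgram : ∀ g x y, ⟪κ (g * x), κ (g * y)⟫_ℂ = ⟪κ x, κ y⟫_ℂ) :
    (∃ (K₀ : Type) (_ : NormedAddCommGroup K₀) (_ : InnerProductSpace ℂ K₀)
      (_ : CompleteSpace K₀) (π : Γ →* unitary (K₀ →L[ℂ] K₀)) (ξ : K₀),
      (∀ η : K₀, (∀ g, (π g : K₀ →L[ℂ] K₀) η = η) → η = 0) ∧
      ∀ g h, ⟪(π g : K₀ →L[ℂ] K₀) ξ, (π h : K₀ →L[ℂ] K₀) ξ⟫_ℂ = ⟪κ g, κ h⟫_ℂ) ∨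
    ∃ ε : ℝ, 0 < ε ∧ ∀ x ∈ convexHull ℝ (Set.range κ), ε ≤ ‖x‖ ^ 2 := by
  obtain ⟨K₀, _, _, _, π, j, ξ, hj, htot⟩ := exists_rep κ hgram
  by_cases hinv : ∀ η : K₀, (∀ g, (π g : K₀ →L[ℂ] K₀) η = η) → η = 0
  · left
    refine ⟨K₀, inferInstance, inferInstance, inferInstance, π, ξ, hinv, fun g h => ?_⟩
    rw [← hj g, ← hj h, j.inner_map_map]
  · right
    have hinv' : ∃ η : K₀, (∀ g, (π g : K₀ →L[ℂ] K₀) η = η) ∧ η ≠ 0 := by
      by_contra h
      refine hinv fun η hη => ?_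
      by_contra h0
      exact h ⟨η, hη, h0⟩
    obtain ⟨η, hη, hη0⟩ := hinv'
    have hηπ : ∀ g, ⟪η, (π g : K₀ →L[ℂ] K₀) ξ⟫_ℂ = ⟪η, ξ⟫_ℂ := by
      intro g
      rw [rep_inner_right, hη]
    have hηξ : ⟪η, ξ⟫_ℂ ≠ 0 := by
      intro h0
      refine hη0 (htot η fun g => ?_)
      rw [← inner_conj_symm, hηπ, h0, map_zero]
    have hηn : 0 < ‖η‖ := norm_pos_iff.2 hη0
    have hpos : 0 < ‖⟪η, ξ⟫_ℂ‖ := norm_pos_iff.2 hηξ
    refine ⟨(‖⟪η, ξ⟫_ℂ‖ / ‖η‖) ^ 2, by positivity, fun x hx => ?_⟩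
    have hx' : x ∈ {x : K | ⟪j η, x⟫_ℂ = ⟪η, ξ⟫_ℂ} := by
      refine convexHull_min (s := Set.range κ) ?_ ?_ hx
      · rintro _ ⟨g, rfl⟩
        show ⟪j η, κ g⟫_ℂ = ⟪η, ξ⟫_ℂ
        rw [← hj g, j.inner_map_map, hηπ]
      · intro a ha b hb r s hr hs hrs
        show ⟪j η, r • a + s • b⟫_ℂ = ⟪η, ξ⟫_ℂ
        have ha' : ⟪j η, a⟫_ℂ = ⟪η, ξ⟫_ℂ := ha
        have hb' : ⟪j η, b⟫_ℂ = ⟪η, ξ⟫_ℂ := hb
        rw [inner_add_right, ← Complex.coe_smul, ← Complex.coe_smul, inner_smul_right,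
          inner_smul_right, ha', hb', ← add_mul, ← Complex.ofReal_add, hrs]
        simp
    have h2 : ‖⟪η, ξ⟫_ℂ‖ ≤ ‖η‖ * ‖x‖ := by
      rw [← (show ⟪j η, x⟫_ℂ = ⟪η, ξ⟫_ℂ from hx')]
      refine (norm_inner_le_norm _ _).trans (le_of_eq ?_)
      rw [j.norm_map]
    have h3 : ‖⟪η, ξ⟫_ℂ‖ / ‖η‖ ≤ ‖x‖ := by
      rw [div_le_iff₀ hηn, mul_comm]
      exact h2
    gcongr

/-- In a unitary representation without invariant vectors, the coefficients between two vectors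
are not bounded below. -/
theorem not_lower_of_no_inv {K : Type} [NormedAddCommGroup K] [InnerProductSpace ℂ K]
    [CompleteSpace K] (π : Γ →* unitary (K →L[ℂ] K))
    (hinv : ∀ η : K, (∀ g, (π g : K →L[ℂ] K) η = η) → η = 0) (x y : K) {ε : ℝ} (hε : 0 < ε)
    (h : ∀ g, ε ≤ RCLike.re ⟪y, (π g : K →L[ℂ] K) x⟫_ℂ) : False := by
  let _ : InnerProductSpace ℝ K := InnerProductSpace.rclikeToReal ℂ K
  have hreal : ∀ a b : K, ⟪a, b⟫_ℝ = RCLike.re ⟪a, b⟫_ℂ := fun a b => rfl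
  set O : Set K := Set.range fun g => (π g : K →L[ℂ] K) x with hO
  set C : Set K := closure (convexHull ℝ O) with hC
  have hCconv : Convex ℝ C := (convex_convexHull ℝ O).closure
  have hOC : O ⊆ C := (subset_convexHull ℝ O).trans subset_closure
  have hne : C.Nonempty := ⟨_, hOC ⟨1, rfl⟩⟩
  have hcomp : IsComplete C := isClosed_closure.isComplete
  obtain ⟨η, hη, hmin⟩ := exists_norm_eq_iInf_of_complete_convex hne hcomp hCconv 0
  have hmin' := (norm_eq_iInf_iff_real_inner_le_zero hCconv hη).1 hmin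
  -- `C` is invariant
  have hCinv : ∀ g, ∀ w ∈ C, (π g : K →L[ℂ] K) w ∈ C := by
    intro g w hw
    have h1 : convexHull ℝ O ⊆ (fun w => (π g : K →L[ℂ] K) w) ⁻¹' convexHull ℝ O := by
      refine convexHull_min ?_ ?_
      · rintro _ ⟨k, rfl⟩
        refine subset_convexHull ℝ O ⟨g * k, ?_⟩
        exact rep_mul_apply π g k x
      · intro a ha b hb r s hr hs hrs
        show (π g : K →L[ℂ] K) (r • a + s • b) ∈ convexHull ℝ O
        have h2 : (π g : K →L[ℂ] K) (r • a + s • b)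
            = r • (π g : K →L[ℂ] K) a + s • (π g : K →L[ℂ] K) b := by
          rw [map_add, ← Complex.coe_smul, ← Complex.coe_smul, map_smul, map_smul,
            Complex.coe_smul, Complex.coe_smul]
        rw [h2]
        exact convex_convexHull ℝ O ha hb hr hs hrs
    have h2 : C ⊆ (fun w => (π g : K →L[ℂ] K) w) ⁻¹' C := by
      refine closure_minimal (h1.trans (Set.preimage_mono subset_closure)) ?_
      exact isClosed_closure.preimage (π g : K →L[ℂ] K).continuous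
    exact h2 hw
  have hηinv : ∀ g, (π g : K →L[ℂ] K) η = η := by
    intro g
    have h1 := hmin' _ (hCinv g η hη)
    rw [hreal, zero_sub, inner_neg_left, inner_sub_right, map_neg, map_sub] at h1
    have h2 : RCLike.re ⟪η, η⟫_ℂ = ‖η‖ ^ 2 := inner_self_eq_norm_sq (𝕜 := ℂ) η
    have h3 : ‖(π g : K →L[ℂ] K) η - η‖ ^ 2
        = ‖(π g : K →L[ℂ] K) η‖ ^ 2 - 2 * RCLike.re ⟪(π g : K →L[ℂ] K) η, η⟫_ℂ + ‖η‖ ^ 2 :=
      norm_sub_sq (𝕜 := ℂ) _ _
    have h4 : RCLike.re ⟪(π g : K →L[ℂ] K) η, η⟫_ℂ = RCLike.re ⟪η, (π g : K →L[ℂ] K) η⟫_ℂ :=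
      inner_re_symm (𝕜 := ℂ) _ _
    rw [rep_norm] at h3
    have h5 : ‖(π g : K →L[ℂ] K) η - η‖ ^ 2 ≤ 0 := by linarith
    have h6 : ‖(π g : K →L[ℂ] K) η - η‖ = 0 := by
      have := sq_nonneg ‖(π g : K →L[ℂ] K) η - η‖
      exact pow_eq_zero_iff (two_ne_zero) |>.1 (le_antisymm h5 this)
    exact sub_eq_zero.1 (norm_eq_zero.1 h6)
  have hη0 := hinv η hηinv
  have hlow : C ⊆ {w | ε ≤ RCLike.re ⟪y, w⟫_ℂ} := by
    refine closure_minimal (convexHull_min ?_ ?_) ?_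
    · rintro _ ⟨g, rfl⟩
      exact h g
    · intro a ha b hb r s hr hs hrs
      show ε ≤ RCLike.re ⟪y, r • a + s • b⟫_ℂ
      have ha' : ε ≤ RCLike.re ⟪y, a⟫_ℂ := ha
      have hb' : ε ≤ RCLike.re ⟪y, b⟫_ℂ := hb
      have h2 : RCLike.re ⟪y, r • a + s • b⟫_ℂ
          = r * RCLike.re ⟪y, a⟫_ℂ + s * RCLike.re ⟪y, b⟫_ℂ := by
        rw [← hreal, ← hreal, ← hreal, inner_add_right, real_inner_smul_right,
          real_inner_smul_right]
      rw [h2]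
      nlinarith
    · exact isClosed_le continuous_const
        (RCLike.continuous_re.comp (continuous_const.inner continuous_id))
  have h7 := hlow hη
  rw [hη0] at h7
  have h8 : ε ≤ RCLike.re ⟪y, (0 : K)⟫_ℂ := h7
  rw [inner_zero_right, map_zero] at h8
  linarith

section abstract

variable {ι α γ Λ : Type} [Group Λ]
  {H : Type} [NormedAddCommGroup H] [InnerProductSpace ℂ H] [CompleteSpace H]
  (b : HilbertBasis ι ℂ H) {U : Γ →* unitary (H →L[ℂ] H)} {V : Λ →* unitary (H →L[ℂ] H)}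

/-- The fourth power sum is a coefficient of a representation without invariant vectors, unless
the conclusion holds. -/
theorem concl_or_coefficient [Countable Γ] [Fintype α]
    (hUV : ∀ g s, Commute (U g : H →L[ℂ] H) (V s : H →L[ℂ] H))
    {z : γ → H} (hz : IsFrame U z) (hzfin : ∑' i, ‖z i‖ₑ ^ 2 ≠ ∞) (hicc : IsICC Λ)
    (hirr : Irr b U V) {a : α → H} (ha : IsBFrame V a)
    (htot : ∀ v : H, (∀ g i, ⟪(U g : H →L[ℂ] H) (a i), v⟫_ℂ = 0) → v = 0) :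
    Concl U V ∨ ∃ (K : Type) (_ : NormedAddCommGroup K) (_ : InnerProductSpace ℂ K)
      (_ : CompleteSpace K) (π : Γ →* unitary (K →L[ℂ] K)) (ξ : K),
      (∀ η : K, (∀ g, (π g : K →L[ℂ] K) η = η) → η = 0) ∧
      ∀ g, phi4 U V a g ≠ ∞ ∧
        ⟪ξ, (π g : K →L[ℂ] K) ξ⟫_ℂ = ((phi4 U V a g).toReal : ℂ) := by
  obtain ⟨e, he⟩ : ∃ e : Γ × α → H, IsFrame V e := by
    refine exists_isFrame V (fun p : Γ × α => (U p.1 : H →L[ℂ] H) (a p.2)) (fun p => ?_) ?_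
    · exact (ha.translate hUV p.1).single p.2
    · intro v hv
      refine htot v fun g i => ?_
      have h2 := hv (g, i) 1
      rw [rep_one_apply] at h2
      exact h2
  have hphi : ∀ g, ENNReal.ofReal (RCLike.re ⟪kap b hUV ha he g, kap b hUV ha he 1⟫_ℂ)
      = phi4 U V a g := by
    intro g
    rw [ofReal_re_inner_kap, phi4]
    refine Finset.sum_congr rfl fun i _ => tsum_congr fun q => ?_
    rw [rep_one_apply]
  have hreal : ∀ g h, ⟪kap b hUV ha he g, kap b hUV ha he h⟫_ℂ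
      = ((RCLike.re ⟪kap b hUV ha he g, kap b hUV ha he h⟫_ℂ : ℝ) : ℂ) := by
    intro g h
    have h1 : ∀ i, ⟪Eg b hUV ha g (ten b ((U h : H →L[ℂ] H) (a i)) ((U h : H →L[ℂ] H) (a i))),
        ten b ((U h : H →L[ℂ] H) (a i)) ((U h : H →L[ℂ] H) (a i))⟫_ℂ
        = ((RCLike.re ⟪Eg b hUV ha g (ten b ((U h : H →L[ℂ] H) (a i))
          ((U h : H →L[ℂ] H) (a i))),
          ten b ((U h : H →L[ℂ] H) (a i)) ((U h : H →L[ℂ] H) (a i))⟫_ℂ : ℝ) : ℂ) := by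
      intro i
      have h2 := (Eg_preGood b hUV ha g).pos.inner_left_eq_inner_right
        (ten b ((U h : H →L[ℂ] H) (a i)) ((U h : H →L[ℂ] H) (a i)))
        (ten b ((U h : H →L[ℂ] H) (a i)) ((U h : H →L[ℂ] H) (a i)))
      have h3 : conj ⟪Eg b hUV ha g (ten b ((U h : H →L[ℂ] H) (a i)) ((U h : H →L[ℂ] H) (a i))),
        ten b ((U h : H →L[ℂ] H) (a i)) ((U h : H →L[ℂ] H) (a i))⟫_ℂ
        = ⟪Eg b hUV ha g (ten b ((U h : H →L[ℂ] H) (a i)) ((U h : H →L[ℂ] H) (a i))),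
        ten b ((U h : H →L[ℂ] H) (a i)) ((U h : H →L[ℂ] H) (a i))⟫_ℂ := by
        rw [inner_conj_symm, h2]
      exact (Complex.conj_eq_iff_re.1 h3).symm
    rw [inner_kap, map_sum, Complex.ofReal_sum]
    exact Finset.sum_congr rfl fun i _ => h1 i
  rcases rep_or_hull (kap b hUV ha he) (inner_kap_translate b hUV ha he) with h | ⟨ε, hε, h2⟩
  · right
    obtain ⟨K, _, _, _, π, ξ, hinv, hgram⟩ := h
    refine ⟨K, inferInstance, inferInstance, inferInstance, π, ξ, hinv, fun g => ?_⟩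
    refine ⟨by rw [← hphi]; exact ENNReal.ofReal_ne_top, ?_⟩
    have h3 := hgram 1 g
    rw [rep_one_apply] at h3
    rw [h3, hreal, ← hphi, ENNReal.toReal_ofReal (re_inner_kap_nonneg b hUV ha he _ _),
      inner_re_symm]
  · left
    exact concl_of_convexHull hUV hz hzfin hicc hirr ha he hε h2

end abstract

/-- `f` is a coefficient of a unitary representation of `Γ` without nonzero invariant vectors. -/
def IsCoefNoInv (f : Γ → ℝ≥0∞) : Prop :=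
  ∃ (K : Type) (_ : NormedAddCommGroup K) (_ : InnerProductSpace ℂ K)
      (_ : CompleteSpace K) (π : Γ →* unitary (K →L[ℂ] K)) (ξ : K),
      (∀ η : K, (∀ g, (π g : K →L[ℂ] K) η = η) → η = 0) ∧
      ∀ g, f g ≠ ∞ ∧ ⟪ξ, (π g : K →L[ℂ] K) ξ⟫_ℂ = ((f g).toReal : ℂ)

theorem AmpIso.isCanonical_or_coef {Γ Λ : Type} [Group Γ] [Group Λ] [Countable Γ] {n : ℕ}
    (Φ : AmpIso Γ Λ n) (hicc : IsICC Γ) (hΛ : IsICC Λ) :
    Φ.IsCanonical ∨ IsCoefNoInv Φ.fourth := by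
  obtain ⟨t, ht, htr⟩ := Φ.exists_trace hΛ
  obtain ⟨ι, b, -⟩ := exists_hilbertBasis ℂ Φ.HH
  have hn : 0 < n := by
    rcases Nat.eq_zero_or_pos n with hn | hn
    · subst hn
      exfalso
      have h2 := htr 1
      rw [tau] at h2
      have h3 : ((1 : LG Λ) : ell2 Λ →L[ℂ] ell2 Λ) (delta 1) = delta 1 := rfl
      rw [h3, inner_delta, delta_apply_self, mul_one] at h2
      simp at h2
      exact ht.ne' (by exact_mod_cast h2.symm)
    · exact hn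
  have hr : (0 : ℝ) < (√(t * n))⁻¹ := by
    have : (0 : ℝ) < n := by exact_mod_cast hn
    positivity
  have ha := Φ.isBFrame_zv ht htr
  generalize (√(t * n))⁻¹ = r at hr ha
  have hrc : ((r : ℝ) : ℂ) ≠ 0 := by exact_mod_cast hr.ne'
  have hre : ‖(r : ℂ)‖ₑ ^ 8 ≠ 0 := pow_ne_zero _ (by simpa using hrc)
  have hre' : ‖(r : ℂ)‖ₑ ^ 8 ≠ ∞ := by finiteness
  have hzfin : ∑' i, ‖Φ.zv i‖ₑ ^ 2 ≠ ∞ := by
    rw [tsum_fintype]
    exact ENNReal.sum_ne_top.2 fun i _ => by finiteness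
  have htot : ∀ v : Φ.HH, (∀ g i, ⟪(Φ.Urep g : Φ.HH →L[ℂ] Φ.HH) ((r : ℂ) • Φ.zv i), v⟫_ℂ = 0) →
      v = 0 := by
    intro v hv
    refine Φ.eq_zero_of_inner_zv fun g i => ?_
    have h2 := hv g i
    have h3 : (Φ.Urep g : Φ.HH →L[ℂ] Φ.HH) ((r : ℂ) • Φ.zv i)
        = (r : ℂ) • (Φ.Urep g : Φ.HH →L[ℂ] Φ.HH) (Φ.zv i) :=
      (Φ.Urep g : Φ.HH →L[ℂ] Φ.HH).map_smul _ _
    rw [h3] at h2
    exact inner_eq_zero_of_smul hrc ((Φ.Urep g : Φ.HH →L[ℂ] Φ.HH) (Φ.zv i)) v h2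
  rcases concl_or_coefficient b Φ.commute_U_V Φ.isFrame_zv hzfin hΛ
    (Φ.irr b hicc htr) ha htot with hC | hdec
  · left
    exact Φ.isCanonical_of_concl hicc htr hC
  · right
    obtain ⟨K, _, _, _, π, ξ, hinv, hcoef⟩ := hdec
    have hphi : ∀ g, phi4 Φ.Urep Φ.Vrep (fun i => (r : ℂ) • Φ.zv i) g
        = ‖(r : ℂ)‖ₑ ^ 8 * Φ.fourth g := fun g => Φ.phi4_eq r g
    refine ⟨K, inferInstance, inferInstance, inferInstance, π, ((r ^ 4)⁻¹ : ℝ) • ξ, hinv,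
      fun g => ?_⟩
    obtain ⟨h1, h2⟩ := hcoef g
    rw [hphi] at h1 h2
    have hr8 : ‖(r : ℂ)‖ₑ ^ 8 = ENNReal.ofReal (r ^ 8) := by
      rw [ENNReal.ofReal_pow hr.le, ← ofReal_norm, Complex.norm_real, Real.norm_of_nonneg hr.le]
    refine ⟨fun h => h1 (by rw [h, ENNReal.mul_top hre]), ?_⟩
    rw [ENNReal.toReal_mul, hr8, ENNReal.toReal_ofReal (by positivity)] at h2
    have h3 : (π g : K →L[ℂ] K) (((r ^ 4)⁻¹ : ℝ) • ξ)
        = (((r ^ 4)⁻¹ : ℝ) : ℂ) • (π g : K →L[ℂ] K) ξ := by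
      rw [← Complex.coe_smul, map_smul]
    rw [h3, ← Complex.coe_smul, inner_smul_left, inner_smul_right, h2, Complex.conj_ofReal]
    push_cast
    have h4 : (r : ℂ) ≠ 0 := hrc
    field_simp

/-- A canonical isomorphism is not a coefficient of a representation without invariant vectors. -/
theorem AmpIso.IsCanonical.not_coef {Γ Λ : Type} [Group Γ] [Group Λ] {n : ℕ}
    {Φ : AmpIso Γ Λ n} (hcan : Φ.IsCanonical) : ¬ IsCoefNoInv Φ.fourth := by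
  rintro ⟨K, _, _, _, π, ξ, hinv, hcoef⟩
  obtain ⟨F, ε, hε, hF⟩ := hcan.exists_lower
  refine not_lower_of_no_inv π hinv (∑ f ∈ F, (π f : K →L[ℂ] K) ξ)
    (∑ f ∈ F, (π f⁻¹ : K →L[ℂ] K) ξ) hε fun g => ?_
  have h1 : ∀ f f' : Γ, ⟪(π f⁻¹ : K →L[ℂ] K) ξ, (π g : K →L[ℂ] K) ((π f' : K →L[ℂ] K) ξ)⟫_ℂ
      = ((Φ.fourth (f * g * f')).toReal : ℂ) := by
    intro f f'
    rw [← (hcoef (f * g * f')).2, rep_mul_apply, rep_mul_apply, rep_inner_left, inv_inv]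
  rw [map_sum, sum_inner]
  simp only [inner_sum, h1]
  obtain ⟨f, hf, f', hf', hff⟩ := hF g
  have h2 : ε ≤ (Φ.fourth (f * g * f')).toReal :=
    (ENNReal.ofReal_le_iff_le_toReal (hcoef _).1).1 hff
  have hre : ∀ x : ℝ, RCLike.re (x : ℂ) = x := Complex.ofReal_re
  simp only [map_sum, hre]
  refine h2.trans (le_trans ?_ (Finset.single_le_sum (f := fun f =>
    ∑ f' ∈ F, (Φ.fourth (f * g * f')).toReal)
    (fun _ _ => Finset.sum_nonneg fun _ _ => ENNReal.toReal_nonneg) hf))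
  exact Finset.single_le_sum (f := fun f' => (Φ.fourth (f * g * f')).toReal)
    (fun _ _ => ENNReal.toReal_nonneg) hf'

theorem AmpIso.isCanonical_iff {Γ Λ : Type} [Group Γ] [Group Λ] [Countable Γ] {n : ℕ}
    (Φ : AmpIso Γ Λ n) (hicc : IsICC Γ) (hΛ : IsICC Λ) :
    Φ.IsCanonical ↔ ¬ IsCoefNoInv Φ.fourth :=
  ⟨fun h => h.not_coef, fun h => (Φ.isCanonical_or_coef hicc hΛ).resolve_right h⟩

end

end Vale.Agent.P092
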