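import Vale.Agent.P092.H184.Embed
import Vale.Agent.P092.Defs

/-!
# The consequence of property (T)
-/

namespace Vale.Agent.P092

open scoped InnerProductSpace ENNReal ComplexConjugate
open ContinuousLinearMap InnerProductSpace

noncomputable section

variable {Γ : Type} [Group Γ]

/-- A family of vectors indexed by a group with an invariant Gram matrix comes from a unitary
representation. -/
theorem exists_rep {K : Type} [NormedAddCommGroup K] [InnerProductSpace ℂ K] [CompleteSpace K]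
    (κ : Γ → K) (hgram : ∀ g x y, ⟪κ (g * x), κ (g * y)⟫_ℂ = ⟪κ x, κ y⟫_ℂ) :
    ∃ (K₀ : Type) (_ : NormedAddCommGroup K₀) (_ : InnerProductSpace ℂ K₀)
      (_ : CompleteSpace K₀) (π : Γ →* unitary (K₀ →L[ℂ] K₀)) (j : K₀ →ₗᵢ[ℂ] K) (ξ : K₀),
      (∀ g, j ((π g : K₀ →L[ℂ] K₀) ξ) = κ g) ∧
      ∀ x, (∀ g, ⟪(π g : K₀ →L[ℂ] K₀) ξ, x⟫_ℂ = 0) → x = 0 := by
  let K₀ : Submodule ℂ K := (Submodule.span ℂ (Set.range κ)).topologicalClosure
  have hmem : ∀ g, κ g ∈ K₀ := fun g =>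
    Submodule.le_topologicalClosure _ (Submodule.subset_span ⟨g, rfl⟩)
  let κ₀ : Γ → K₀ := fun g => ⟨κ g, hmem g⟩
  have : CompleteSpace K₀ := (Submodule.isClosed_topologicalClosure _).completeSpace_coe
  have htot : ∀ x : K₀, (∀ g, ⟪κ₀ g, x⟫_ℂ = 0) → x = 0 := by
    intro x hx
    have h1 : (x : K) ∈ (Submodule.span ℂ (Set.range κ))ᗮ := by
      rw [Submodule.mem_orthogonal]
      intro u hu
      induction hu using Submodule.span_induction with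
      | mem u hu =>
        obtain ⟨g, rfl⟩ := hu
        exact hx g
      | zero => exact inner_zero_left _
      | add u v _ _ hu hv => rw [inner_add_left, hu, hv, add_zero]
      | smul c u _ hu => rw [inner_smul_left, hu, mul_zero]
    have h2 : (x : K) ∈ K₀ᗮ := by
      have h3 := Submodule.orthogonal_closure (Submodule.span ℂ (Set.range κ))
      show (x : K) ∈ ((Submodule.span ℂ (Set.range κ)).topologicalClosure)ᗮ
      rw [h3]
      exact h1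
    have h3 : ⟪(x : K), (x : K)⟫_ℂ = 0 := (Submodule.mem_orthogonal _ _).1 h2 _ x.2
    exact Subtype.ext (inner_self_eq_zero.1 h3)
  have hgram₀ : ∀ g x y, ⟪κ₀ (g * x), κ₀ (g * y)⟫_ℂ = ⟪κ₀ x, κ₀ y⟫_ℂ := hgram
  choose W hW using fun g : Γ => exists_clm_of_gram κ₀ (fun x => κ₀ (g * x))
    (fun x y => hgram₀ g x y) htot
  have hWmul : ∀ g h, W g * W h = W (g * h) := by
    intro g h
    refine clm_ext_total htot fun x => ?_
    show W g (W h (κ₀ x)) = _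
    rw [hW, hW, hW, mul_assoc]
  have hWone : W 1 = 1 := by
    refine clm_ext_total htot fun x => ?_
    rw [hW, one_mul]
    rfl
  have hWadj : ∀ g, adjoint (W g) = W g⁻¹ := by
    intro g
    refine clm_ext_total htot fun y => ?_
    rw [hW, ← sub_eq_zero]
    refine htot _ fun x => ?_
    rw [inner_sub_right, adjoint_inner_right, hW, sub_eq_zero]
    have h1 := hgram₀ g x (g⁻¹ * y)
    rw [mul_inv_cancel_left] at h1
    exact h1
  let π : Γ →* unitary (K₀ →L[ℂ] K₀) :=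
    { toFun := fun g => ⟨W g, by
        rw [Unitary.mem_iff, ContinuousLinearMap.star_eq_adjoint, hWadj, hWmul, hWmul,
          inv_mul_cancel, mul_inv_cancel, hWone]
        exact ⟨rfl, rfl⟩⟩
      map_one' := Subtype.ext hWone
      map_mul' := fun g h => Subtype.ext (hWmul g h).symm }
  have hπ : ∀ g, (π g : K₀ →L[ℂ] K₀) (κ₀ 1) = κ₀ g := fun g => by
    show W g (κ₀ 1) = κ₀ g
    rw [hW, mul_one]
  refine ⟨K₀, inferInstance, inferInstance, this, π, K₀.subtypeₗᵢ, κ₀ 1, fun g => ?_,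
    fun x hx => htot x fun g => ?_⟩
  · rw [hπ]
    rfl
  · rw [← hπ]
    exact hx g

theorem prod_norm_bound (S : Set Γ) (g : Γ) (hg : g ∈ Subgroup.closure S) :
    ∃ N : ℕ, ∀ (K : Type) [NormedAddCommGroup K] [InnerProductSpace ℂ K] [CompleteSpace K]
      (π : Γ →* unitary (K →L[ℂ] K)) (x : K) (δ : ℝ),
      (∀ s ∈ S, ‖(π s : K →L[ℂ] K) x - x‖ ≤ δ) → ‖(π g : K →L[ℂ] K) x - x‖ ≤ N * δ := by
  induction hg using Subgroup.closure_induction with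
  | mem s hs =>
    refine ⟨1, fun K _ _ _ π x δ h => ?_⟩
    simpa using h s hs
  | one =>
    refine ⟨0, fun K _ _ _ π x δ h => ?_⟩
    rw [rep_one_apply]
    simp
  | mul g h _ _ hg hh =>
    obtain ⟨N, hN⟩ := hg
    obtain ⟨M, hM⟩ := hh
    refine ⟨N + M, fun K _ _ _ π x δ hx => ?_⟩
    have h1 := hN K π x δ hx
    have h2 := hM K π x δ hx
    have h3 : (π (g * h) : K →L[ℂ] K) x - x
        = (π g : K →L[ℂ] K) ((π h : K →L[ℂ] K) x - x) + ((π g : K →L[ℂ] K) x - x) := by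
      rw [rep_mul_apply, map_sub]
      abel
    calc ‖(π (g * h) : K →L[ℂ] K) x - x‖
        ≤ ‖(π g : K →L[ℂ] K) ((π h : K →L[ℂ] K) x - x)‖ + ‖(π g : K →L[ℂ] K) x - x‖ := by
          rw [h3]
          exact norm_add_le _ _
      _ = ‖(π h : K →L[ℂ] K) x - x‖ + ‖(π g : K →L[ℂ] K) x - x‖ := by rw [rep_norm]
      _ ≤ M * δ + N * δ := add_le_add h2 h1
      _ = ((N + M : ℕ) : ℝ) * δ := by push_cast; ring
  | inv g _ hg =>
    obtain ⟨N, hN⟩ := hg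
    refine ⟨N, fun K _ _ _ π x δ hx => ?_⟩
    have h1 := hN K π x δ hx
    have h2 : (π g⁻¹ : K →L[ℂ] K) x - x
        = (π g⁻¹ : K →L[ℂ] K) (x - (π g : K →L[ℂ] K) x) := by
      rw [map_sub, rep_inv_apply_apply]
    rw [h2, rep_norm, norm_sub_rev]
    exact h1

/-- In a representation without invariant vectors every vector is moved by some element of `S`. -/
theorem PropertyT.exists_gap (hT : PropertyT Γ) (S : Finset Γ) (h1 : (1 : Γ) ∈ S)
    (hS : Subgroup.closure (S : Set Γ) = ⊤) :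
    ∃ δ : ℝ, 0 < δ ∧ δ ≤ 1 ∧ ∀ (K : Type) [NormedAddCommGroup K] [InnerProductSpace ℂ K]
      [CompleteSpace K] (π : Γ →* unitary (K →L[ℂ] K)),
      (∀ η : K, (∀ g, (π g : K →L[ℂ] K) η = η) → η = 0) →
      ∀ x : K, ∃ s ∈ S, δ * ‖x‖ ≤ ‖(π s : K →L[ℂ] K) x - x‖ := by
  obtain ⟨Q, ε, hε, hQ⟩ := hT
  choose N hN using fun g : Γ => prod_norm_bound (S : Set Γ) g (by rw [hS]; trivial)
  let M : ℕ := Q.sup N + 1
  have hM : ∀ g ∈ Q, (N g : ℝ) ≤ M := fun g hg => by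
    have h2 : N g ≤ Q.sup N := Finset.le_sup hg
    have h3 : N g ≤ M := h2.trans (Nat.le_succ _)
    exact_mod_cast h3
  have hMpos : (0 : ℝ) < M := by
    have : 0 < M := Nat.succ_pos _
    exact_mod_cast this
  refine ⟨min 1 (ε / (2 * M)), lt_min one_pos (by positivity), min_le_left _ _,
    fun K _ _ _ π hπ x => ?_⟩
  by_contra hcon
  have hcon' : ∀ s ∈ S, ‖(π s : K →L[ℂ] K) x - x‖ < min 1 (ε / (2 * M)) * ‖x‖ := by
    intro s hs
    by_contra h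
    exact hcon ⟨s, hs, not_lt.1 h⟩
  have hx : x ≠ 0 := by
    intro hx
    have h3 := hcon' 1 h1
    rw [hx] at h3
    simp at h3
  have hxpos : 0 < ‖x‖ := norm_pos_iff.2 hx
  obtain ⟨η, hη0, hη⟩ := hQ K π ⟨x, hx, fun g hg => by
    have h2 := hN g K π x (ε / (2 * M) * ‖x‖) (fun s hs => (hcon' s hs).le.trans (by
      gcongr
      exact min_le_right _ _))
    calc ‖(π g : K →L[ℂ] K) x - x‖ ≤ N g * (ε / (2 * M) * ‖x‖) := h2
      _ ≤ M * (ε / (2 * M) * ‖x‖) := by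
          gcongr
          exact_mod_cast hM g hg
      _ = ε / 2 * ‖x‖ := by
          field_simp
      _ < ε * ‖x‖ := by
          gcongr
          linarith⟩
  exact hη0 (hπ η hη)

theorem norm_add_le_of_norm_sub {K : Type} [NormedAddCommGroup K] [InnerProductSpace ℂ K]
    {x y : K} (hxy : ‖y‖ = ‖x‖) {δ : ℝ} (hδ0 : 0 ≤ δ) (hδ : δ ≤ 1) (h : δ * ‖x‖ ≤ ‖y - x‖) :
    ‖x + y‖ ≤ (2 - δ ^ 2 / 4) * ‖x‖ := by
  have h1 := parallelogram_law_with_norm ℂ x y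
  rw [hxy, norm_sub_rev] at h1
  have h2 : (δ * ‖x‖) * (δ * ‖x‖) ≤ ‖y - x‖ * ‖y - x‖ := by gcongr
  have h3 : 0 ≤ (2 - δ ^ 2 / 4) * ‖x‖ := by
    have : 0 ≤ 2 - δ ^ 2 / 4 := by nlinarith
    positivity
  refine abs_le_of_sq_le_sq' ?_ h3 |>.2
  nlinarith [sq_nonneg (δ ^ 2 * ‖x‖), sq_nonneg ‖x‖]

/-- The averaging operator is a strict contraction in a representation without invariant
vectors. -/
theorem PropertyT.exists_contraction (hT : PropertyT Γ) (S : Finset Γ) (h1 : (1 : Γ) ∈ S)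
    (hS : Subgroup.closure (S : Set Γ) = ⊤) :
    ∃ c : ℝ, 0 ≤ c ∧ c < 1 ∧ ∀ (K : Type) [NormedAddCommGroup K] [InnerProductSpace ℂ K]
      [CompleteSpace K] (π : Γ →* unitary (K →L[ℂ] K)),
      (∀ η : K, (∀ g, (π g : K →L[ℂ] K) η = η) → η = 0) →
      ∀ x : K, ‖∑ s ∈ S, (π s : K →L[ℂ] K) x‖ ≤ S.card * c * ‖x‖ := by
  classical
  obtain ⟨δ, hδ0, hδ1, hδ⟩ := hT.exists_gap S h1 hS
  have hn : 0 < (S.card : ℝ) := by
    exact_mod_cast Finset.card_pos.2 ⟨1, h1⟩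
  have hn1 : 1 ≤ (S.card : ℝ) := by
    exact_mod_cast Finset.card_pos.2 ⟨1, h1⟩
  have hle : δ ^ 2 / (4 * S.card) ≤ 1 := by
    rw [div_le_one (by positivity)]
    nlinarith
  refine ⟨1 - δ ^ 2 / (4 * S.card), by linarith, by
    have : 0 < δ ^ 2 / (4 * S.card) := by positivity
    linarith, fun K _ _ _ π hπ x => ?_⟩
  rcases eq_or_ne x 0 with rfl | hx
  · simp
  have hxpos : 0 < ‖x‖ := norm_pos_iff.2 hx
  obtain ⟨s, hs, hsx⟩ := hδ K π hπ x
  have hs1 : s ≠ 1 := by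
    rintro rfl
    rw [rep_one_apply, sub_self, norm_zero] at hsx
    nlinarith [mul_pos hδ0 hxpos]
  have hsum : ∑ s ∈ S, (π s : K →L[ℂ] K) x
      = (x + (π s : K →L[ℂ] K) x) + ∑ r ∈ (S.erase 1).erase s, (π r : K →L[ℂ] K) x := by
    rw [← Finset.add_sum_erase S _ h1, ← Finset.add_sum_erase (S.erase 1) _
      (Finset.mem_erase.2 ⟨hs1, hs⟩), rep_one_apply, add_assoc]
  have hcard : (((S.erase 1).erase s).card : ℝ) = S.card - 2 := by
    have h2 := Finset.card_erase_add_one h1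
    have h3 := Finset.card_erase_add_one (Finset.mem_erase.2 ⟨hs1, hs⟩)
    have h4 : ((S.erase 1).erase s).card + 2 = S.card := by omega
    have h5 : ((((S.erase 1).erase s).card : ℝ)) + 2 = S.card := by exact_mod_cast h4
    linarith
  calc ‖∑ s ∈ S, (π s : K →L[ℂ] K) x‖
      ≤ ‖x + (π s : K →L[ℂ] K) x‖ + ‖∑ r ∈ (S.erase 1).erase s, (π r : K →L[ℂ] K) x‖ := by
        rw [hsum]
        exact norm_add_le _ _
    _ ≤ (2 - δ ^ 2 / 4) * ‖x‖ + (S.card - 2) * ‖x‖ := by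
        refine add_le_add (norm_add_le_of_norm_sub (rep_norm π s x) hδ0.le hδ1 hsx) ?_
        refine (norm_sum_le _ _).trans ?_
        simp only [rep_norm]
        rw [Finset.sum_const, nsmul_eq_mul, hcard]
    _ = S.card * (1 - δ ^ 2 / (4 * S.card)) * ‖x‖ := by
        field_simp
        ring

theorem sum_words {K : Type} [NormedAddCommGroup K] [InnerProductSpace ℂ K]
    [CompleteSpace K] (π : Γ →* unitary (K →L[ℂ] K)) (S : Finset Γ) {c : ℝ}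
    (hc : ∀ x : K, ‖∑ s ∈ S, (π s : K →L[ℂ] K) x‖ ≤ c * ‖x‖) (hc0 : 0 ≤ c) (ξ : K) (k : ℕ) :
    ‖∑ w : Fin k → S, (π (List.ofFn fun i => (w i : Γ)).prod : K →L[ℂ] K) ξ‖ ≤ c ^ k * ‖ξ‖ := by
  induction k with
  | zero =>
    simp
  | succ k ih =>
    have h1 : ∑ w : Fin (k + 1) → S, (π (List.ofFn fun i => (w i : Γ)).prod : K →L[ℂ] K) ξ
        = ∑ s ∈ S, (π s : K →L[ℂ] K)
          (∑ w : Fin k → S, (π (List.ofFn fun i => (w i : Γ)).prod : K →L[ℂ] K) ξ) := by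
      rw [← Finset.sum_coe_sort S (fun s => (π s : K →L[ℂ] K)
          (∑ w : Fin k → S, (π (List.ofFn fun i => (w i : Γ)).prod : K →L[ℂ] K) ξ)),
        ← (Fin.consEquiv fun _ : Fin (k + 1) => (S : Type)).sum_comp, Fintype.sum_prod_type]
      refine Finset.sum_congr rfl fun s _ => ?_
      rw [map_sum]
      refine Finset.sum_congr rfl fun w _ => ?_
      rw [List.ofFn_succ, List.prod_cons, rep_mul_apply]
      rfl
    rw [h1]
    calc _ ≤ c * ‖∑ w : Fin k → S, (π (List.ofFn fun i => (w i : Γ)).prod : K →L[ℂ] K) ξ‖ :=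
          hc _
      _ ≤ c * (c ^ k * ‖ξ‖) := by gcongr
      _ = c ^ (k + 1) * ‖ξ‖ := by ring

/-- The dichotomy for invariant Gram matrices of a group with property (T). -/
theorem PropertyT.dichotomy (hT : PropertyT Γ) (S : Finset Γ) (h1 : (1 : Γ) ∈ S)
    (hS : Subgroup.closure (S : Set Γ) = ⊤) :
    ∃ c : ℝ≥0∞, c < 1 ∧ ∀ (K : Type) [NormedAddCommGroup K] [InnerProductSpace ℂ K]
      [CompleteSpace K] (κ : Γ → K), (∀ g x y, ⟪κ (g * x), κ (g * y)⟫_ℂ = ⟪κ x, κ y⟫_ℂ) →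
      (∀ g h, 0 ≤ RCLike.re ⟪κ g, κ h⟫_ℂ) →
      (∀ k, walkAvg S k (fun g => ENNReal.ofReal (RCLike.re ⟪κ g, κ 1⟫_ℂ))
        ≤ c ^ k * ENNReal.ofReal (RCLike.re ⟪κ 1, κ 1⟫_ℂ)) ∨
      ∃ ε : ℝ, 0 < ε ∧ ∀ x ∈ convexHull ℝ (Set.range κ), ε ≤ ‖x‖ ^ 2 := by
  obtain ⟨c, hc0, hc1, hc⟩ := hT.exists_contraction S h1 hS
  refine ⟨ENNReal.ofReal c, by
    rw [← ENNReal.ofReal_one]
    exact (ENNReal.ofReal_lt_ofReal_iff one_pos).2 hc1, fun K _ _ _ κ hgram hre => ?_⟩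
  obtain ⟨K₀, _, _, _, π, j, ξ, hj, htot⟩ := exists_rep κ hgram
  by_cases hinv : ∀ η : K₀, (∀ g, (π g : K₀ →L[ℂ] K₀) η = η) → η = 0
  · left
    intro k
    have h2 := hc K₀ π hinv
    have h3 := sum_words π S h2 (by positivity) ξ k
    have hξ : ‖ξ‖ ^ 2 = RCLike.re ⟪κ 1, κ 1⟫_ℂ := by
      rw [← hj 1, j.inner_map_map, rep_one_apply]
      exact (inner_self_eq_norm_sq (𝕜 := ℂ) ξ).symm
    have h4 : ∑ w : Fin k → S, ENNReal.ofReal
        (RCLike.re ⟪κ (List.ofFn fun i => (w i : Γ)).prod, κ 1⟫_ℂ)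
        ≤ ENNReal.ofReal ((S.card * c) ^ k * ‖ξ‖ ^ 2) := by
      rw [← ENNReal.ofReal_sum_of_nonneg fun w _ => hre _ _]
      refine ENNReal.ofReal_le_ofReal ?_
      have h5 : ∑ w : Fin k → S, RCLike.re ⟪κ (List.ofFn fun i => (w i : Γ)).prod, κ 1⟫_ℂ
          = RCLike.re ⟪∑ w : Fin k → S,
            (π (List.ofFn fun i => (w i : Γ)).prod : K₀ →L[ℂ] K₀) ξ, ξ⟫_ℂ := by
        rw [sum_inner, map_sum]
        refine Finset.sum_congr rfl fun w _ => ?_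
        rw [← hj, ← hj 1, j.inner_map_map, rep_one_apply]
      rw [h5]
      calc _ ≤ ‖⟪∑ w : Fin k → S,
            (π (List.ofFn fun i => (w i : Γ)).prod : K₀ →L[ℂ] K₀) ξ, ξ⟫_ℂ‖ := RCLike.re_le_norm _
        _ ≤ ‖∑ w : Fin k → S,
            (π (List.ofFn fun i => (w i : Γ)).prod : K₀ →L[ℂ] K₀) ξ‖ * ‖ξ‖ :=
            norm_inner_le_norm _ _
        _ ≤ (S.card * c) ^ k * ‖ξ‖ * ‖ξ‖ := by gcongr
        _ = (S.card * c) ^ k * ‖ξ‖ ^ 2 := by ring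
    have hn : (0 : ℝ) < S.card := by exact_mod_cast Finset.card_pos.2 ⟨1, h1⟩
    have hcard : (S.card : ℝ≥0∞) = ENNReal.ofReal (S.card : ℝ) := by
      rw [ENNReal.ofReal_natCast]
    rw [walkAvg]
    refine ENNReal.div_le_of_le_mul ?_
    refine h4.trans (le_of_eq ?_)
    rw [← hξ, hcard, ← ENNReal.ofReal_pow hc0, ← ENNReal.ofReal_pow hn.le,
      ← ENNReal.ofReal_mul (by positivity), ← ENNReal.ofReal_mul (by positivity)]
    congr 1
    ring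
  · right
    have hinv' : ∃ η : K₀, (∀ g, (π g : K₀ →L[ℂ] K₀) η = η) ∧ η ≠ 0 := by
      by_contra h
      refine hinv fun η hη => ?_
      by_contra h0
      exact h ⟨η, hη, h0⟩
    obtain ⟨η, hη, hη0⟩ := hinv'
    have hηπ : ∀ g, ⟪η, (π g : K₀ →L[ℂ] K₀) ξ⟫_ℂ = ⟪η, ξ⟫_ℂ := by
      intro g
      rw [rep_inner_right, hη]
    have hηξ : ⟪η, ξ⟫_ℂ ≠ 0 := by
      intro h0
      refine hη0 (htot η fun g => ?_)
      rw [← inner_conj_symm, hηπ, h0, map_zero]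
    have hηn : 0 < ‖η‖ := norm_pos_iff.2 hη0
    have hpos : 0 < ‖⟪η, ξ⟫_ℂ‖ := norm_pos_iff.2 hηξ
    refine ⟨(‖⟪η, ξ⟫_ℂ‖ / ‖η‖) ^ 2, by positivity, fun x hx => ?_⟩
    have hx' : x ∈ {x : K | ⟪j η, x⟫_ℂ = ⟪η, ξ⟫_ℂ} := by
      refine convexHull_min (s := Set.range κ) ?_ ?_ hx
      · rintro _ ⟨g, rfl⟩
        show ⟪j η, κ g⟫_ℂ = ⟪η, ξ⟫_ℂ
        rw [← hj g, j.inner_map_map, hηπ]
      · intro a ha b hb r s hr hs hrs
        show ⟪j η, r • a + s • b⟫_ℂ = ⟪η, ξ⟫_ℂ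
        have ha' : ⟪j η, a⟫_ℂ = ⟪η, ξ⟫_ℂ := ha
        have hb' : ⟪j η, b⟫_ℂ = ⟪η, ξ⟫_ℂ := hb
        rw [inner_add_right, ← Complex.coe_smul, ← Complex.coe_smul, inner_smul_right,
          inner_smul_right, ha', hb', ← add_mul, ← Complex.ofReal_add, hrs]
        simp
    have h2 : ‖⟪η, ξ⟫_ℂ‖ ≤ ‖η‖ * ‖x‖ := by
      rw [← (show ⟪j η, x⟫_ℂ = ⟪η, ξ⟫_ℂ from hx')]
      refine (norm_inner_le_norm _ _).trans (le_of_eq ?_)
      rw [j.norm_map]
    have h3 : ‖⟪η, ξ⟫_ℂ‖ / ‖η‖ ≤ ‖x‖ := by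
      rw [div_le_iff₀ hηn, mul_comm]
      exact h2
    gcongr

end

end Vale.Agent.P092
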