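import Vale.Agent.P092.H414.Kappa
import Vale.Agent.P092.H414.PropT
import Vale.Agent.P092.H418.Assemble
import Vale.Agent.P092.H567.Frame

/-!
# The abstract dichotomy
-/

namespace Vale.Agent.P092

open scoped InnerProductSpace ENNReal ComplexConjugate
open ContinuousLinearMap InnerProductSpace

noncomputable section

section single

variable {ι κ α γ Γ Λ : Type} [Group Γ] [Group Λ]
  {H : Type} [NormedAddCommGroup H] [InnerProductSpace ℂ H] [CompleteSpace H]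
  {b : HilbertBasis ι ℂ H} {U : Γ →* unitary (H →L[ℂ] H)} {V : Λ →* unitary (H →L[ℂ] H)}

/-- A single vector of a Bessel frame generates a Bessel family. -/
theorem IsBFrame.single {a : α → H} (ha : IsBFrame V a) (i : α) :
    IsBessel fun s : Λ => (V s : H →L[ℂ] H) (a i) := by
  intro v
  refine le_trans ?_ (ha v)
  exact ENNReal.tsum_comp_le_tsum_of_injective (f := fun s : Λ => (i, s))
    (fun s t h => (Prod.mk.inj h).2)
    (fun p : α × Λ => ‖⟪(V p.2 : H →L[ℂ] H) (a p.1), v⟫_ℂ‖ₑ ^ 2)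

/-- Non-vanishing of the closed convex hull gives the conclusion. -/
theorem concl_of_convexHull [Fintype α]
    (hUV : ∀ g s, Commute (U g : H →L[ℂ] H) (V s : H →L[ℂ] H))
    {z : γ → H} (hz : IsFrame U z) (hzfin : ∑' i, ‖z i‖ₑ ^ 2 ≠ ∞) (hicc : IsICC Λ)
    (hirr : Irr b U V) {a : α → H} (ha : IsBFrame V a) {e : κ → H} (he : IsFrame V e)
    {ε : ℝ} (hε : 0 < ε)
    (h : ∀ x ∈ convexHull ℝ (Set.range (kap b hUV ha he)), ε ≤ ‖x‖ ^ 2) : Concl U V := by
  obtain ⟨T, hT⟩ := exists_goodOp_of_convexHull b hUV ha he hε h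
  obtain ⟨E, hE⟩ := exists_goodProj hUV hT hz hzfin hicc hirr
  exact concl_of_goodProj hE

end single

/-- The fourth power sum. -/
def phi4 {α Γ Λ H : Type} [Group Γ] [Group Λ] [NormedAddCommGroup H] [InnerProductSpace ℂ H]
    [CompleteSpace H] [Fintype α] (U : Γ →* unitary (H →L[ℂ] H)) (V : Λ →* unitary (H →L[ℂ] H))
    (a : α → H) (g : Γ) : ℝ≥0∞ :=
  ∑ i, ∑' q : α × Λ, ‖⟪(V q.2 : H →L[ℂ] H) ((U g : H →L[ℂ] H) (a q.1)), a i⟫_ℂ‖ₑ ^ 4

/-- The abstract dichotomy for a group with property (T). -/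
theorem PropertyT.abstract_dichotomy {Γ : Type} [Group Γ] [Countable Γ] (hT : PropertyT Γ)
    (S : Finset Γ) (h1 : (1 : Γ) ∈ S) (hS : Subgroup.closure (S : Set Γ) = ⊤) :
    ∃ c : ℝ≥0∞, c < 1 ∧ ∀ (Λ α γ ι H : Type) [Group Λ] [Fintype α] [NormedAddCommGroup H]
      [InnerProductSpace ℂ H] [CompleteSpace H] (b : HilbertBasis ι ℂ H)
      (U : Γ →* unitary (H →L[ℂ] H)) (V : Λ →* unitary (H →L[ℂ] H))
      (_ : ∀ g s, Commute (U g : H →L[ℂ] H) (V s : H →L[ℂ] H)) (z : γ → H) (_ : IsFrame U z)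
      (_ : ∑' i, ‖z i‖ₑ ^ 2 ≠ ∞) (_ : IsICC Λ) (_ : Irr b U V) (a : α → H) (_ : IsBFrame V a)
      (_ : ∀ v : H, (∀ g i, ⟪(U g : H →L[ℂ] H) (a i), v⟫_ℂ = 0) → v = 0),
      Concl U V ∨ ∀ k, walkAvg S k (phi4 U V a) ≤ c ^ k * phi4 U V a 1 := by
  obtain ⟨c, hc, hdich⟩ := hT.dichotomy S h1 hS
  refine ⟨c, hc, ?_⟩
  intro Λ α γ ι H _ _ _ _ _ b U V hUV z hz hzfin hicc hirr a ha htot
  obtain ⟨e, he⟩ : ∃ e : Γ × α → H, IsFrame V e := by
    refine exists_isFrame V (fun p : Γ × α => (U p.1 : H →L[ℂ] H) (a p.2)) (fun p => ?_) ?_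
    · exact (ha.translate hUV p.1).single p.2
    · intro v hv
      refine htot v fun g i => ?_
      have h2 := hv (g, i) 1
      rw [rep_one_apply] at h2
      exact h2
  have hphi : ∀ g, ENNReal.ofReal (RCLike.re ⟪kap b hUV ha he g, kap b hUV ha he 1⟫_ℂ)
      = phi4 U V a g := by
    intro g
    rw [ofReal_re_inner_kap, phi4]
    refine Finset.sum_congr rfl fun i _ => tsum_congr fun q => ?_
    rw [rep_one_apply]
  rcases hdich _ (kap b hUV ha he) (inner_kap_translate b hUV ha he)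
    (re_inner_kap_nonneg b hUV ha he) with h2 | ⟨ε, hε, h2⟩
  · right
    simpa only [hphi] using h2
  · left
    exact concl_of_convexHull hUV hz hzfin hicc hirr ha he hε h2

end

end Vale.Agent.P092
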