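import Vale.Agent.P092.H414.Step3

/-!
# The vectors `κ_g` and the trace formula
-/

namespace Vale.Agent.P092

open scoped InnerProductSpace ENNReal ComplexConjugate ComplexOrder
open ContinuousLinearMap InnerProductSpace Filter Topology

noncomputable section

section general

variable {κ τ α Λ : Type} [Group Λ] {K : Type} [NormedAddCommGroup K] [InnerProductSpace ℂ K]

theorem IsParseval.hasSum_inner {f : κ → K} (hf : IsParseval f) (x y : K) :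
    HasSum (fun k => ⟪x, f k⟫_ℂ * ⟪f k, y⟫_ℂ) ⟪x, y⟫_ℂ := by
  let A : K →ₗᵢ[ℂ] lp (fun _ : κ => ℂ) 2 :=
    ⟨(analysis f hf.isBessel).toLinearMap, fun x => by
      have h1 : ‖analysis f hf.isBessel x‖ₑ ^ 2 = ‖x‖ₑ ^ 2 := by
        rw [← lp_enorm_sq]
        exact hf x
      rw [enorm_sq_eq_ofReal, enorm_sq_eq_ofReal,
        ENNReal.ofReal_eq_ofReal_iff (by positivity) (by positivity)] at h1
      exact (sq_eq_sq₀ (norm_nonneg _) (norm_nonneg _)).1 h1⟩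
  have h1 : HasSum (fun k => ⟪A x k, A y k⟫_ℂ) ⟪A x, A y⟫_ℂ := lp.hasSum_inner (𝕜 := ℂ) (A x) (A y)
  rw [A.inner_map_map] at h1
  have e : (fun k => ⟪A x k, A y k⟫_ℂ) = fun k => ⟪x, f k⟫_ℂ * ⟪f k, y⟫_ℂ := by
    ext k
    show ⟪⟪f k, x⟫_ℂ, ⟪f k, y⟫_ℂ⟫_ℂ = _
    rw [RCLike.inner_apply, inner_conj_symm, mul_comm]
  rw [← e]
  exact h1

theorem summable_of_enorm {f : κ → ℂ} (h : ∑' i, ‖f i‖ₑ ≠ ∞) : Summable f := by
  have h2 : ∑' i, ((‖f i‖₊ : NNReal) : ℝ≥0∞) ≠ ∞ := h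
  have h3 := ENNReal.tsum_coe_ne_top_iff_summable.1 h2
  refine Summable.of_norm ?_
  simpa using NNReal.summable_coe.2 h3

theorem mul_le_sq_add_sq (x y : ℝ≥0∞) : x * y ≤ x ^ 2 + y ^ 2 := by
  rcases le_total x y with h | h
  · calc x * y ≤ y * y := by gcongr
      _ = y ^ 2 := (pow_two y).symm
      _ ≤ x ^ 2 + y ^ 2 := le_add_self
  · calc x * y ≤ x * x := by gcongr
      _ = x ^ 2 := (pow_two x).symm
      _ ≤ x ^ 2 + y ^ 2 := le_self_add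

theorem hasSum_swap {σ : Type} [Fintype α] {c : α → τ → σ → ℂ}
    (hsum : Summable fun x : α × (τ × σ) => c x.1 x.2.1 x.2.2) {v : α → ℂ}
    (hv : ∀ i, HasSum (fun q : τ × σ => c i q.1 q.2) (v i)) :
    HasSum (fun p => ∑' q : α × σ, c q.1 p q.2) (∑ i, v i) := by
  let e : τ × (α × σ) ≃ α × (τ × σ) :=
    { toFun := fun x => (x.2.1, (x.1, x.2.2))
      invFun := fun x => (x.2.1, (x.1, x.2.2))
      left_inv := fun _ => rfl
      right_inv := fun _ => rfl }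
  have hcsum' : Summable fun x : τ × (α × σ) => c x.2.1 x.1 x.2.2 :=
    (e.summable_iff (f := fun x : α × (τ × σ) => c x.1 x.2.1 x.2.2)).2 hsum
  have htot : ∑' x : τ × (α × σ), c x.2.1 x.1 x.2.2 = ∑ i, v i := by
    have h1 := e.tsum_eq (fun x : α × (τ × σ) => c x.1 x.2.1 x.2.2)
    have h2 : ∑' x : τ × (α × σ), c x.2.1 x.1 x.2.2
        = ∑' x : α × (τ × σ), c x.1 x.2.1 x.2.2 := h1
    rw [h2, hsum.tsum_prod' fun i => (hv i).summable, tsum_fintype]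
    exact Finset.sum_congr rfl fun i _ => (hv i).tsum_eq
  rw [← htot]
  exact hcsum'.hasSum.prod_fiberwise fun p => (hcsum'.prod_factor p).hasSum

variable [CompleteSpace K]

/-- The frame operator of the orbits of the vectors `β_i`. -/
def orbitOp (W : Λ →* unitary (K →L[ℂ] K)) (β : α → K) (hβ : IsBFrame W β) : K →L[ℂ] K :=
  frameOp (fun p : α × Λ => (W p.2 : K →L[ℂ] K) (β p.1)) hβ

theorem inner_orbitOp (W : Λ →* unitary (K →L[ℂ] K)) (β : α → K) (hβ : IsBFrame W β) (x y : K) :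
    ⟪x, orbitOp W β hβ y⟫_ℂ = ∑' q : α × Λ, conj ⟪(W q.2 : K →L[ℂ] K) (β q.1), x⟫_ℂ
      * ⟪(W q.2 : K →L[ℂ] K) (β q.1), y⟫_ℂ :=
  inner_frameOp _ _ _ _

/-- The trace formula `∑_p ⟪A t_p, T t_p⟫ = ∑_i ⟪A β_i, β_i⟫`, for the frame operator `T` of the
orbits of the `β_i` and an equivariant operator `A`. -/
theorem trace_formula [Fintype α] (W : Λ →* unitary (K →L[ℂ] K)) {t : τ → K} (ht : IsFrame W t)
    {β : α → K} (hβ : IsBFrame W β) (A : K →L[ℂ] K) (hA : ∀ s, Commute (W s : K →L[ℂ] K) A) :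
    HasSum (fun p => ⟪A (t p), orbitOp W β hβ (t p)⟫_ℂ) (∑ i, ⟪A (β i), β i⟫_ℂ) := by
  have hAW : ∀ s x, A ((W s : K →L[ℂ] K) x) = (W s : K →L[ℂ] K) (A x) := fun s x =>
    (DFunLike.congr_fun (hA s).eq x).symm
  have hinvpar : IsParseval fun q : τ × Λ => (W q.2⁻¹ : K →L[ℂ] K) (t q.1) := by
    intro x
    rw [← ht.tsum_inv x, ENNReal.tsum_prod']
    exact tsum_congr fun k => tsum_congr fun s => by rw [enorm_inner_symm]
  have e1 : ∀ x, ∑' q : τ × Λ, ‖⟪x, (W q.2⁻¹ : K →L[ℂ] K) (t q.1)⟫_ℂ‖ₑ ^ 2 = ‖x‖ₑ ^ 2 :=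
    hinvpar.symm_apply
  have e2 : ∀ x, ∑' q : τ × Λ, ‖⟪(W q.2⁻¹ : K →L[ℂ] K) (t q.1), x⟫_ℂ‖ₑ ^ 2 = ‖x‖ₑ ^ 2 := hinvpar
  have e3 : ∀ x y, HasSum (fun q : τ × Λ => ⟪x, (W q.2⁻¹ : K →L[ℂ] K) (t q.1)⟫_ℂ
      * ⟪(W q.2⁻¹ : K →L[ℂ] K) (t q.1), y⟫_ℂ) ⟪x, y⟫_ℂ := hinvpar.hasSum_inner
  have hfib : ∀ p, ⟪A (t p), orbitOp W β hβ (t p)⟫_ℂ = ∑' q : α × Λ,
      ⟪β q.1, (W q.2⁻¹ : K →L[ℂ] K) (t p)⟫_ℂ *
        ⟪(W q.2⁻¹ : K →L[ℂ] K) (t p), adjoint A (β q.1)⟫_ℂ := by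
    intro p
    rw [inner_orbitOp]
    refine tsum_congr fun q => ?_
    rw [inner_conj_symm, rep_inner_left, rep_inner_right, ← hAW, adjoint_inner_right, mul_comm]
  simp only [hfib]
  refine hasSum_swap (c := fun i p s => ⟪β i, (W s⁻¹ : K →L[ℂ] K) (t p)⟫_ℂ *
        ⟪(W s⁻¹ : K →L[ℂ] K) (t p), adjoint A (β i)⟫_ℂ) ?_ ?_
  · refine summable_of_enorm ?_
    have h1 : ∑' x : α × (τ × Λ), ‖⟪β x.1, (W x.2.2⁻¹ : K →L[ℂ] K) (t x.2.1)⟫_ℂ *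
        ⟪(W x.2.2⁻¹ : K →L[ℂ] K) (t x.2.1), adjoint A (β x.1)⟫_ℂ‖ₑ
          ≤ ∑ i, (‖β i‖ₑ ^ 2 + ‖adjoint A (β i)‖ₑ ^ 2) := by
      calc _ ≤ ∑' x : α × (τ × Λ), (‖⟪β x.1, (W x.2.2⁻¹ : K →L[ℂ] K) (t x.2.1)⟫_ℂ‖ₑ ^ 2
            + ‖⟪(W x.2.2⁻¹ : K →L[ℂ] K) (t x.2.1), adjoint A (β x.1)⟫_ℂ‖ₑ ^ 2) := by
            refine ENNReal.tsum_le_tsum fun x => ?_
            rw [enorm_mul]
            exact mul_le_sq_add_sq _ _
        _ = ∑ i, (‖β i‖ₑ ^ 2 + ‖adjoint A (β i)‖ₑ ^ 2) := by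
            rw [ENNReal.tsum_prod', tsum_fintype]
            refine Finset.sum_congr rfl fun i _ => ?_
            rw [ENNReal.tsum_add]
            exact congrArg₂ (· + ·) (e1 (β i)) (e2 (adjoint A (β i)))
    refine ne_top_of_le_ne_top ?_ h1
    refine ENNReal.sum_ne_top.2 fun i _ => ?_
    finiteness
  · intro i
    have h1 := e3 (β i) (adjoint A (β i))
    have h2 : ⟪β i, adjoint A (β i)⟫_ℂ = ⟪A (β i), β i⟫_ℂ := adjoint_inner_right A (β i) (β i)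
    rw [h2] at h1
    exact h1

end general

end

end Vale.Agent.P092
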