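import Vale.Agent.P092.H414.Hyp

/-!
# The vectors `κ_g`
-/

namespace Vale.Agent.P092

open scoped InnerProductSpace ENNReal ComplexConjugate ComplexOrder
open ContinuousLinearMap InnerProductSpace Filter Topology

noncomputable section

variable {ι κ α Γ Λ : Type} [Group Γ] [Group Λ]
  {H : Type} [NormedAddCommGroup H] [InnerProductSpace ℂ H] [CompleteSpace H]
  (b : HilbertBasis ι ℂ H) {U : Γ →* unitary (H →L[ℂ] H)} {V : Λ →* unitary (H →L[ℂ] H)}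

theorem IsBFrame.translate {a : α → H} (ha : IsBFrame V a)
    (hUV : ∀ g s, Commute (U g : H →L[ℂ] H) (V s : H →L[ℂ] H)) (g : Γ) :
    IsBFrame V fun i => (U g : H →L[ℂ] H) (a i) := by
  intro x
  have h1 := ha ((U g⁻¹ : H →L[ℂ] H) x)
  rw [rep_enorm] at h1
  refine le_trans (le_of_eq ?_) h1
  refine tsum_congr fun p => ?_
  have h3 : (V p.2 : H →L[ℂ] H) ((U g : H →L[ℂ] H) (a p.1))
      = (U g : H →L[ℂ] H) ((V p.2 : H →L[ℂ] H) (a p.1)) :=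
    (DFunLike.congr_fun (hUV g p.2).eq (a p.1)).symm
  show ‖⟪(V p.2 : H →L[ℂ] H) ((U g : H →L[ℂ] H) (a p.1)), x⟫_ℂ‖ₑ ^ 2
    = ‖⟪(V p.2 : H →L[ℂ] H) (a p.1), (U g⁻¹ : H →L[ℂ] H) x⟫_ℂ‖ₑ ^ 2
  rw [h3, rep_inner_left]

/-- The operator `E_g`. -/
def Eg (hUV : ∀ g s, Commute (U g : H →L[ℂ] H) (V s : H →L[ℂ] H)) {a : α → H}
    (ha : IsBFrame V a) (g : Γ) : HS ι H →L[ℂ] HS ι H :=
  EOp b V (fun i => (U g : H →L[ℂ] H) (a i)) (ha.translate hUV g)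

variable (hUV : ∀ g s, Commute (U g : H →L[ℂ] H) (V s : H →L[ℂ] H)) {a : α → H}
    (ha : IsBFrame V a)

theorem Eg_preGood (g : Γ) : PreGood b V (Eg b hUV ha g) := EOp_preGood _ _ _ _

theorem Eg_inner (g : Γ) (W Z : HS ι H) :
    ⟪W, Eg b hUV ha g Z⟫_ℂ = ∑' p, conj ⟪beta b V (fun i => (U g : H →L[ℂ] H) (a i)) p, W⟫_ℂ
      * ⟪beta b V (fun i => (U g : H →L[ℂ] H) (a i)) p, Z⟫_ℂ :=
  EOp_inner _ _ _ _ _ _

include hUV in
theorem beta_translate (g h : Γ) (p : α × Λ) (Z : HS ι H) :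
    ⟪beta b V (fun i => (U h : H →L[ℂ] H) (a i)) p, Ad b (U g⁻¹ : H →L[ℂ] H) Z⟫_ℂ
      = ⟪beta b V (fun i => (U (g * h) : H →L[ℂ] H) (a i)) p, Z⟫_ℂ := by
  rw [← adjoint_inner_left, adjoint_Ad, adjoint_rep, inv_inv, beta, Ad_ten, beta]
  have h3 : (U g : H →L[ℂ] H) ((V p.2 : H →L[ℂ] H) ((U h : H →L[ℂ] H) (a p.1)))
      = (V p.2 : H →L[ℂ] H) ((U (g * h) : H →L[ℂ] H) (a p.1)) := by
    rw [rep_mul_apply]
    exact DFunLike.congr_fun (hUV g p.2).eq _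
  rw [h3]

theorem Eg_conj (g h : Γ) :
    Ad b (U g : H →L[ℂ] H) * Eg b hUV ha h * Ad b (U g⁻¹ : H →L[ℂ] H)
      = Eg b hUV ha (g * h) := by
  refine ContinuousLinearMap.ext fun Z => ?_
  refine ext_inner_left ℂ fun W => ?_
  show ⟪W, Ad b (U g : H →L[ℂ] H) (Eg b hUV ha h (Ad b (U g⁻¹ : H →L[ℂ] H) Z))⟫_ℂ = _
  rw [← adjoint_inner_left, adjoint_Ad, adjoint_rep, Eg_inner, Eg_inner]
  refine tsum_congr fun p => ?_
  rw [beta_translate b hUV, beta_translate b hUV]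

theorem Eg_eq_orbitOp (g : Γ)
    (hβ : IsBFrame (AdRep b V) fun i => ten b ((U g : H →L[ℂ] H) (a i))
      ((U g : H →L[ℂ] H) (a i))) :
    Eg b hUV ha g = orbitOp (AdRep b V) (fun i => ten b ((U g : H →L[ℂ] H) (a i))
      ((U g : H →L[ℂ] H) (a i))) hβ := by
  refine ContinuousLinearMap.ext fun Z => ?_
  refine ext_inner_left ℂ fun W => ?_
  rw [Eg_inner, inner_orbitOp]
  refine tsum_congr fun p => ?_
  rw [AdRep_coe, Ad_ten, beta]

include hUV ha in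
theorem isBFrame_ten (g : Γ) : IsBFrame (AdRep b V) fun i => ten b ((U g : H →L[ℂ] H) (a i))
      ((U g : H →L[ℂ] H) (a i)) := by
  intro Z
  refine le_trans (le_of_eq ?_) (isBessel_beta b V (ha.translate hUV g) Z)
  refine tsum_congr fun p => ?_
  show ‖⟪(AdRep b V p.2 : HS ι H →L[ℂ] HS ι H) (ten b ((U g : H →L[ℂ] H) (a p.1))
      ((U g : H →L[ℂ] H) (a p.1))), Z⟫_ℂ‖ₑ ^ 2 = _
  rw [AdRep_coe, Ad_ten, beta]

/-- The frame of `HS` given by a frame `e` of `H`. -/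
def tF (e : κ → H) (p : κ × ι) : HS ι H := ten b (e p.1) (b p.2)

variable {e : κ → H} (he : IsFrame V e)

include he in
theorem isFrame_tF : IsFrame (AdRep b V) (tF b e) := isFrame_ten b V he (parseval_hilbertBasis b)

/-- `E_h` of the diagonal vectors. -/
theorem quad_Eg_diag (g : Γ) (v : H) : quad (Eg b hUV ha g) (ten b v v)
    = ∑' q : α × Λ, ‖⟪(V q.2 : H →L[ℂ] H) ((U g : H →L[ℂ] H) (a q.1)), v⟫_ℂ‖ₑ ^ 4 := by
  rw [Eg, quad_EOp]
  refine tsum_congr fun p => ?_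
  rw [beta_inner_ten, enorm_mul, enorm_inner_symm v]
  ring

variable [Fintype α]

include he in
theorem nL_Eg_ne_top (g : Γ) : nL (tF b e) (Eg b hUV ha g) ≠ ∞ := by
  have hβ := isBFrame_ten b hUV ha g
  have h1 : nL (tF b e) (Eg b hUV ha g)
      ≤ ∑ i, ‖ten b ((U g : H →L[ℂ] H) (a i)) ((U g : H →L[ℂ] H) (a i))‖ₑ ^ 2 := by
    calc nL (tF b e) (Eg b hUV ha g)
        ≤ ∑' p, quad (Eg b hUV ha g) (tF b e p) :=
          ENNReal.tsum_le_tsum fun p => enorm_sq_le_quad (Eg_preGood b hUV ha g).pos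
            (Eg_preGood b hUV ha g).le_one _
      _ = ∑' p, ∑' q : α × Λ, ‖⟪(AdRep b V q.2 : HS ι H →L[ℂ] HS ι H)
            (ten b ((U g : H →L[ℂ] H) (a q.1)) ((U g : H →L[ℂ] H) (a q.1))),
              tF b e p⟫_ℂ‖ₑ ^ 2 := by
          refine tsum_congr fun p => ?_
          rw [Eg, quad_EOp]
          refine tsum_congr fun q => ?_
          rw [AdRep_coe, Ad_ten, beta]
      _ = ∑' q : α × Λ, ∑' p, ‖⟪(AdRep b V q.2 : HS ι H →L[ℂ] HS ι H)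
            (ten b ((U g : H →L[ℂ] H) (a q.1)) ((U g : H →L[ℂ] H) (a q.1))),
              tF b e p⟫_ℂ‖ₑ ^ 2 := ENNReal.tsum_comm
      _ = ∑' i, ∑' s : Λ, ∑' p,
            ‖⟪(AdRep b V s : HS ι H →L[ℂ] HS ι H)
            (ten b ((U g : H →L[ℂ] H) (a i)) ((U g : H →L[ℂ] H) (a i))),
              tF b e p⟫_ℂ‖ₑ ^ 2 := ENNReal.tsum_prod'
      _ = ∑' i, ∑' p, ∑' s : Λ,
            ‖⟪ten b ((U g : H →L[ℂ] H) (a i)) ((U g : H →L[ℂ] H) (a i)),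
              (AdRep b V s⁻¹ : HS ι H →L[ℂ] HS ι H) (tF b e p)⟫_ℂ‖ₑ ^ 2 := by
          refine tsum_congr fun i => ?_
          rw [ENNReal.tsum_comm]
          refine tsum_congr fun p => tsum_congr fun s => ?_
          rw [rep_inner_left]
      _ = ∑' i, ‖ten b ((U g : H →L[ℂ] H) (a i)) ((U g : H →L[ℂ] H) (a i))‖ₑ ^ 2 :=
          tsum_congr fun i => (isFrame_tF b he).tsum_inv _
      _ = _ := tsum_fintype _
  refine ne_top_of_le_ne_top ?_ h1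
  refine ENNReal.sum_ne_top.2 fun i _ => ?_
  finiteness

/-- The vector `κ_g`. -/
def kap (g : Γ) : lp (fun _ : κ × ι => HS ι H) 2 :=
  ⟨fun p => Eg b hUV ha g (tF b e p), memℓp_two_of_tsum_ne_top (nL_Eg_ne_top b hUV ha he g)⟩

theorem kap_apply (g : Γ) (p : κ × ι) : kap b hUV ha he g p = Eg b hUV ha g (tF b e p) := rfl

theorem inner_kap (g h : Γ) : ⟪kap b hUV ha he g, kap b hUV ha he h⟫_ℂ
    = ∑ i, ⟪Eg b hUV ha g (ten b ((U h : H →L[ℂ] H) (a i)) ((U h : H →L[ℂ] H) (a i))),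
        ten b ((U h : H →L[ℂ] H) (a i)) ((U h : H →L[ℂ] H) (a i))⟫_ℂ := by
  have h1 := trace_formula (AdRep b V) (isFrame_tF b he) (isBFrame_ten b hUV ha h)
    (Eg b hUV ha g) (Eg_preGood b hUV ha g).commV
  rw [← Eg_eq_orbitOp b hUV ha h] at h1
  rw [lp.inner_eq_tsum]
  exact h1.tsum_eq

theorem inner_kap_translate (g x y : Γ) :
    ⟪kap b hUV ha he (g * x), kap b hUV ha he (g * y)⟫_ℂ
      = ⟪kap b hUV ha he x, kap b hUV ha he y⟫_ℂ := by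
  rw [inner_kap, inner_kap]
  refine Finset.sum_congr rfl fun i _ => ?_
  rw [← Eg_conj]
  have h1 : ten b ((U (g * y) : H →L[ℂ] H) (a i)) ((U (g * y) : H →L[ℂ] H) (a i))
      = Ad b (U g : H →L[ℂ] H) (ten b ((U y : H →L[ℂ] H) (a i)) ((U y : H →L[ℂ] H) (a i))) := by
    rw [Ad_ten, rep_mul_apply]
  rw [h1]
  show ⟪Ad b (U g : H →L[ℂ] H) (Eg b hUV ha x (Ad b (U g⁻¹ : H →L[ℂ] H)
    (Ad b (U g : H →L[ℂ] H) (ten b ((U y : H →L[ℂ] H) (a i)) ((U y : H →L[ℂ] H) (a i)))))),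
    Ad b (U g : H →L[ℂ] H) (ten b ((U y : H →L[ℂ] H) (a i)) ((U y : H →L[ℂ] H) (a i)))⟫_ℂ = _
  have h2 : Ad b (U g⁻¹ : H →L[ℂ] H) (Ad b (U g : H →L[ℂ] H)
      (ten b ((U y : H →L[ℂ] H) (a i)) ((U y : H →L[ℂ] H) (a i))))
      = ten b ((U y : H →L[ℂ] H) (a i)) ((U y : H →L[ℂ] H) (a i)) := by
    rw [Ad_ten, Ad_ten, rep_inv_apply_apply]
  rw [h2]
  exact unitary_inner_map (AdRep b U g) _ _

theorem re_inner_kap_nonneg (g h : Γ) :
    0 ≤ RCLike.re ⟪kap b hUV ha he g, kap b hUV ha he h⟫_ℂ := by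
  rw [inner_kap, map_sum]
  exact Finset.sum_nonneg fun i _ => (Eg_preGood b hUV ha g).pos.re_inner_nonneg_left _

theorem ofReal_re_inner_kap (g h : Γ) :
    ENNReal.ofReal (RCLike.re ⟪kap b hUV ha he g, kap b hUV ha he h⟫_ℂ)
      = ∑ i, ∑' q : α × Λ,
        ‖⟪(V q.2 : H →L[ℂ] H) ((U g : H →L[ℂ] H) (a q.1)), (U h : H →L[ℂ] H) (a i)⟫_ℂ‖ₑ ^ 4 := by
  rw [inner_kap, map_sum, ENNReal.ofReal_sum_of_nonneg fun i _ =>
    (Eg_preGood b hUV ha g).pos.re_inner_nonneg_left _]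
  refine Finset.sum_congr rfl fun i _ => ?_
  rw [inner_re_symm]
  exact quad_Eg_diag b hUV ha g _

/-- Non-vanishing of the closed convex hull of the `κ_g` gives the operator of Step 1. -/
theorem exists_goodOp_of_convexHull {ε : ℝ} (hε : 0 < ε)
    (h : ∀ x ∈ convexHull ℝ (Set.range (kap b hUV ha he)), ε ≤ ‖x‖ ^ 2) :
    ∃ T, GoodOp b U V T := by
  have hreal : ∀ (r : ℝ) (A : HS ι H →L[ℂ] HS ι H), r • A = (r : ℂ) • A := fun r A =>
    ContinuousLinearMap.ext fun x => (Complex.coe_smul r (A x)).symm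
  let 𝒦 : Set (HS ι H →L[ℂ] HS ι H) := convexHull ℝ (Set.range (Eg b hUV ha))
  have hE : ∀ g, Eg b hUV ha g ∈ 𝒦 := fun g => subset_convexHull _ _ ⟨g, rfl⟩
  refine exists_goodOp b U V hUV (𝒦 := 𝒦) (t := tF b e) ?_ ?_ ?_ (isFrame_tF b he)
    (hE 1) (nL_Eg_ne_top b hUV ha he 1) (ε := ENNReal.ofReal ε) ?_ ?_
  · -- all elements are `PreGood`
    intro T hT
    refine convexHull_min (s := Set.range (Eg b hUV ha)) (t := {T | PreGood b V T}) ?_ ?_ hT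
    · rintro _ ⟨g, rfl⟩
      exact Eg_preGood b hUV ha g
    · intro A hA B hB x y hx hy hxy
      rw [hreal, hreal]
      exact hA.combo hB hx hy hxy
  · intro A hA B hB
    have h1 := convex_convexHull ℝ (Set.range (Eg b hUV ha)) hA hB
      (show (0 : ℝ) ≤ 1 / 2 by norm_num) (show (0 : ℝ) ≤ 1 / 2 by norm_num) (by norm_num)
    rw [hreal, hreal] at h1
    push_cast at h1
    exact h1
  · intro T hT g
    refine convexHull_min (s := Set.range (Eg b hUV ha))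
      (t := {T | Ad b (U g : H →L[ℂ] H) * T * Ad b (U g⁻¹ : H →L[ℂ] H) ∈ 𝒦}) ?_ ?_ hT
    · rintro _ ⟨h, rfl⟩
      show Ad b (U g : H →L[ℂ] H) * Eg b hUV ha h * Ad b (U g⁻¹ : H →L[ℂ] H) ∈ 𝒦
      rw [Eg_conj]
      exact hE _
    · intro A hA B hB x y hx hy hxy
      have h1 := convex_convexHull ℝ (Set.range (Eg b hUV ha)) hA hB hx hy hxy
      have h2 : Ad b (U g : H →L[ℂ] H) * (x • A + y • B) * Ad b (U g⁻¹ : H →L[ℂ] H)
          = x • (Ad b (U g : H →L[ℂ] H) * A * Ad b (U g⁻¹ : H →L[ℂ] H))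
            + y • (Ad b (U g : H →L[ℂ] H) * B * Ad b (U g⁻¹ : H →L[ℂ] H)) := by
        rw [hreal, hreal, hreal, hreal, mul_add, add_mul, mul_smul_comm, mul_smul_comm,
          smul_mul_assoc, smul_mul_assoc]
      show Ad b (U g : H →L[ℂ] H) * (x • A + y • B) * Ad b (U g⁻¹ : H →L[ℂ] H) ∈ 𝒦
      rw [h2]
      exact h1
  · simpa using hε
  · intro T hT
    have h1 : T ∈ {T : HS ι H →L[ℂ] HS ι H |
        ∃ x ∈ convexHull ℝ (Set.range (kap b hUV ha he)), ∀ p, x p = T (tF b e p)} := by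
      refine convexHull_min (s := Set.range (Eg b hUV ha)) ?_ ?_ hT
      · rintro _ ⟨g, rfl⟩
        exact ⟨kap b hUV ha he g, subset_convexHull _ _ ⟨g, rfl⟩, fun p => rfl⟩
      · rintro A ⟨x, hx, hx'⟩ B ⟨y, hy, hy'⟩ r s hr hs hrs
        refine ⟨r • x + s • y, convex_convexHull ℝ _ hx hy hr hs hrs, fun p => ?_⟩
        show r • x p + s • y p = r • A (tF b e p) + s • B (tF b e p)
        rw [hx', hy']
    obtain ⟨x, hx, hx'⟩ := h1
    have h2 := h x hx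
    have h3 : nL (tF b e) T = ‖x‖ₑ ^ 2 := by
      rw [← lp_enorm_sq]
      exact tsum_congr fun p => by rw [hx']
    rw [h3, enorm_sq_eq_ofReal]
    exact ENNReal.ofReal_le_ofReal h2

end

end Vale.Agent.P092
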