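import Vale.Agent.P092.H414.Fourth
import Vale.Agent.P092.H418.Corner
import Vale.Agent.P092.H184.AmpTrace
import Vale.Agent.P092.H418.Translate

/-!
# The dichotomy for amplified isomorphisms
-/

namespace Vale.Agent.P092

open scoped InnerProductSpace ENNReal ComplexConjugate
open ContinuousLinearMap InnerProductSpace

noncomputable section

theorem inner_eq_zero_of_smul {H : Type} [NormedAddCommGroup H] [InnerProductSpace ℂ H] {c : ℂ}
    (hc : c ≠ 0) (x v : H) (h : ⟪c • x, v⟫_ℂ = 0) : ⟪x, v⟫_ℂ = 0 := by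
  rw [inner_smul_left] at h
  refine (mul_eq_zero.1 h).resolve_left ?_
  simpa using hc

/-- The dichotomy: for a group with property (T), an isomorphism `L(Λ) ≅ L(Γ)^t` is canonical or
its fourth power sums decay exponentially along the random walk. -/
theorem PropertyT.ampIso_dichotomy {Γ : Type} [Group Γ] [Countable Γ] (hicc : IsICC Γ)
    (hT : PropertyT Γ) (S : Finset Γ) (h1 : (1 : Γ) ∈ S)
    (hS : Subgroup.closure (S : Set Γ) = ⊤) :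
    ∃ c : ℝ≥0∞, c < 1 ∧ ∀ (Λ : Type) [Group Λ] (_ : IsICC Λ) (n : ℕ) (Φ : AmpIso Γ Λ n),
      Φ.IsCanonical ∨ ∀ k, walkAvg S k Φ.fourth ≤ c ^ k * Φ.fourth 1 := by
  obtain ⟨c, hc, hd⟩ := hT.abstract_dichotomy S h1 hS
  refine ⟨c, hc, ?_⟩
  intro Λ _ hΛ n Φ
  obtain ⟨t, ht, htr⟩ := Φ.exists_trace hΛ
  obtain ⟨ι, b, -⟩ := exists_hilbertBasis ℂ Φ.HH
  have hn : 0 < n := by
    rcases Nat.eq_zero_or_pos n with hn | hn
    · subst hn
      exfalso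
      have h2 := htr 1
      rw [tau] at h2
      have h3 : ((1 : LG Λ) : ell2 Λ →L[ℂ] ell2 Λ) (delta 1) = delta 1 := rfl
      rw [h3, inner_delta, delta_apply_self, mul_one] at h2
      simp at h2
      exact ht.ne' (by exact_mod_cast h2.symm)
    · exact hn
  have hr : (0 : ℝ) < (√(t * n))⁻¹ := by
    have : (0 : ℝ) < n := by exact_mod_cast hn
    positivity
  set r : ℝ := (√(t * n))⁻¹ with hrdef
  have hrc : ((r : ℝ) : ℂ) ≠ 0 := by exact_mod_cast hr.ne'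
  have hre : ‖(r : ℂ)‖ₑ ^ 8 ≠ 0 := pow_ne_zero _ (by simpa using hrc)
  have hre' : ‖(r : ℂ)‖ₑ ^ 8 ≠ ∞ := by finiteness
  have hzfin : ∑' i, ‖Φ.zv i‖ₑ ^ 2 ≠ ∞ := by
    rw [tsum_fintype]
    exact ENNReal.sum_ne_top.2 fun i _ => by finiteness
  have htot : ∀ v : Φ.HH, (∀ g i, ⟪(Φ.Urep g : Φ.HH →L[ℂ] Φ.HH) ((r : ℂ) • Φ.zv i), v⟫_ℂ = 0) →
      v = 0 := by
    intro v hv
    refine Φ.eq_zero_of_inner_zv fun g i => ?_
    have h2 := hv g i
    have h3 : (Φ.Urep g : Φ.HH →L[ℂ] Φ.HH) ((r : ℂ) • Φ.zv i)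
        = (r : ℂ) • (Φ.Urep g : Φ.HH →L[ℂ] Φ.HH) (Φ.zv i) :=
      (Φ.Urep g : Φ.HH →L[ℂ] Φ.HH).map_smul _ _
    rw [h3] at h2
    exact inner_eq_zero_of_smul hrc ((Φ.Urep g : Φ.HH →L[ℂ] Φ.HH) (Φ.zv i)) v h2
  rcases hd Λ (Fin n) (Fin n) ι Φ.HH b Φ.Urep Φ.Vrep Φ.commute_U_V Φ.zv Φ.isFrame_zv hzfin hΛ
    (Φ.irr b hicc htr) (fun i => (r : ℂ) • Φ.zv i) (Φ.isBFrame_zv ht htr) htot with hC | hdec
  · left
    exact Φ.isCanonical_of_concl hicc htr hC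
  · right
    intro k
    have h2 := hdec k
    have h3 : phi4 Φ.Urep Φ.Vrep (fun i => (r : ℂ) • Φ.zv i)
        = fun g => ‖(r : ℂ)‖ₑ ^ 8 * Φ.fourth g := funext fun g => Φ.phi4_eq r g
    rw [h3, walkAvg_mul_left, ← mul_assoc, mul_comm (c ^ k), mul_assoc] at h2
    exact (ENNReal.mul_le_mul_iff_right hre hre').1 h2

end

end Vale.Agent.P092
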