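import Vale.Agent.P092.H414.Equiv

/-!
# The operators attached to a Bessel frame, and the conditions stable under averaging and limits
-/

namespace Vale.Agent.P092

open scoped InnerProductSpace ENNReal ComplexConjugate ComplexOrder
open ContinuousLinearMap InnerProductSpace Filter Topology

noncomputable section

variable {ι κ Γ Λ : Type} [Group Γ] [Group Λ]
  {H : Type} [NormedAddCommGroup H] [InnerProductSpace ℂ H] [CompleteSpace H]
  (b : HilbertBasis ι ℂ H) (U : Γ →* unitary (H →L[ℂ] H)) (V : Λ →* unitary (H →L[ℂ] H))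

omit [CompleteSpace H] in
theorem IsBessel.enorm_le_one {f : κ → H} (hf : IsBessel f) (k : κ) : ‖f k‖ₑ ≤ 1 := by
  have h := (ENNReal.le_tsum k).trans (hf (f k))
  have h2 : ‖⟪f k, f k⟫_ℂ‖ = ‖f k‖ ^ 2 := by
    rw [inner_self_eq_norm_sq_to_K (𝕜 := ℂ)]
    simp
  have h1 : (‖f k‖ ^ 2) ^ 2 ≤ ‖f k‖ ^ 2 := by
    rw [← ofReal_norm, h2, ← ofReal_norm (f k), ← ENNReal.ofReal_pow (by positivity),
      ← ENNReal.ofReal_pow (by positivity)] at h
    exact (ENNReal.ofReal_le_ofReal_iff (by positivity)).1 h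
  have h4 : ‖f k‖ ≤ 1 := by
    by_contra hlt
    have hlt : 1 < ‖f k‖ := not_le.1 hlt
    have h5 : 1 < ‖f k‖ ^ 2 := by nlinarith
    nlinarith
  rw [← ofReal_norm, ← ENNReal.ofReal_one]
  exact ENNReal.ofReal_le_ofReal h4

theorem isBessel_ten {f : κ → H} (hf : IsBessel f) : IsBessel fun k => ten b (f k) (f k) := by
  intro Z
  calc ∑' k, ‖⟪ten b (f k) (f k), Z⟫_ℂ‖ₑ ^ 2
      ≤ ∑' k, ‖op b Z (f k)‖ₑ ^ 2 := by
        refine ENNReal.tsum_le_tsum fun k => ?_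
        rw [inner_ten_left]
        gcongr
        calc ‖⟪f k, op b Z (f k)⟫_ℂ‖ₑ ≤ ‖f k‖ₑ * ‖op b Z (f k)‖ₑ := by
              rw [← ofReal_norm, ← ofReal_norm, ← ofReal_norm, ← ENNReal.ofReal_mul (norm_nonneg _)]
              exact ENNReal.ofReal_le_ofReal (norm_inner_le_norm _ _)
          _ ≤ 1 * ‖op b Z (f k)‖ₑ := by
              gcongr
              exact hf.enorm_le_one k
          _ = ‖op b Z (f k)‖ₑ := one_mul _
    _ ≤ ∑' i, ‖adjoint (op b Z) (b i)‖ₑ ^ 2 :=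
        bessel_exchange_le hf (parseval_hilbertBasis b) (op b Z)
    _ = ‖Z‖ₑ ^ 2 := enorm_sq_eq_tsum_adjoint b Z (parseval_hilbertBasis b)

/-- The family `|V_s a_i⟩⟨V_s a_i|`. -/
def beta (a : κ → H) (p : κ × Λ) : HS ι H :=
  ten b ((V p.2 : H →L[ℂ] H) (a p.1)) ((V p.2 : H →L[ℂ] H) (a p.1))

theorem isBessel_beta {a : κ → H} (ha : IsBFrame V a) : IsBessel (beta b V a) :=
  isBessel_ten b ha

/-- The operator `Z ↦ ∑ ⟨V_s a_i, Z V_s a_i⟩ |V_s a_i⟩⟨V_s a_i|`. -/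
def EOp (a : κ → H) (ha : IsBFrame V a) : HS ι H →L[ℂ] HS ι H :=
  frameOp (beta b V a) (isBessel_beta b V ha)

/-- The part of the properties of `GoodOp` stable under convex combinations and limits. -/
structure PreGood (T : HS ι H →L[ℂ] HS ι H) : Prop where
  pos : T.IsPositive
  le_one : (1 - T).IsPositive
  symm : ∀ v w v' w' : H,
    ⟪ten b v' w', T (ten b v w)⟫_ℂ = ⟪ten b w w', T (ten b v v')⟫_ℂ
  commV : ∀ s : Λ, Commute (Ad b (V s : H →L[ℂ] H)) T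
  fbound : ∀ Z : HS ι H, ∑' k : Λ, quad T (rmul b (V k : H →L[ℂ] H) Z) ≤ ‖Z‖ₑ ^ 2
  pbound : ∀ v : H, ∑' l : ι, quad T (ten b v (b l)) ≤ ‖v‖ₑ ^ 2

theorem frameOp_isPositive {K : Type} [NormedAddCommGroup K] [InnerProductSpace ℂ K]
    [CompleteSpace K] (F : κ → K) (hF : IsBessel F) : (frameOp F hF).IsPositive :=
  isPositive_adjoint_comp_self _

theorem one_sub_frameOp_isPositive {K : Type} [NormedAddCommGroup K] [InnerProductSpace ℂ K]
    [CompleteSpace K] (F : κ → K) (hF : IsBessel F) : (1 - frameOp F hF).IsPositive := by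
  refine ⟨?_, fun Z => ?_⟩
  · have h1 : IsSelfAdjoint (1 - frameOp F hF) :=
      (IsSelfAdjoint.one _).sub (frameOp_isPositive F hF).isSelfAdjoint
    exact ContinuousLinearMap.isSelfAdjoint_iff_isSymmetric.1 h1
  · have h := hF Z
    rw [← quad_frameOp F hF, quad] at h
    have h2 : ‖Z‖ₑ ^ 2 = ENNReal.ofReal (‖Z‖ ^ 2) := by
      rw [ENNReal.ofReal_pow (norm_nonneg _), ofReal_norm]
    rw [h2, ENNReal.ofReal_le_ofReal_iff (by positivity)] at h
    have h3 : RCLike.re ⟪Z, Z⟫_ℂ = ‖Z‖ ^ 2 := inner_self_eq_norm_sq Z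
    have h4 : RCLike.re ⟪frameOp F hF Z, Z⟫_ℂ = RCLike.re ⟪Z, frameOp F hF Z⟫_ℂ :=
      inner_re_symm _ _
    show 0 ≤ RCLike.re ⟪Z - frameOp F hF Z, Z⟫_ℂ
    rw [inner_sub_left, map_sub, h3, h4]
    linarith

omit [CompleteSpace H] in
theorem quad_smul_add {K : Type} [NormedAddCommGroup K] [InnerProductSpace ℂ K]
    {A B : K →L[ℂ] K} (hA : A.IsPositive) (hB : B.IsPositive) {x y : ℝ} (hx : 0 ≤ x)
    (hy : 0 ≤ y) (Z : K) :
    quad ((x : ℂ) • A + (y : ℂ) • B) Z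
      = ENNReal.ofReal x * quad A Z + ENNReal.ofReal y * quad B Z := by
  have h : RCLike.re ⟪Z, ((x : ℂ) • A + (y : ℂ) • B) Z⟫_ℂ
      = x * RCLike.re ⟪Z, A Z⟫_ℂ + y * RCLike.re ⟪Z, B Z⟫_ℂ := by
    simp
  rw [quad, h, ENNReal.ofReal_add, ENNReal.ofReal_mul hx, ENNReal.ofReal_mul hy, quad, quad]
  · exact mul_nonneg hx (hA.re_inner_nonneg_right Z)
  · exact mul_nonneg hy (hB.re_inner_nonneg_right Z)

variable {b V}

theorem PreGood.combo {T T' : HS ι H →L[ℂ] HS ι H} (h : PreGood b V T) (h' : PreGood b V T')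
    {x y : ℝ} (hx : 0 ≤ x) (hy : 0 ≤ y) (hxy : x + y = 1) :
    PreGood b V ((x : ℂ) • T + (y : ℂ) • T') where
  pos := (h.pos.smul_of_nonneg (by exact_mod_cast hx)).add
    (h'.pos.smul_of_nonneg (by exact_mod_cast hy))
  le_one := by
    have h1 : (1 - ((x : ℂ) • T + (y : ℂ) • T'))
        = (x : ℂ) • (1 - T) + (y : ℂ) • (1 - T') := by
      have h2 : (1 : HS ι H →L[ℂ] HS ι H) = ((x : ℂ) + (y : ℂ)) • 1 := by
        rw [← Complex.ofReal_add, hxy]; simp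
      rw [smul_sub, smul_sub]
      nth_rewrite 1 [h2]
      rw [add_smul]
      abel
    rw [h1]
    exact (h.le_one.smul_of_nonneg (by exact_mod_cast hx)).add
      (h'.le_one.smul_of_nonneg (by exact_mod_cast hy))
  symm v w v' w' := by
    simp only [_root_.add_apply, _root_.smul_apply, inner_add_right, inner_smul_right]
    rw [h.symm, h'.symm]
  commV s := ((h.commV s).smul_right _).add_right ((h'.commV s).smul_right _)
  fbound Z := by
    simp_rw [quad_smul_add h.pos h'.pos hx hy]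
    rw [ENNReal.tsum_add, ENNReal.tsum_mul_left, ENNReal.tsum_mul_left]
    calc _ ≤ ENNReal.ofReal x * ‖Z‖ₑ ^ 2 + ENNReal.ofReal y * ‖Z‖ₑ ^ 2 := by
          gcongr
          · exact h.fbound Z
          · exact h'.fbound Z
      _ = ‖Z‖ₑ ^ 2 := by
          rw [← add_mul, ← ENNReal.ofReal_add hx hy, hxy]; simp
  pbound v := by
    simp_rw [quad_smul_add h.pos h'.pos hx hy]
    rw [ENNReal.tsum_add, ENNReal.tsum_mul_left, ENNReal.tsum_mul_left]
    calc _ ≤ ENNReal.ofReal x * ‖v‖ₑ ^ 2 + ENNReal.ofReal y * ‖v‖ₑ ^ 2 := by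
          gcongr
          · exact h.pbound v
          · exact h'.pbound v
      _ = ‖v‖ₑ ^ 2 := by
          rw [← add_mul, ← ENNReal.ofReal_add hx hy, hxy]; simp

theorem tendsto_quad {K : Type} [NormedAddCommGroup K] [InnerProductSpace ℂ K]
    {Tm : ℕ → K →L[ℂ] K} {T : K →L[ℂ] K} {Z : K}
    (hlim : Tendsto (fun m => Tm m Z) atTop (𝓝 (T Z))) :
    Tendsto (fun m => quad (Tm m) Z) atTop (𝓝 (quad T Z)) := by
  have h1 : Tendsto (fun m => RCLike.re ⟪Z, Tm m Z⟫_ℂ) atTop (𝓝 (RCLike.re ⟪Z, T Z⟫_ℂ)) :=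
    (RCLike.continuous_re.tendsto _).comp (tendsto_const_nhds.inner hlim)
  exact (ENNReal.continuous_ofReal.tendsto _).comp h1

theorem tsum_le_of_tendsto {κ : Type} {f : ℕ → κ → ℝ≥0∞} {g : κ → ℝ≥0∞} {C : ℝ≥0∞}
    (hf : ∀ᶠ m in atTop, ∑' k, f m k ≤ C) (hlim : ∀ k, Tendsto (fun m => f m k) atTop (𝓝 (g k))) :
    ∑' k, g k ≤ C := by
  rw [ENNReal.tsum_eq_iSup_sum]
  refine iSup_le fun F => ?_
  refine le_of_tendsto (tendsto_finsetSum F fun k _ => hlim k) ?_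
  filter_upwards [hf] with m hm
  exact (ENNReal.sum_le_tsum F).trans hm

theorem PreGood.of_tendsto {Tm : ℕ → HS ι H →L[ℂ] HS ι H} {T : HS ι H →L[ℂ] HS ι H}
    (h : ∀ m, PreGood b V (Tm m)) (hlim : ∀ Z, Tendsto (fun m => Tm m Z) atTop (𝓝 (T Z))) :
    PreGood b V T where
  pos := by
    refine ⟨fun Z W => ?_, fun Z => ?_⟩
    · refine tendsto_nhds_unique ((hlim Z).inner (tendsto_const_nhds (x := W))) ?_
      refine ((tendsto_const_nhds (x := Z)).inner (hlim W)).congr fun m => ?_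
      exact ((h m).pos.isSymmetric Z W).symm
    · have h1 : Tendsto (fun m => RCLike.re ⟪Tm m Z, Z⟫_ℂ) atTop (𝓝 (RCLike.re ⟪T Z, Z⟫_ℂ)) :=
        (RCLike.continuous_re.tendsto _).comp ((hlim Z).inner tendsto_const_nhds)
      exact ge_of_tendsto' h1 fun m => (h m).pos.re_inner_nonneg_left Z
  le_one := by
    have hlim' : ∀ Z, Tendsto (fun m => (1 - Tm m) Z) atTop (𝓝 ((1 - T) Z)) := fun Z =>
      tendsto_const_nhds.sub (hlim Z)
    refine ⟨fun Z W => ?_, fun Z => ?_⟩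
    · refine tendsto_nhds_unique ((hlim' Z).inner (tendsto_const_nhds (x := W))) ?_
      refine ((tendsto_const_nhds (x := Z)).inner (hlim' W)).congr fun m => ?_
      exact ((h m).le_one.isSymmetric Z W).symm
    · have h1 : Tendsto (fun m => RCLike.re ⟪(1 - Tm m) Z, Z⟫_ℂ) atTop
          (𝓝 (RCLike.re ⟪(1 - T) Z, Z⟫_ℂ)) :=
        (RCLike.continuous_re.tendsto _).comp ((hlim' Z).inner tendsto_const_nhds)
      exact ge_of_tendsto' h1 fun m => (h m).le_one.re_inner_nonneg_left Z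
  symm v w v' w' := by
    refine tendsto_nhds_unique ((tendsto_const_nhds (x := ten b v' w')).inner (hlim (ten b v w)))
      ?_
    refine ((tendsto_const_nhds (x := ten b w w')).inner (hlim (ten b v v'))).congr fun m => ?_
    exact ((h m).symm v w v' w').symm
  commV s := by
    refine ContinuousLinearMap.ext fun Z => ?_
    refine tendsto_nhds_unique (((Ad b (V s : H →L[ℂ] H)).continuous.tendsto _).comp (hlim Z)) ?_
    refine (hlim (Ad b (V s : H →L[ℂ] H) Z)).congr fun m => ?_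
    exact (DFunLike.congr_fun ((h m).commV s).eq Z).symm
  fbound Z := tsum_le_of_tendsto (Eventually.of_forall fun m => (h m).fbound Z)
    fun k => tendsto_quad (hlim _)
  pbound v := tsum_le_of_tendsto (Eventually.of_forall fun m => (h m).pbound v)
    fun k => tendsto_quad (hlim _)

variable (b V)

theorem EOp_inner (a : κ → H) (ha : IsBFrame V a) (W Z : HS ι H) :
    ⟪W, EOp b V a ha Z⟫_ℂ = ∑' p, conj ⟪beta b V a p, W⟫_ℂ * ⟪beta b V a p, Z⟫_ℂ :=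
  inner_frameOp _ _ _ _

theorem quad_EOp (a : κ → H) (ha : IsBFrame V a) (Z : HS ι H) :
    quad (EOp b V a ha) Z = ∑' p, ‖⟪beta b V a p, Z⟫_ℂ‖ₑ ^ 2 :=
  quad_frameOp _ _ _

theorem beta_inner_ten (a : κ → H) (p : κ × Λ) (v w : H) :
    ⟪beta b V a p, ten b v w⟫_ℂ
      = ⟪(V p.2 : H →L[ℂ] H) (a p.1), v⟫_ℂ * ⟪w, (V p.2 : H →L[ℂ] H) (a p.1)⟫_ℂ := by
  rw [beta, inner_ten_ten]

theorem beta_inner_Ad (a : κ → H) (p : κ × Λ) (s : Λ) (Z : HS ι H) :
    ⟪beta b V a p, Ad b (V s : H →L[ℂ] H) Z⟫_ℂ = ⟪beta b V a (p.1, s⁻¹ * p.2), Z⟫_ℂ := by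
  rw [← adjoint_inner_left, adjoint_Ad, adjoint_rep, beta, Ad_ten, ← rep_mul_apply]
  rfl

theorem EOp_preGood (a : κ → H) (ha : IsBFrame V a) : PreGood b V (EOp b V a ha) where
  pos := frameOp_isPositive _ _
  le_one := one_sub_frameOp_isPositive _ _
  symm v w v' w' := by
    rw [EOp_inner, EOp_inner]
    refine tsum_congr fun p => ?_
    simp only [beta_inner_ten, map_mul, inner_conj_symm]
    ring
  commV s := by
    refine ContinuousLinearMap.ext fun Z => ?_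
    refine ext_inner_left ℂ fun W => ?_
    show ⟪W, Ad b (V s : H →L[ℂ] H) (EOp b V a ha Z)⟫_ℂ
      = ⟪W, EOp b V a ha (Ad b (V s : H →L[ℂ] H) Z)⟫_ℂ
    rw [← adjoint_inner_left, adjoint_Ad, adjoint_rep, EOp_inner, EOp_inner]
    let σ : κ × Λ ≃ κ × Λ := (Equiv.refl κ).prodCongr (Equiv.mulLeft s⁻¹)
    rw [← σ.tsum_eq]
    refine tsum_congr fun p => ?_
    rw [beta_inner_Ad, beta_inner_Ad, inv_inv]
    have h1 : (σ p).1 = p.1 := rfl
    have h2 : (σ p).2 = s⁻¹ * p.2 := rfl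
    rw [h1, h2, mul_inv_cancel_left]
    rfl
  fbound Z := by
    simp_rw [quad_EOp]
    calc ∑' k : Λ, ∑' p : κ × Λ, ‖⟪beta b V a p, rmul b (V k : H →L[ℂ] H) Z⟫_ℂ‖ₑ ^ 2
        = ∑' k : Λ, ∑' p : κ × Λ,
          ‖⟪adjoint (op b Z) ((V p.2 : H →L[ℂ] H) (a p.1)),
            (V (k * p.2) : H →L[ℂ] H) (a p.1)⟫_ℂ‖ₑ ^ 2 := by
          refine tsum_congr fun k => tsum_congr fun p => ?_
          rw [beta, inner_ten_left, op_rmul, comp_apply, adjoint_inner_left, rep_mul_apply]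
      _ = ∑' p : κ × Λ, ∑' k : Λ,
          ‖⟪adjoint (op b Z) ((V p.2 : H →L[ℂ] H) (a p.1)),
            (V (k * p.2) : H →L[ℂ] H) (a p.1)⟫_ℂ‖ₑ ^ 2 := ENNReal.tsum_comm
      _ = ∑' p : κ × Λ, ∑' k : Λ,
          ‖⟪adjoint (op b Z) ((V p.2 : H →L[ℂ] H) (a p.1)),
            (V k : H →L[ℂ] H) (a p.1)⟫_ℂ‖ₑ ^ 2 := by
          refine tsum_congr fun p => ?_
          exact (Equiv.mulRight p.2).tsum_eq fun k : Λ =>
            ‖⟪adjoint (op b Z) ((V p.2 : H →L[ℂ] H) (a p.1)),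
              (V k : H →L[ℂ] H) (a p.1)⟫_ℂ‖ₑ ^ 2
      _ ≤ ∑' p : κ × Λ, ∑' q : κ × Λ,
          ‖⟪adjoint (op b Z) ((V p.2 : H →L[ℂ] H) (a p.1)),
            (V q.2 : H →L[ℂ] H) (a q.1)⟫_ℂ‖ₑ ^ 2 := by
          refine ENNReal.tsum_le_tsum fun p => ?_
          rw [ENNReal.tsum_prod']
          exact ENNReal.le_tsum (f := fun i => ∑' k : Λ,
            ‖⟪adjoint (op b Z) ((V p.2 : H →L[ℂ] H) (a p.1)),
              (V k : H →L[ℂ] H) (a i)⟫_ℂ‖ₑ ^ 2) p.1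
      _ ≤ ∑' p : κ × Λ, ‖adjoint (op b Z) ((V p.2 : H →L[ℂ] H) (a p.1))‖ₑ ^ 2 :=
          ENNReal.tsum_le_tsum fun p => ha.symm_apply _
      _ ≤ ∑' i, ‖adjoint (adjoint (op b Z)) (b i)‖ₑ ^ 2 :=
          bessel_exchange_le ha (parseval_hilbertBasis b) _
      _ = ‖Z‖ₑ ^ 2 := by
          rw [adjoint_adjoint]
          exact enorm_sq_eq_tsum_op b Z (parseval_hilbertBasis b)
  pbound v := by
    simp_rw [quad_EOp]
    calc ∑' l : ι, ∑' p : κ × Λ, ‖⟪beta b V a p, ten b v (b l)⟫_ℂ‖ₑ ^ 2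
        = ∑' p : κ × Λ, ∑' l : ι, ‖⟪beta b V a p, ten b v (b l)⟫_ℂ‖ₑ ^ 2 := ENNReal.tsum_comm
      _ = ∑' p : κ × Λ, ‖⟪(V p.2 : H →L[ℂ] H) (a p.1), v⟫_ℂ‖ₑ ^ 2 *
            ‖(V p.2 : H →L[ℂ] H) (a p.1)‖ₑ ^ 2 := by
          refine tsum_congr fun p => ?_
          rw [← parseval_hilbertBasis b ((V p.2 : H →L[ℂ] H) (a p.1)), ← ENNReal.tsum_mul_left]
          refine tsum_congr fun l => ?_
          rw [beta_inner_ten, enorm_mul, mul_pow]
      _ ≤ ∑' p : κ × Λ, ‖⟪(V p.2 : H →L[ℂ] H) (a p.1), v⟫_ℂ‖ₑ ^ 2 * 1 := by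
          refine ENNReal.tsum_le_tsum fun p => ?_
          gcongr
          exact pow_le_one₀ zero_le (ha.enorm_le_one p)
      _ ≤ ‖v‖ₑ ^ 2 := by
          simp_rw [mul_one]
          exact ha v

end

end Vale.Agent.P092
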