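import Vale.Agent.P092.H184.AmpTrace

/-!
# Fourier coefficients in `L(Γ)`, groups of orthogonal unitaries, Heisenberg pairs
-/

namespace Vale.Agent.P092

open scoped InnerProductSpace ENNReal ComplexConjugate
open ContinuousLinearMap

noncomputable section

section Ortho

variable {E : Type} [NormedAddCommGroup E] [InnerProductSpace ℂ E] {ι : Type}

theorem finite_of_orthonormal {v : ι → E} (hv : Orthonormal ℂ v) (ξ : E) {c : ℝ} (hc : c ≠ 0) :
    {i | ‖⟪v i, ξ⟫_ℂ‖ = c}.Finite := by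
  by_contra h
  have hinf : {i | ‖⟪v i, ξ⟫_ℂ‖ = c}.Infinite := h
  have : Infinite {i | ‖⟪v i, ξ⟫_ℂ‖ = c} := hinf.to_subtype
  have h1 : Orthonormal ℂ (fun i : {i | ‖⟪v i, ξ⟫_ℂ‖ = c} => v i) :=
    hv.comp (fun i : {i | ‖⟪v i, ξ⟫_ℂ‖ = c} => (i : ι)) Subtype.val_injective
  have h2 := h1.inner_products_summable (𝕜 := ℂ) ξ
  have h3 : (fun i : {i | ‖⟪v i, ξ⟫_ℂ‖ = c} => ‖⟪v (i : ι), ξ⟫_ℂ‖ ^ 2) = fun _ => c ^ 2 := by
    funext i
    rw [i.2]
  rw [h3, summable_const_iff] at h2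
  exact hc (pow_eq_zero_iff (two_ne_zero)|>.1 h2)

theorem eq_zero_of_orthonormal {T : Set ι} (hT : T.Infinite) {v : ι → E}
    (hv : Orthonormal ℂ (fun i : T => v i)) (ξ : E) (c : ℂ) (h : ∀ i ∈ T, ⟪v i, ξ⟫_ℂ = c) :
    c = 0 := by
  by_contra hc
  have h1 := finite_of_orthonormal hv ξ (c := ‖c‖) (norm_ne_zero_iff.2 hc)
  have h2 : {i : T | ‖⟪v i, ξ⟫_ℂ‖ = ‖c‖} = Set.univ := by
    ext i
    simp [h i i.2]
  rw [h2] at h1
  have : Infinite T := hT.to_subtype
  exact Set.infinite_univ h1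

end Ortho

variable {Γ Λ : Type} [Group Γ] [Group Λ]

/-- The vector `x δ_1`. -/
def hat (x : LG Γ) : ell2 Γ := (x : ell2 Γ →L[ℂ] ell2 Γ) (delta 1)

theorem coef_eq_hat (x : LG Γ) (g : Γ) : coef x g = hat x g := rfl

theorem inner_hat (x y : LG Γ) : ⟪hat x, hat y⟫_ℂ = tau (star x * y) := by
  change ⟪(x : ell2 Γ →L[ℂ] ell2 Γ) (delta 1), (y : ell2 Γ →L[ℂ] ell2 Γ) (delta 1)⟫_ℂ =
    ⟪delta 1, (adjoint (x : ell2 Γ →L[ℂ] ell2 Γ)) ((y : ell2 Γ →L[ℂ] ell2 Γ) (delta 1))⟫_ℂ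
  rw [adjoint_inner_right]

theorem hat_u (g : Γ) : hat (u g) = delta g := by
  change lreg g (delta 1) = _
  rw [lreg_delta, mul_one]

theorem coef_eq_tau (x : LG Γ) (g : Γ) : coef x g = tau (star (u g) * x) := by
  rw [← inner_hat, hat_u, inner_delta]
  rfl

theorem coef_one (x : LG Γ) : coef x 1 = tau x := by
  rw [coef_eq_tau, u_one, star_one, one_mul]

theorem coef_add (x y : LG Γ) (g : Γ) : coef (x + y) g = coef x g + coef y g := rfl

theorem coef_sub (x y : LG Γ) (g : Γ) : coef (x - y) g = coef x g - coef y g := rfl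

theorem coef_smul (c : ℂ) (x : LG Γ) (g : Γ) : coef (c • x) g = c * coef x g := rfl

theorem tau_smul (c : ℂ) (x : LG Γ) : tau (c • x) = c * tau x := by
  rw [← coef_one, ← coef_one, coef_smul]

theorem tau_star (x : LG Γ) : tau (star x) = conj (tau x) := by
  change ⟪delta 1, (adjoint (x : ell2 Γ →L[ℂ] ell2 Γ)) (delta 1)⟫_ℂ =
    conj ⟪delta 1, (x : ell2 Γ →L[ℂ] ell2 Γ) (delta 1)⟫_ℂ
  rw [adjoint_inner_right, inner_conj_symm]

theorem eq_zero_of_coef {x : LG Γ} (h : ∀ g, coef x g = 0) : x = 0 := by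
  apply Subtype.ext
  refine LG_eq_zero x.2 ?_
  ext g
  exact h g

theorem ext_coef {x y : LG Γ} (h : ∀ g, coef x g = coef y g) : x = y := by
  rw [← sub_eq_zero]
  refine eq_zero_of_coef fun g => ?_
  rw [coef_sub, h, sub_self]

theorem coef_u_self (g : Γ) : coef (u g) g = 1 := by
  rw [coef_eq_hat, hat_u, delta_apply_self]

theorem coef_u_ne {g h : Γ} (hne : h ≠ g) : coef (u g) h = 0 := by
  rw [coef_eq_hat, hat_u, delta_apply_ne hne]

theorem coef_u_mul (h : Γ) (x : LG Γ) (g : Γ) : coef (u h * x) g = coef x (h⁻¹ * g) :=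
  lreg_apply h (hat x) g

theorem coef_mul_u (x : LG Γ) (h g : Γ) : coef (x * u h) g = coef x (g * h⁻¹) := by
  change (x : ell2 Γ →L[ℂ] ell2 Γ) (hat (u h)) g = _
  rw [hat_u, LG_delta_apply]
  rfl

theorem coef_star (x : LG Γ) (g : Γ) : coef (star x) g = conj (coef x g⁻¹) := by
  rw [coef_eq_tau, ← star_mul, tau_star, tau_mul_comm, ← coef_one, coef_u_mul, mul_one]

theorem hasSum_tau (x y : LG Γ) :
    HasSum (fun g => conj (coef x g) * coef y g) (tau (star x * y)) := by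
  rw [← inner_hat]
  have h := (deltaBasis Γ).hasSum_inner_mul_inner (hat x) (hat y)
  have h2 : (fun g => conj (coef x g) * coef y g) =
      fun g => ⟪hat x, deltaBasis Γ g⟫_ℂ * ⟪deltaBasis Γ g, hat y⟫_ℂ := by
    funext g
    rw [deltaBasis_apply, inner_delta, ← inner_conj_symm, inner_delta]
    rfl
  rw [h2]
  exact h

theorem hasSum_coef_mul (x y : LG Γ) (g : Γ) :
    HasSum (fun h => coef x (g * h⁻¹) * coef y h) (coef (x * y) g) := by
  have h1 := hasSum_tau (star x * u g) y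
  rw [star_mul, star_star, mul_assoc, ← coef_eq_tau] at h1
  have h2 : (fun h => coef x (g * h⁻¹) * coef y h) =
      fun h => conj (coef (star x * u g) h) * coef y h := by
    funext h
    rw [coef_mul_u, coef_star, Complex.conj_conj, mul_inv_rev, inv_inv]
  rw [h2]
  exact h1

/-- The Fourier coefficients of `x` vanish outside `P`. -/
def SuppIn (x : LG Γ) (P : Set Γ) : Prop := ∀ g, g ∉ P → coef x g = 0

theorem SuppIn.mem {x : LG Γ} {P : Set Γ} (h : SuppIn x P) {g : Γ} (hg : coef x g ≠ 0) : g ∈ P := by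
  by_contra h1
  exact hg (h g h1)

theorem SuppIn.mul {P : Subgroup Γ} {x y : LG Γ} (hx : SuppIn x P) (hy : SuppIn y P) :
    SuppIn (x * y) P := by
  intro g hg
  refine (hasSum_coef_mul x y g).unique ?_
  have : (fun h => coef x (g * h⁻¹) * coef y h) = fun _ => 0 := by
    funext h
    by_cases hh : h ∈ P
    · rw [hx, zero_mul]
      intro h2
      exact hg (by simpa using P.mul_mem h2 hh)
    · rw [hy h hh, mul_zero]
  rw [this]
  exact hasSum_zero

theorem SuppIn.star {P : Subgroup Γ} {x : LG Γ} (hx : SuppIn x P) : SuppIn (star x) P := by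
  intro g hg
  rw [coef_star, hx, map_zero]
  intro h
  exact hg (by simpa using P.inv_mem h)

theorem suppIn_one {P : Subgroup Γ} : SuppIn (1 : LG Γ) P := by
  intro g hg
  rw [← u_one]
  refine coef_u_ne ?_
  rintro rfl
  exact hg P.one_mem

/-- A group of unitaries of `L(Γ)` on which the trace is the Dirac function at the identity. -/
structure OGroup (X : Λ → LG Γ) : Prop where
  map_one : X 1 = 1
  map_mul : ∀ s t, X (s * t) = X s * X t
  map_star : ∀ s, star (X s) = X s⁻¹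
  tau_eq : ∀ s, s ≠ 1 → tau (X s) = 0

namespace OGroup

variable {X : Λ → LG Γ} (hX : OGroup X)

include hX

theorem inner (s t : Λ) : ⟪hat (X s), hat (X t)⟫_ℂ = tau (X (s⁻¹ * t)) := by
  rw [inner_hat, hX.map_star, hX.map_mul]

theorem orthonormal : Orthonormal ℂ fun s => hat (X s) := by
  classical
  rw [orthonormal_iff_ite]
  intro s t
  rw [hX.inner]
  by_cases h : s = t
  · rw [if_pos h, h, inv_mul_cancel, hX.map_one, tau_one]
  · rw [if_neg h, hX.tau_eq]
    intro h2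
    exact h (inv_mul_eq_one.1 h2)

theorem ne_zero (s : Λ) : X s ≠ 0 := by
  intro h
  have h1 : ‖hat (X s)‖ = 1 := hX.orthonormal.1 s
  rw [h] at h1
  have h2 : hat (0 : LG Γ) = 0 := rfl
  rw [h2, norm_zero] at h1
  exact zero_ne_one h1

theorem star_mul_self (s : Λ) : star (X s) * X s = 1 := by
  rw [hX.map_star, ← hX.map_mul, inv_mul_cancel, hX.map_one]

theorem mul_star_self (s : Λ) : X s * star (X s) = 1 := by
  rw [hX.map_star, ← hX.map_mul, mul_inv_cancel, hX.map_one]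

theorem inv_mul (s : Λ) : X s⁻¹ * X s = 1 := by
  rw [← hX.map_mul, inv_mul_cancel, hX.map_one]

theorem mul_inv (s : Λ) : X s * X s⁻¹ = 1 := by
  rw [← hX.map_mul, mul_inv_cancel, hX.map_one]

/-- The elements of the group supported in a subgroup. -/
def supp (P : Subgroup Γ) : Subgroup Λ where
  carrier := {s | SuppIn (X s) P}
  mul_mem' {s t} hs ht := by
    change SuppIn (X (s * t)) P
    rw [hX.map_mul]
    exact SuppIn.mul hs ht
  one_mem' := by
    change SuppIn (X 1) P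
    rw [hX.map_one]
    exact suppIn_one
  inv_mem' {s} hs := by
    change SuppIn (X s⁻¹) P
    rw [← hX.map_star]
    exact SuppIn.star hs

theorem mem_supp {P : Subgroup Γ} {s : Λ} : s ∈ hX.supp P ↔ SuppIn (X s) P := Iff.rfl

/-- Mixing: an element commuting with infinitely many `X t` supported in `B` has no coefficient
at `g` if `B ∩ g⁻¹ B g` is trivial. -/
theorem coef_eq_zero {B : Subgroup Γ} {g : Γ} (hg : ∀ b ∈ B, g * b * g⁻¹ ∈ B → b = 1)
    {T : Set Λ} (hT : T.Infinite) (hTB : ∀ t ∈ T, SuppIn (X t) B) {z : LG Γ}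
    (hz : ∀ t ∈ T, X t * z = z * X t) : coef z g = 0 := by
  classical
  let v : Λ → ell2 Γ := fun t => hat (X t⁻¹ * (u g * X t))
  refine eq_zero_of_orthonormal hT (v := v) ?_ (hat z) _ ?_
  · rw [orthonormal_iff_ite]
    rintro ⟨s, hs⟩ ⟨t, ht⟩
    change ⟪hat (X s⁻¹ * (u g * X s)), hat (X t⁻¹ * (u g * X t))⟫_ℂ = _
    have hq : SuppIn (X (s * t⁻¹)) B :=
      (hX.supp B).mul_mem (hTB s hs) ((hX.supp B).inv_mem (hTB t ht))
    have h1 : ⟪hat (X s⁻¹ * (u g * X s)), hat (X t⁻¹ * (u g * X t))⟫_ℂ =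
        tau (star (X (s * t⁻¹)) * (u g⁻¹ * X (s * t⁻¹) * u g)) := by
      rw [inner_hat, star_mul, star_mul, hX.map_star, hX.map_star, hX.map_star, star_u, inv_inv]
      rw [show X s⁻¹ * u g⁻¹ * X s * (X t⁻¹ * (u g * X t)) =
        (X s⁻¹ * (u g⁻¹ * (X s * X t⁻¹) * u g)) * X t by simp only [mul_assoc]]
      rw [tau_mul_comm, ← mul_assoc, ← hX.map_mul, ← hX.map_mul]
      congr 3
      group
    rw [h1]
    have h2 := hasSum_tau (X (s * t⁻¹)) (u g⁻¹ * X (s * t⁻¹) * u g)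
    have h3 : (fun x => conj (coef (X (s * t⁻¹)) x) * coef (u g⁻¹ * X (s * t⁻¹) * u g) x) =
        fun x => if x = 1 then conj (coef (X (s * t⁻¹)) 1) * coef (X (s * t⁻¹)) 1 else 0 := by
      funext x
      rw [coef_mul_u, coef_u_mul, inv_inv]
      by_cases hx : x = 1
      · rw [if_pos hx, hx, one_mul, mul_inv_cancel]
      · rw [if_neg hx]
        by_cases hxB : x ∈ B
        · rw [hq (g * (x * g⁻¹)), mul_zero]
          intro h4
          rw [← mul_assoc] at h4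
          exact hx (hg x hxB h4)
        · rw [hq x hxB, map_zero, zero_mul]
    rw [h3] at h2
    rw [h2.unique (hasSum_ite_eq 1 _)]
    by_cases hst : s = t
    · subst hst
      rw [if_pos rfl, mul_inv_cancel, hX.map_one, coef_one, tau_one, _root_.map_one, mul_one]
    · rw [if_neg (fun h => hst (congrArg Subtype.val h)), coef_one, hX.tau_eq, mul_zero]
      intro h
      exact hst (mul_inv_eq_one.1 h)
  · intro t ht
    change ⟪hat (X t⁻¹ * (u g * X t)), hat z⟫_ℂ = _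
    rw [inner_hat, star_mul, star_mul, hX.map_star, hX.map_star, inv_inv, star_u, mul_assoc, hz t ht,
      mul_assoc, tau_mul_comm]
    rw [mul_assoc, mul_assoc, hX.mul_inv, mul_one, coef_eq_tau, star_u]

end OGroup

theorem commute_of_suppIn {A : Subgroup Γ} {c : Γ} (hc : ∀ a ∈ A, c * a = a * c) {x : LG Γ}
    (hx : SuppIn x A) : u c * x = x * u c := by
  refine ext_coef fun g => ?_
  rw [coef_u_mul, coef_mul_u]
  by_cases h : c⁻¹ * g ∈ A
  · have h1 := hc _ h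
    rw [mul_inv_cancel_left] at h1
    congr 1
    rw [eq_mul_inv_iff_mul_eq, ← h1]
  · rw [hx _ h, hx]
    intro h2
    apply h
    have h3 := hc _ h2
    rw [inv_mul_cancel_right] at h3
    rw [← h3, inv_mul_cancel_left]
    exact h2

theorem infinite_commute {S : Subgroup Λ} (hS : (S : Set Λ).Infinite) (s : Λ)
    (hfin : ((fun h => h * s * h⁻¹) '' (S : Set Λ)).Finite) :
    {h | h ∈ S ∧ h * s = s * h}.Infinite := by
  by_contra hcon
  rw [Set.not_infinite] at hcon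
  apply hS
  have h1 : (S : Set Λ) ⊆ ⋃ t ∈ (fun h => h * s * h⁻¹) '' (S : Set Λ),
      {h | h ∈ S ∧ h * s * h⁻¹ = t} := by
    intro h hh
    rw [Set.mem_iUnion₂]
    exact ⟨_, ⟨h, hh, rfl⟩, hh, rfl⟩
  refine (Set.Finite.biUnion hfin ?_).subset h1
  rintro _ ⟨h0, hh0, rfl⟩
  refine Set.Finite.of_finite_image (f := fun h => h0⁻¹ * h) (hcon.subset ?_)
    (fun a _ b _ hab => mul_left_cancel hab)
  rintro _ ⟨h, ⟨hh, heq⟩, rfl⟩
  refine ⟨S.mul_mem (S.inv_mem hh0) hh, ?_⟩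
  change h * s * h⁻¹ = h0 * s * h0⁻¹ at heq
  have h2 : h * s = h0 * s * h0⁻¹ * h := by rw [← heq]; group
  change h0⁻¹ * h * s = s * (h0⁻¹ * h)
  rw [mul_assoc, h2]
  group

namespace OGroup

variable {X : Λ → LG Γ} (hX : OGroup X)

include hX

theorem finite_coef (c : Γ) {κ : ℝ} (hκ : κ ≠ 0) : {t | ‖coef (X t) c‖ = κ}.Finite := by
  have h := finite_of_orthonormal hX.orthonormal (delta c) hκ
  refine h.subset fun t ht => ?_
  change ‖⟪hat (X t), delta c⟫_ℂ‖ = κ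
  rw [norm_inner_symm, inner_delta]
  exact ht

theorem infinite_commute_of_coef {A : Subgroup Γ} (hA : (hX.supp A : Set Λ).Infinite) {c : Γ}
    (hc : ∀ a ∈ A, c * a = a * c) {s : Λ} (hs : coef (X s) c ≠ 0) :
    {h | h ∈ hX.supp A ∧ h * s = s * h}.Infinite := by
  refine infinite_commute hA s ((hX.finite_coef c (norm_ne_zero_iff.2 hs)).subset ?_)
  rintro _ ⟨h, hh, rfl⟩
  change ‖coef (X (h * s * h⁻¹)) c‖ = ‖coef (X s) c‖
  congr 1
  have h1 : u c⁻¹ * X h = X h * u c⁻¹ := by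
    refine commute_of_suppIn (fun a ha => ?_) hh
    have h2 := hc a ha
    rw [inv_mul_eq_iff_eq_mul, ← mul_assoc, h2, mul_inv_cancel_right]
  rw [coef_eq_tau, coef_eq_tau, star_u, hX.map_mul, hX.map_mul, ← mul_assoc, ← mul_assoc, h1,
    tau_mul_comm, mul_assoc, ← mul_assoc, hX.inv_mul, one_mul]

end OGroup

/-- A Heisenberg pair of subgroups: `A` and `B` are abelian, the commutators `a b a⁻¹ b⁻¹` commute
with `A` and with `B`, and nontrivial elements of `A` and of `B` never commute. -/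
structure HeisPair (A B : Subgroup Γ) : Prop where
  commA : ∀ a ∈ A, ∀ a' ∈ A, a * a' = a' * a
  commB : ∀ b ∈ B, ∀ b' ∈ B, b * b' = b' * b
  centA : ∀ a ∈ A, ∀ b ∈ B, ∀ a' ∈ A, a * b * a⁻¹ * b⁻¹ * a' = a' * (a * b * a⁻¹ * b⁻¹)
  centB : ∀ a ∈ A, ∀ b ∈ B, ∀ b' ∈ B, a * b * a⁻¹ * b⁻¹ * b' = b' * (a * b * a⁻¹ * b⁻¹)
  nondeg : ∀ a ∈ A, ∀ b ∈ B, a * b = b * a → a = 1 ∨ b = 1

theorem inv_comm_of_comm {c a : Γ} (h : c * a = a * c) : c⁻¹ * a = a * c⁻¹ := by
  rw [inv_mul_eq_iff_eq_mul, ← mul_assoc, h, mul_inv_cancel_right]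

namespace HeisPair

variable {A B : Subgroup Γ} (h : HeisPair A B)

include h

theorem symm : HeisPair B A where
  commA := h.commB
  commB := h.commA
  centA b hb a ha b' hb' := by
    have h1 := inv_comm_of_comm (h.centB a ha b hb b' hb')
    have h2 : (a * b * a⁻¹ * b⁻¹)⁻¹ = b * a * b⁻¹ * a⁻¹ := by group
    rwa [h2] at h1
  centB b hb a ha a' ha' := by
    have h1 := inv_comm_of_comm (h.centA a ha b hb a' ha')
    have h2 : (a * b * a⁻¹ * b⁻¹)⁻¹ = b * a * b⁻¹ * a⁻¹ := by group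
    rwa [h2] at h1
  nondeg b hb a ha hab := (h.nondeg a ha b hb hab.symm).symm

theorem unique {a₀ b₀ : Γ} (ha₀ : a₀ ∈ A) (ha₀' : a₀ ≠ 1) (hb₀ : b₀ ∈ B) (hb₀' : b₀ ≠ 1)
    {a a' b b' c : Γ} (ha : a ∈ A) (ha' : a' ∈ A) (hb : b ∈ B) (hb' : b' ∈ B)
    (hcA : ∀ x ∈ A, c * x = x * c) (hcB : ∀ x ∈ B, c * x = x * c)
    (heq : a * b = c * (a' * b')) : a = a' ∧ b = b' ∧ c = 1 := by
  have h1 : a'⁻¹ * a = c * (b' * b⁻¹) := by
    rw [inv_mul_eq_iff_eq_mul, ← mul_assoc, ← hcA a' ha', ← mul_assoc, eq_mul_inv_iff_mul_eq, heq,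
      mul_assoc]
  have hbb : b' * b⁻¹ ∈ B := B.mul_mem hb' (B.inv_mem hb)
  have h2 : a'⁻¹ * a * b₀ = b₀ * (a'⁻¹ * a) := by
    rw [h1, mul_assoc, h.commB _ hbb _ hb₀, ← mul_assoc, hcB _ hb₀, mul_assoc]
  rcases h.nondeg _ (A.mul_mem (A.inv_mem ha') ha) _ hb₀ h2 with h3 | h3
  · have h4 : a = a' := (inv_mul_eq_one.1 h3).symm
    have h5 : c = b * b'⁻¹ := by
      rw [h3] at h1
      rw [eq_mul_inv_iff_mul_eq, ← mul_one b, ← mul_one (c * b')]
      have h6 := congrArg (· * b) h1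
      simp only [one_mul] at h6
      rw [mul_one, mul_one, h6]
      group
    have hc : c ∈ B := by
      rw [h5]
      exact B.mul_mem hb (B.inv_mem hb')
    rcases h.nondeg _ ha₀ _ hc (hcA _ ha₀).symm with h6 | h6
    · exact absurd h6 ha₀'
    · refine ⟨h4, ?_, h6⟩
      rw [h6] at h5
      exact (mul_inv_eq_one.1 h5.symm)
  · exact absurd h3 hb₀'

end HeisPair

end

end Vale.Agent.P092
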