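import Vale.Agent.P092.H414.RootA

/-!
# Heisenberg pairs

If a group of orthogonal unitaries of `L(Γ)` meets both `L(A)` and `L(B)` in infinite groups, for a
Heisenberg pair `(A, B)` of subgroups of `Γ`, then its elements in `L(A)` are multiples of elements
of `A`.
-/

namespace Vale.Agent.P092

open scoped InnerProductSpace ENNReal ComplexConjugate
open ContinuousLinearMap

noncomputable section

variable {Γ Λ : Type} [Group Γ] [Group Λ]

theorem hasSum_coef_comm (x y : LG Γ) (g : Γ) :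
    HasSum (fun k => conj (coef (y * x) (g⁻¹ * k)) * coef (x * y) k)
      (coef (x * y * (star x * star y)) g) := by
  have h := hasSum_tau (u g * (y * x)) (x * y)
  have h1 : tau (star (u g * (y * x)) * (x * y)) = coef (x * y * (star x * star y)) g := by
    rw [coef_eq_tau, star_mul, star_mul, tau_mul_comm, ← mul_assoc, tau_mul_comm]
  rw [h1] at h
  simpa only [coef_u_mul] using h

theorem re_conj_mul_self (w : ℂ) : (conj w * w).re = ‖w‖ ^ 2 := by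
  rw [Complex.conj_mul', ← Complex.ofReal_pow, Complex.ofReal_re]

theorem eq_of_coef_eq_one {z : LG Γ} (hz : star z * z = 1) {g k : Γ} (hg : coef z g = 1)
    (hk : coef z k = 1) : g = k := by
  classical
  by_contra hne
  have h1 := hasSum_tau z z
  rw [hz, tau_one] at h1
  have h2 := Complex.hasSum_re h1
  have h3 : ∑ x ∈ ({g, k} : Finset Γ), (conj (coef z x) * coef z x).re ≤ (1 : ℂ).re :=
    sum_le_hasSum _ (fun x _ => by rw [re_conj_mul_self]; positivity) h2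
  rw [Finset.sum_pair hne, hg, hk] at h3
  norm_num at h3

namespace HeisPair

variable {A B : Subgroup Γ} (h : HeisPair A B) {a₀ b₀ : Γ} (ha₀ : a₀ ∈ A) (ha₀' : a₀ ≠ 1)
  (hb₀ : b₀ ∈ B) (hb₀' : b₀ ≠ 1)

include h ha₀ ha₀' hb₀ hb₀'

theorem coef_mul_ab {x y : LG Γ} (hx : SuppIn x A) (hy : SuppIn y B) {a b : Γ} (ha : a ∈ A)
    (hb : b ∈ B) : coef (x * y) (a * b) = coef x a * coef y b := by
  classical
  refine (hasSum_coef_mul x y (a * b)).unique ?_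
  have h1 : (fun k => coef x (a * b * k⁻¹) * coef y k) =
      fun k => if k = b then coef x a * coef y b else 0 := by
    funext k
    by_cases hk : k = b
    · rw [if_pos hk, hk, mul_inv_cancel_right]
    · rw [if_neg hk]
      by_cases hkB : k ∈ B
      · rw [hx, zero_mul]
        intro h1
        have h2 := h.unique ha₀ ha₀' hb₀ hb₀' h1 ha hkB hb (c := 1) (fun x _ => by simp)
          (fun x _ => by simp) (by group)
        exact hk h2.2.1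
      · rw [hy k hkB, mul_zero]
  rw [h1]
  exact hasSum_ite_eq b _

omit h ha₀ ha₀' hb₀ hb₀' in
theorem exists_of_coef_mul {x y : LG Γ} (hx : SuppIn x A) (hy : SuppIn y B) {g : Γ}
    (hg : coef (x * y) g ≠ 0) : ∃ a ∈ A, ∃ b ∈ B, g = a * b := by
  by_contra hcon
  apply hg
  refine (hasSum_coef_mul x y g).unique ?_
  have h1 : (fun k => coef x (g * k⁻¹) * coef y k) = fun _ => 0 := by
    funext k
    by_cases hkB : k ∈ B
    · rw [hx, zero_mul]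
      intro h1
      exact hcon ⟨_, h1, k, hkB, by group⟩
    · rw [hy k hkB, mul_zero]
  rw [h1]
  exact hasSum_zero

omit ha₀ ha₀' hb₀ hb₀' in
theorem comm_cent {a b : Γ} (ha : a ∈ A) (hb : b ∈ B) {c : Γ} (hcA : ∀ x ∈ A, c * x = x * c)
    (hcB : ∀ x ∈ B, c * x = x * c) :
    (∀ x ∈ A, c * (b * a * b⁻¹ * a⁻¹) * x = x * (c * (b * a * b⁻¹ * a⁻¹))) ∧
      ∀ x ∈ B, c * (b * a * b⁻¹ * a⁻¹) * x = x * (c * (b * a * b⁻¹ * a⁻¹)) := by
  constructor
  · intro x hx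
    rw [mul_assoc, h.symm.centB b hb a ha x hx, ← mul_assoc, hcA x hx, mul_assoc]
  · intro x hx
    rw [mul_assoc, h.symm.centA b hb a ha x hx, ← mul_assoc, hcB x hx, mul_assoc]

/-- If `a b = c b' a'` with `c` commuting with `A` and `B`, then `a = a'` and `b = b'`. -/
theorem unique' {a a' b b' c : Γ} (ha : a ∈ A) (ha' : a' ∈ A) (hb : b ∈ B) (hb' : b' ∈ B)
    (hcA : ∀ x ∈ A, c * x = x * c) (hcB : ∀ x ∈ B, c * x = x * c)
    (heq : a * b = c * (b' * a')) : a = a' ∧ b = b' := by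
  obtain ⟨h1, h2⟩ := h.comm_cent ha' hb' hcA hcB
  have h3 := h.unique ha₀ ha₀' hb₀ hb₀' ha ha' hb hb' h1 h2 (by rw [heq]; group)
  exact ⟨h3.1, h3.2.1⟩

theorem coef_comm_ne_zero {x y : LG Γ} (hx : SuppIn x A) (hy : SuppIn y B) {a b : Γ} (ha : a ∈ A)
    (hb : b ∈ B) (hxa : coef x a ≠ 0) (hyb : coef y b ≠ 0) :
    coef (x * y * (star x * star y)) (a * b * a⁻¹ * b⁻¹) ≠ 0 := by
  set c := a * b * a⁻¹ * b⁻¹ with hc
  have h1 := Complex.hasSum_re (hasSum_coef_comm x y c)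
  have hterm : ∀ a₁ ∈ A, ∀ b₁ ∈ B, conj (coef (y * x) (b₁ * a₁)) * coef (x * y) (a₁ * b₁) =
      conj (coef x a₁ * coef y b₁) * (coef x a₁ * coef y b₁) := by
    intro a₁ ha₁ b₁ hb₁
    rw [h.symm.coef_mul_ab hb₀ hb₀' ha₀ ha₀' hy hx hb₁ ha₁,
      h.coef_mul_ab ha₀ ha₀' hb₀ hb₀' hx hy ha₁ hb₁, mul_comm (coef y b₁)]
  have hnn : ∀ k, 0 ≤ (conj (coef (y * x) (c⁻¹ * k)) * coef (x * y) k).re := by
    intro k
    by_cases hk1 : coef (x * y) k = 0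
    · rw [hk1, mul_zero, Complex.zero_re]
    by_cases hk2 : coef (y * x) (c⁻¹ * k) = 0
    · rw [hk2, map_zero, zero_mul, Complex.zero_re]
    obtain ⟨a₁, ha₁, b₁, hb₁, rfl⟩ := exists_of_coef_mul hx hy hk1
    obtain ⟨b₂, hb₂, a₂, ha₂, h2⟩ := exists_of_coef_mul hy hx hk2
    have h3 : a₁ * b₁ = c * (b₂ * a₂) := by rw [← h2]; group
    have h4 := h.unique' ha₀ ha₀' hb₀ hb₀' ha₁ ha₂ hb₁ hb₂ (h.centA a ha b hb) (h.centB a ha b hb) h3
    rw [h2, ← h4.1, ← h4.2, hterm a₁ ha₁ b₁ hb₁, re_conj_mul_self]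
    positivity
  have h5 := le_hasSum h1 (a * b) fun k _ => hnn k
  have h6 : c⁻¹ * (a * b) = b * a := by rw [hc]; group
  rw [h6, hterm a ha b hb, re_conj_mul_self] at h5
  intro h7
  rw [h7, Complex.zero_re] at h5
  have h8 : 0 < ‖coef x a * coef y b‖ ^ 2 := by
    have := norm_pos_iff.2 (mul_ne_zero hxa hyb)
    positivity
  linarith

omit ha₀ ha₀' hb₀ hb₀' in
theorem exists_of_coef_comm {x y : LG Γ} (hx : SuppIn x A) (hy : SuppIn y B) {g : Γ}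
    (hg : coef (x * y * (star x * star y)) g ≠ 0) :
    ∃ a ∈ A, ∃ b ∈ B, ∃ c, (∀ x ∈ A, c * x = x * c) ∧ (∀ x ∈ B, c * x = x * c) ∧
      g = a * c * b := by
  by_contra hcon
  apply hg
  refine (hasSum_coef_comm x y g).unique ?_
  have h1 : (fun k => conj (coef (y * x) (g⁻¹ * k)) * coef (x * y) k) = fun _ => 0 := by
    funext k
    by_cases hk1 : coef (x * y) k = 0
    · rw [hk1, mul_zero]
    by_cases hk2 : coef (y * x) (g⁻¹ * k) = 0
    · rw [hk2, map_zero, zero_mul]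
    obtain ⟨a₁, ha₁, b₁, hb₁, rfl⟩ := exists_of_coef_mul hx hy hk1
    obtain ⟨b₂, hb₂, a₂, ha₂, h2⟩ := exists_of_coef_mul hy hx hk2
    refine absurd ⟨a₁ * a₂⁻¹, A.mul_mem ha₁ (A.inv_mem ha₂), b₁ * b₂⁻¹,
      B.mul_mem hb₁ (B.inv_mem hb₂), a₂ * b₁ * a₂⁻¹ * b₁⁻¹, ?_, ?_, ?_⟩ hcon
    · exact h.centA a₂ ha₂ b₁ hb₁
    · exact h.centB a₂ ha₂ b₁ hb₁
    · have h3 : g = a₁ * b₁ * (b₂ * a₂)⁻¹ := by rw [← h2]; group
      rw [h3]
      group
  rw [h1]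
  exact hasSum_zero

omit hb₀ hb₀' in
theorem coef_eq_zero_right {X : Λ → LG Γ} (hX : OGroup X) {s : Λ} {T : Set Λ} (hT : T.Infinite)
    (hTB : ∀ t ∈ T, SuppIn (X t) B) (hTs : ∀ t ∈ T, t * s = s * t) {a b c : Γ} (ha : a ∈ A)
    (hb : b ∈ B) (hcB : ∀ x ∈ B, c * x = x * c) (ha1 : a ≠ 1) :
    coef (X s) (a * c * b) = 0 := by
  refine hX.coef_eq_zero (B := B) ?_ hT hTB fun t ht => by rw [← hX.map_mul, hTs t ht, hX.map_mul]
  intro β hβ h1
  have h2 : a * c * b * β * (a * c * b)⁻¹ = a * β * a⁻¹ := by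
    have h3 : b * β = β * b := h.commB b hb β hβ
    have h4 := hcB β hβ
    calc a * c * b * β * (a * c * b)⁻¹ = a * c * (b * β) * b⁻¹ * c⁻¹ * a⁻¹ := by group
      _ = a * (c * β) * c⁻¹ * a⁻¹ := by rw [h3]; group
      _ = a * β * a⁻¹ := by rw [h4]; group
  rw [h2] at h1
  have h5 : a * β * a⁻¹ * β⁻¹ ∈ B := B.mul_mem h1 (B.inv_mem hβ)
  rcases h.nondeg a₀ ha₀ _ h5 (h.centA a ha β hβ a₀ ha₀).symm with h6 | h6
  · exact absurd h6 ha₀'
  · have h7 : a * β = β * a := by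
      rw [mul_inv_eq_one, mul_inv_eq_iff_eq_mul] at h6
      exact h6
    rcases h.nondeg a ha β hβ h7 with h8 | h8
    · exact absurd h8 ha1
    · exact h8

omit ha₀ ha₀' in
theorem coef_eq_zero_left {X : Λ → LG Γ} (hX : OGroup X) {s : Λ} {T : Set Λ} (hT : T.Infinite)
    (hTA : ∀ t ∈ T, SuppIn (X t) A) (hTs : ∀ t ∈ T, t * s = s * t) {a b c : Γ} (ha : a ∈ A)
    (hb : b ∈ B) (hcA : ∀ x ∈ A, c * x = x * c) (hcB : ∀ x ∈ B, c * x = x * c) (hb1 : b ≠ 1) :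
    coef (X s) (a * c * b) = 0 := by
  refine hX.coef_eq_zero (B := A) ?_ hT hTA fun t ht => by rw [← hX.map_mul, hTs t ht, hX.map_mul]
  intro α hα h1
  have hκ : ∀ x ∈ A, b * α * b⁻¹ * α⁻¹ * x = x * (b * α * b⁻¹ * α⁻¹) := h.symm.centB b hb α hα
  have hcκ : c * (b * α * b⁻¹ * α⁻¹) = b * α * b⁻¹ * α⁻¹ * c := by
    have h3 := hcB b hb
    have h4 := hcA α hα
    have h5 := hcB b⁻¹ (B.inv_mem hb)
    have h6 := hcA α⁻¹ (A.inv_mem hα)
    calc c * (b * α * b⁻¹ * α⁻¹) = (c * b) * α * b⁻¹ * α⁻¹ := by group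
      _ = b * (c * α) * b⁻¹ * α⁻¹ := by rw [h3]; group
      _ = b * α * (c * b⁻¹) * α⁻¹ := by rw [h4]; group
      _ = b * α * b⁻¹ * (c * α⁻¹) := by rw [h5]; group
      _ = b * α * b⁻¹ * α⁻¹ * c := by rw [h6]; group
  have h2 : a * c * b * α * (a * c * b)⁻¹ = b * α * b⁻¹ := by
    have h7 : a * (b * α * b⁻¹ * α⁻¹) = b * α * b⁻¹ * α⁻¹ * a := (hκ a ha).symm
    have h8 := hcA α hα
    have h9 := h.commA a ha α hα
    calc a * c * b * α * (a * c * b)⁻¹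
        = a * (c * (b * α * b⁻¹ * α⁻¹)) * α * c⁻¹ * a⁻¹ := by group
      _ = a * (b * α * b⁻¹ * α⁻¹) * (c * α) * c⁻¹ * a⁻¹ := by rw [hcκ]; group
      _ = a * (b * α * b⁻¹ * α⁻¹) * α * a⁻¹ := by rw [h8]; group
      _ = b * α * b⁻¹ * α⁻¹ * (a * α) * a⁻¹ := by rw [h7]; group
      _ = b * α * b⁻¹ := by rw [h9]; group
  rw [h2] at h1
  have h5 : b * α * b⁻¹ * α⁻¹ ∈ A := A.mul_mem h1 (A.inv_mem hα)
  rcases h.nondeg _ h5 b₀ hb₀ (h.symm.centA b hb α hα b₀ hb₀) with h6 | h6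
  · have h7 : b * α = α * b := by
      rw [mul_inv_eq_one, mul_inv_eq_iff_eq_mul] at h6
      exact h6
    rcases h.nondeg α hα b hb h7.symm with h8 | h8
    · exact h8
    · exact absurd h8 hb1
  · exact absurd h6 hb₀'

/-- The coefficients of `z = x y x^* y^*` at the commutators of the supports are one. -/
theorem coef_comm_eq_one {x y z : LG Γ} (hx : SuppIn x A) (hy : SuppIn y B)
    (hz : ∀ g, coef z g ≠ 0 → (∀ x ∈ A, g * x = x * g) ∧ ∀ x ∈ B, g * x = x * g)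
    (hzxy : z * (y * x) = x * y) {a b : Γ} (ha : a ∈ A) (hb : b ∈ B) (hxa : coef x a ≠ 0)
    (hyb : coef y b ≠ 0) : coef z (a * b * a⁻¹ * b⁻¹) = 1 := by
  classical
  have h1 : HasSum (fun k => coef z (a * b * k⁻¹) * coef (y * x) k)
      (coef z (a * b * (b * a)⁻¹) * coef (y * x) (b * a)) := by
    have h2 : (fun k => coef z (a * b * k⁻¹) * coef (y * x) k) =
        fun k => if k = b * a then coef z (a * b * (b * a)⁻¹) * coef (y * x) (b * a) else 0 := by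
      funext k
      by_cases hk : k = b * a
      · rw [if_pos hk, hk]
      rw [if_neg hk]
      by_cases hk1 : coef z (a * b * k⁻¹) = 0
      · rw [hk1, zero_mul]
      by_cases hk2 : coef (y * x) k = 0
      · rw [hk2, mul_zero]
      exfalso
      obtain ⟨b₂, hb₂, a₂, ha₂, rfl⟩ := exists_of_coef_mul hy hx hk2
      obtain ⟨h3, h4⟩ := hz _ hk1
      have h5 := h.unique' ha₀ ha₀' hb₀ hb₀' ha ha₂ hb hb₂ h3 h4 (by group)
      exact hk (by rw [h5.1, h5.2])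
    rw [h2]
    exact hasSum_ite_eq _ _
  have h2 := hasSum_coef_mul z (y * x) (a * b)
  rw [hzxy, h.coef_mul_ab ha₀ ha₀' hb₀ hb₀' hx hy ha hb] at h2
  have h3 := h2.unique h1
  rw [h.symm.coef_mul_ab hb₀ hb₀' ha₀ ha₀' hy hx hb ha, mul_comm (coef y b)] at h3
  have h4 : a * b * (b * a)⁻¹ = a * b * a⁻¹ * b⁻¹ := by group
  rw [h4] at h3
  exact (mul_eq_right₀ (mul_ne_zero hxa hyb)).1 h3.symm

end HeisPair

theorem OGroup.exists_coef_ne_zero {X : Λ → LG Γ} (hX : OGroup X) (s : Λ) :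
    ∃ g, coef (X s) g ≠ 0 := by
  by_contra hcon
  push Not at hcon
  exact hX.ne_zero s (eq_zero_of_coef hcon)

theorem OGroup.exists_coef_ne_zero' {X : Λ → LG Γ} (hX : OGroup X) {s : Λ} (hs : s ≠ 1) :
    ∃ g, g ≠ 1 ∧ coef (X s) g ≠ 0 := by
  obtain ⟨g, hg⟩ := hX.exists_coef_ne_zero s
  refine ⟨g, ?_, hg⟩
  rintro rfl
  rw [coef_one, hX.tau_eq s hs] at hg
  exact hg rfl

/-- **Heisenberg pairs.** -/
theorem OGroup.eq_smul_u {X : Λ → LG Γ} (hX : OGroup X) {A B : Subgroup Γ} (h : HeisPair A B)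
    (hA : (hX.supp A : Set Λ).Infinite) (hB : (hX.supp B : Set Λ).Infinite) {s : Λ}
    (hs : s ∈ hX.supp A) : ∃ a ∈ A, ∃ ζ : ℂ, X s = ζ • u a := by
  obtain ⟨s₀, hs₀, hs₀1⟩ := (Set.Infinite.nontrivial hA).exists_ne 1
  obtain ⟨t₀, ht₀, ht₀1⟩ := (Set.Infinite.nontrivial hB).exists_ne 1
  obtain ⟨a₀, ha₀', ha₀c⟩ := hX.exists_coef_ne_zero' hs₀1
  obtain ⟨b₀, hb₀', hb₀c⟩ := hX.exists_coef_ne_zero' ht₀1
  have ha₀ : a₀ ∈ A := SuppIn.mem hs₀ ha₀c
  have hb₀ : b₀ ∈ B := SuppIn.mem ht₀ hb₀c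
  obtain ⟨a, hac⟩ := hX.exists_coef_ne_zero s
  have ha : a ∈ A := SuppIn.mem hs hac
  -- the commutator
  set r : Λ := s * t₀ * (s⁻¹ * t₀⁻¹) with hr
  have hz : X r = X s * X t₀ * (star (X s) * star (X t₀)) := by
    rw [hr, hX.map_star, hX.map_star, hX.map_mul, hX.map_mul, hX.map_mul]
  have hzc : coef (X r) (a * b₀ * a⁻¹ * b₀⁻¹) ≠ 0 := by
    rw [hz]
    exact h.coef_comm_ne_zero ha₀ ha₀' hb₀ hb₀' hs ht₀ ha hb₀ hac hb₀c
  have hTA := hX.infinite_commute_of_coef hA (h.centA a ha b₀ hb₀) hzc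
  have hTB := hX.infinite_commute_of_coef hB (h.centB a ha b₀ hb₀) hzc
  have hsupp : ∀ g, coef (X r) g ≠ 0 → (∀ x ∈ A, g * x = x * g) ∧ ∀ x ∈ B, g * x = x * g := by
    intro g hg
    have hg' := hg
    rw [hz] at hg'
    obtain ⟨a₁, ha₁, b₁, hb₁, c, hcA, hcB, rfl⟩ := h.exists_of_coef_comm hs ht₀ hg'
    have h1 : a₁ = 1 := by
      by_contra h1
      exact hg (h.coef_eq_zero_right ha₀ ha₀' hX hTB (fun t ht => ht.1)
        (fun t ht => ht.2) ha₁ hb₁ hcB h1)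
    have h2 : b₁ = 1 := by
      by_contra h2
      exact hg (h.coef_eq_zero_left hb₀ hb₀' hX hTA (fun t ht => ht.1)
        (fun t ht => ht.2) ha₁ hb₁ hcA hcB h2)
    rw [h1, h2, one_mul, mul_one]
    exact ⟨hcA, hcB⟩
  have hzxy : X r * (X t₀ * X s) = X s * X t₀ := by
    rw [← hX.map_mul, ← hX.map_mul, ← hX.map_mul, hr]
    congr 1
    group
  have hone := fun a₁ (ha₁ : a₁ ∈ A) (h1 : coef (X s) a₁ ≠ 0) =>
    h.coef_comm_eq_one ha₀ ha₀' hb₀ hb₀' hs ht₀ hsupp hzxy ha₁ hb₀ h1 hb₀c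
  refine ⟨a, ha, coef (X s) a, ext_coef fun g => ?_⟩
  rw [coef_smul]
  by_cases hg : g = a
  · rw [hg, coef_u_self, mul_one]
  rw [coef_u_ne hg, mul_zero]
  by_contra hgc
  have hgA : g ∈ A := SuppIn.mem hs hgc
  have h1 := eq_of_coef_eq_one (hX.star_mul_self r) (hone g hgA hgc) (hone a ha hac)
  have h2 : a⁻¹ * g * b₀ = b₀ * (a⁻¹ * g) := by
    have h3 : g * b₀ * g⁻¹ = a * b₀ * a⁻¹ := mul_right_cancel h1
    calc a⁻¹ * g * b₀ = a⁻¹ * (g * b₀ * g⁻¹) * g := by group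
      _ = b₀ * (a⁻¹ * g) := by rw [h3]; group
  rcases h.nondeg _ (A.mul_mem (A.inv_mem ha) hgA) b₀ hb₀ h2 with h3 | h3
  · exact hg (inv_mul_eq_one.1 h3).symm
  · exact hb₀' h3

end

end Vale.Agent.P092
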