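import Vale.Agent.P092.H414.RootB

/-!
# The commensuration principle, and canonical isomorphisms from canonical elements
-/

namespace Vale.Agent.P092

open scoped InnerProductSpace ENNReal ComplexConjugate
open ContinuousLinearMap

noncomputable section

theorem exists_infinite_fiber {α β : Type} {S : Set α} (hS : S.Infinite) (f : α → β)
    (hf : (f '' S).Finite) : ∃ a₀ ∈ S, {a | a ∈ S ∧ f a = f a₀}.Infinite := by
  by_contra hcon
  push Not at hcon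
  apply hS
  have h1 : S ⊆ ⋃ t ∈ f '' S, {a | a ∈ S ∧ f a = t} := by
    intro a ha
    rw [Set.mem_iUnion₂]
    exact ⟨_, ⟨a, ha, rfl⟩, ha, rfl⟩
  refine (Set.Finite.biUnion hf ?_).subset h1
  rintro _ ⟨a₀, ha₀, rfl⟩
  exact hcon a₀ ha₀

variable {Γ Λ : Type} [Group Γ] [Group Λ]

theorem norm_hat_u (g : Γ) : ‖hat (u g)‖ = 1 := by
  have h := (deltaBasis Γ).orthonormal.1 g
  rw [deltaBasis_apply] at h
  rw [hat_u, h]

omit [Group Γ] in
theorem orthonormal_delta {ι : Type} {f : ι → Γ} (hf : Function.Injective f) :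
    Orthonormal ℂ fun i => (delta (f i) : ell2 Γ) := by
  have h := (deltaBasis Γ).orthonormal.comp f hf
  have h2 : (deltaBasis Γ : Γ → ell2 Γ) ∘ f = fun i => delta (f i) :=
    funext fun i => deltaBasis_apply (f i)
  rwa [h2] at h

namespace OGroup

variable {X : Λ → LG Γ} (hX : OGroup X)

include hX

theorem norm_eq_one {g : Γ} {s : Λ} {ζ : ℂ} (h : u g = ζ • X s) : ‖ζ‖ = 1 := by
  have h1 := norm_hat_u g
  rw [h] at h1
  have h2 : hat (ζ • X s) = ζ • hat (X s) := rfl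
  rw [h2, norm_smul, show ‖hat (X s)‖ = 1 from hX.orthonormal.1 s, mul_one] at h1
  exact h1

theorem tau_star_mul_of_ne {s t : Λ} (h : s ≠ t) : tau (star (X s) * X t) = 0 := by
  rw [hX.map_star, ← hX.map_mul, hX.tau_eq]
  intro h2
  exact h (inv_mul_eq_one.1 h2)

theorem tau_star_mul_self (s : Λ) : tau (star (X s) * X s) = 1 := by
  rw [hX.star_mul_self, tau_one]

/-- The elements of `Γ` which are scalar multiples of elements of the group. -/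
def gl : Subgroup Γ where
  carrier := {g | ∃ (s : Λ) (ζ : ℂ), u g = ζ • X s}
  mul_mem' := by
    rintro g h ⟨s, ζ, hs⟩ ⟨t, ξ, ht⟩
    refine ⟨s * t, ζ * ξ, ?_⟩
    rw [u_mul, hs, ht, hX.map_mul, smul_mul_smul_comm]
  one_mem' := ⟨1, 1, by rw [u_one, hX.map_one, one_smul]⟩
  inv_mem' := by
    rintro g ⟨s, ζ, hs⟩
    refine ⟨s⁻¹, conj ζ, ?_⟩
    rw [← star_u, hs, star_smul, hX.map_star]
    rfl

theorem mem_gl {g : Γ} : g ∈ hX.gl ↔ ∃ (s : Λ) (ζ : ℂ), u g = ζ • X s := Iff.rfl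

theorem mem_gl_of_eq {g : Γ} {s : Λ} {ζ : ℂ} (h : X s = ζ • u g) : g ∈ hX.gl := by
  have hζ : ζ ≠ 0 := by
    rintro rfl
    rw [zero_smul] at h
    exact hX.ne_zero s h
  refine ⟨s, ζ⁻¹, ?_⟩
  rw [h, smul_smul, inv_mul_cancel₀ hζ, one_smul]

/-- Twisted invariance of the coefficients of `u g₀`. -/
theorem norm_tau_conj {g₀ q : Γ} {s s' : Λ} {ζ ζ' : ℂ} (hq : u q = ζ • X s)
    (hq' : u (g₀ * q * g₀⁻¹) = ζ' • X s') (t : Λ) :
    ‖tau (star (X (s' * t * s⁻¹)) * u g₀)‖ = ‖tau (star (X t) * u g₀)‖ := by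
  have hζ := hX.norm_eq_one hq
  have hζ' := hX.norm_eq_one hq'
  have hζ0 : ζ ≠ 0 := by
    rintro rfl
    simp at hζ
  have h1 : ζ • (u g₀ * X s) = ζ' • (X s' * u g₀) := by
    rw [← mul_smul_comm, ← hq, ← smul_mul_assoc, ← hq', ← u_mul, ← u_mul]
    congr 1
    group
  have h2 : X s'⁻¹ * (u g₀ * X s) = (ζ⁻¹ * ζ') • u g₀ := by
    have h3 : u g₀ * X s = (ζ⁻¹ * ζ') • (X s' * u g₀) := by
      rw [← smul_smul, ← h1, smul_smul, inv_mul_cancel₀ hζ0, one_smul]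
    rw [h3, mul_smul_comm, ← mul_assoc, hX.inv_mul, one_mul]
  have h3 : tau (star (X (s' * t * s⁻¹)) * u g₀) = ζ⁻¹ * ζ' * tau (star (X t) * u g₀) := by
    have h4 : star (X (s' * t * s⁻¹)) = X s * (X t⁻¹ * X s'⁻¹) := by
      rw [hX.map_star, ← hX.map_mul, ← hX.map_mul]
      congr 1
      group
    rw [h4, mul_assoc, tau_mul_comm, mul_assoc, mul_assoc, mul_assoc, h2, mul_smul_comm, tau_smul,
      hX.map_star, mul_assoc]
  rw [h3, norm_mul, norm_mul, norm_inv, hζ, hζ', inv_one, one_mul, one_mul]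

theorem finite_tau (x : LG Γ) {κ : ℝ} (hκ : κ ≠ 0) :
    {t | ‖tau (star (X t) * x)‖ = κ}.Finite := by
  have h := finite_of_orthonormal hX.orthonormal (hat x) hκ
  refine h.subset fun t ht => ?_
  change ‖⟪hat (X t), hat x⟫_ℂ‖ = κ
  rw [inner_hat]
  exact ht

/-- An element `g₀` with exactly one coefficient is in `gl`. -/
theorem mem_gl_of_unique (hfull : ∀ x : LG Γ, (∀ s, tau (star (X s) * x) = 0) → x = 0) {g₀ : Γ}
    (huniq : ∀ s₁ s₂ : Λ, tau (star (X s₁) * u g₀) ≠ 0 → tau (star (X s₂) * u g₀) ≠ 0 →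
      s₁ = s₂) : g₀ ∈ hX.gl := by
  have hex : ∃ s, tau (star (X s) * u g₀) ≠ 0 := by
    by_contra hcon
    push Not at hcon
    have h1 := hfull _ hcon
    have h2 := norm_hat_u g₀
    rw [h1] at h2
    have h3 : hat (0 : LG Γ) = 0 := rfl
    rw [h3, norm_zero] at h2
    exact zero_ne_one h2
  obtain ⟨s, hs⟩ := hex
  refine ⟨s, tau (star (X s) * u g₀), ?_⟩
  rw [← sub_eq_zero]
  refine hfull _ fun t => ?_
  rw [mul_sub, mul_smul_comm, sub_eq_add_neg, ← neg_smul, ← coef_one, coef_add, coef_smul, coef_one,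
    coef_one]
  by_cases hts : t = s
  · rw [hts, hX.tau_star_mul_self]
    ring
  · rw [hX.tau_star_mul_of_ne hts, mul_zero, add_zero]
    by_contra h
    exact hts (huniq t s h hs)

/-- For two coefficients of `u g₀`, the group `Q` splits into finitely many classes, modulo the
centralizer of the difference. -/
theorem exists_finite_classes {g₀ : Γ} {Q : Subgroup Γ} (hQG : Q ≤ hX.gl)
    (hconj : ∀ q ∈ Q, g₀ * q * g₀⁻¹ ∈ hX.gl) {s₁ s₂ : Λ} (h₁ : tau (star (X s₁) * u g₀) ≠ 0)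
    (h₂ : tau (star (X s₂) * u g₀) ≠ 0) :
    ∃ f : Γ → Λ × Λ, (f '' (Q : Set Γ)).Finite ∧ ∀ q₀ ∈ Q, ∀ q ∈ Q, f q = f q₀ →
      u (q₀⁻¹ * q) * X (s₁⁻¹ * s₂) = X (s₁⁻¹ * s₂) * u (q₀⁻¹ * q) := by
  set r := s₁⁻¹ * s₂ with hr
  have hex : ∀ q : Γ, ∃ s s' : Λ, q ∈ Q → (∃ ζ : ℂ, u q = ζ • X s) ∧
      ∀ t, ‖tau (star (X (s' * t * s⁻¹)) * u g₀)‖ = ‖tau (star (X t) * u g₀)‖ := by
    intro q
    by_cases hq : q ∈ Q
    · obtain ⟨s, ζ, hs⟩ := hQG hq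
      obtain ⟨s', ζ', hs'⟩ := hconj q hq
      exact ⟨s, s', fun _ => ⟨⟨ζ, hs⟩, hX.norm_tau_conj hs hs'⟩⟩
    · exact ⟨1, 1, fun h => absurd h hq⟩
  choose δ δ' hδ using hex
  refine ⟨fun q => (δ' q * s₁ * (δ q)⁻¹, δ' q * s₂ * (δ q)⁻¹), ?_, ?_⟩
  · refine ((hX.finite_tau (u g₀) (norm_ne_zero_iff.2 h₁)).prod
      (hX.finite_tau (u g₀) (norm_ne_zero_iff.2 h₂))).subset ?_
    rintro _ ⟨q, hq, rfl⟩
    exact ⟨(hδ q hq).2 s₁, (hδ q hq).2 s₂⟩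
  · intro q₀ hq₀ q hq hfq
    obtain ⟨⟨ζ, hζ⟩, -⟩ := hδ q hq
    obtain ⟨⟨ζ₀, hζ₀⟩, -⟩ := hδ q₀ hq₀
    have h3 : δ' q * s₁ * (δ q)⁻¹ = δ' q₀ * s₁ * (δ q₀)⁻¹ := congrArg Prod.fst hfq
    have h4 : δ' q * s₂ * (δ q)⁻¹ = δ' q₀ * s₂ * (δ q₀)⁻¹ := congrArg Prod.snd hfq
    have h5 : δ q * r * (δ q)⁻¹ = δ q₀ * r * (δ q₀)⁻¹ := by
      calc δ q * r * (δ q)⁻¹ = (δ' q * s₁ * (δ q)⁻¹)⁻¹ * (δ' q * s₂ * (δ q)⁻¹) := by
            rw [hr]; group
        _ = δ q₀ * r * (δ q₀)⁻¹ := by rw [h3, h4, hr]; group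
    have h6 : (δ q₀)⁻¹ * δ q * r = r * ((δ q₀)⁻¹ * δ q) := by
      calc (δ q₀)⁻¹ * δ q * r = (δ q₀)⁻¹ * (δ q * r * (δ q)⁻¹) * δ q := by group
        _ = r * ((δ q₀)⁻¹ * δ q) := by rw [h5]; group
    have h7 : u (q₀⁻¹ * q) = (conj ζ₀ * ζ) • X ((δ q₀)⁻¹ * δ q) := by
      rw [u_mul, ← star_u, hζ₀, hζ, star_smul, hX.map_star, hX.map_mul, smul_mul_smul_comm]
      rfl
    rw [h7, smul_mul_assoc, mul_smul_comm, ← hX.map_mul, ← hX.map_mul, h6]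

omit hX [Group Λ] in
theorem coef_conj {x : LG Γ} {q : Γ} (hq : u q * x = x * u q) (g : Γ) :
    coef x (q * g * q⁻¹) = coef x g := by
  have h1 : coef (u q * x) (q * g) = coef (x * u q) (q * g) := by rw [hq]
  rw [coef_u_mul, coef_mul_u, inv_mul_cancel_left] at h1
  exact h1.symm

/-- **The commensuration principle**, for a family of subgroups. -/
theorem mem_gl_of_conj (hfull : ∀ x : LG Γ, (∀ s, tau (star (X s) * x) = 0) → x = 0) {g₀ : Γ}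
    {K : Type} (Q : K → Subgroup Γ) (hQ : ∀ κ, (Q κ : Set Γ).Infinite) (hQG : ∀ κ, Q κ ≤ hX.gl)
    (hconj : ∀ κ, ∀ q ∈ Q κ, g₀ * q * g₀⁻¹ ∈ hX.gl)
    (hicc : ∀ g : Γ, g ≠ 1 → ∃ κ, ∀ q ∈ Q κ, q * g = g * q → q = 1) : g₀ ∈ hX.gl := by
  refine hX.mem_gl_of_unique hfull fun s₁ s₂ h₁ h₂ => ?_
  by_contra hne
  obtain ⟨g, hg1, hg⟩ := hX.exists_coef_ne_zero' (s := s₁⁻¹ * s₂)
    fun h => hne (inv_mul_eq_one.1 h)
  obtain ⟨κ, hκ⟩ := hicc g hg1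
  obtain ⟨f, hf, hcomm⟩ := hX.exists_finite_classes (hQG κ) (hconj κ) h₁ h₂
  obtain ⟨q₀, hq₀, hinf⟩ := exists_infinite_fiber (hQ κ) f hf
  refine hg (eq_zero_of_orthonormal hinf (v := fun q => delta (q₀⁻¹ * q * g * (q₀⁻¹ * q)⁻¹)) ?_
    (hat (X (s₁⁻¹ * s₂))) _ ?_)
  · refine orthonormal_delta (f := fun q : {q | q ∈ (Q κ : Set Γ) ∧ f q = f q₀} =>
      q₀⁻¹ * (q : Γ) * g * (q₀⁻¹ * (q : Γ))⁻¹) ?_
    rintro ⟨q, hq, hq1⟩ ⟨q', hq', hq1'⟩ h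
    change q₀⁻¹ * q * g * (q₀⁻¹ * q)⁻¹ = q₀⁻¹ * q' * g * (q₀⁻¹ * q')⁻¹ at h
    have h1 : q'⁻¹ * q * g = g * (q'⁻¹ * q) := by
      calc q'⁻¹ * q * g = q'⁻¹ * q₀ * (q₀⁻¹ * q * g * (q₀⁻¹ * q)⁻¹) * (q₀⁻¹ * q) := by group
        _ = g * (q'⁻¹ * q) := by rw [h]; group
    have h2 := hκ _ ((Q κ).mul_mem ((Q κ).inv_mem hq') hq) h1
    exact Subtype.ext (inv_mul_eq_one.1 h2).symm
  · rintro q ⟨hq, hfq⟩
    rw [inner_delta]
    exact coef_conj (hcomm q₀ hq₀ q hq hfq) g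

/-- **The commensuration principle.** -/
theorem mem_gl_of_conj' (hfull : ∀ x : LG Γ, (∀ s, tau (star (X s) * x) = 0) → x = 0) {g₀ : Γ}
    (Q : Subgroup Γ) (hQG : Q ≤ hX.gl) (hconj : ∀ q ∈ Q, g₀ * q * g₀⁻¹ ∈ hX.gl)
    (hicc : ∀ g : Γ, g ≠ 1 → {x | ∃ q ∈ Q, x = q * g * q⁻¹}.Infinite) : g₀ ∈ hX.gl := by
  refine hX.mem_gl_of_unique hfull fun s₁ s₂ h₁ h₂ => ?_
  by_contra hne
  obtain ⟨g, hg1, hg⟩ := hX.exists_coef_ne_zero' (s := s₁⁻¹ * s₂)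
    fun h => hne (inv_mul_eq_one.1 h)
  obtain ⟨f, hf, hcomm⟩ := hX.exists_finite_classes hQG hconj h₁ h₂
  apply hicc g hg1
  have hfin : {x | ‖coef (X (s₁⁻¹ * s₂)) x‖ = ‖coef (X (s₁⁻¹ * s₂)) g‖}.Finite := by
    refine (finite_of_orthonormal (orthonormal_delta (f := fun x : Γ => x)
      Function.injective_id) (hat (X (s₁⁻¹ * s₂))) (norm_ne_zero_iff.2 hg)).subset fun x hx => ?_
    change ‖⟪delta x, hat (X (s₁⁻¹ * s₂))⟫_ℂ‖ = _
    rw [inner_delta]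
    exact hx
  have hrep : ∀ v : Λ × Λ, ∃ q₀ : Γ, v ∈ f '' (Q : Set Γ) → q₀ ∈ Q ∧ f q₀ = v := by
    intro v
    by_cases hv : v ∈ f '' (Q : Set Γ)
    · obtain ⟨q₀, h1, h2⟩ := hv
      exact ⟨q₀, fun _ => ⟨h1, h2⟩⟩
    · exact ⟨1, fun h => absurd h hv⟩
  choose rep hrep using hrep
  refine (Set.Finite.biUnion hf fun v _ => hfin.image fun x => rep v * x * (rep v)⁻¹).subset ?_
  rintro _ ⟨q, hq, rfl⟩
  rw [Set.mem_iUnion₂]
  have hv : f q ∈ f '' (Q : Set Γ) := ⟨q, hq, rfl⟩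
  obtain ⟨h1, h2⟩ := hrep _ hv
  refine ⟨f q, hv, (rep (f q))⁻¹ * q * g * ((rep (f q))⁻¹ * q)⁻¹, ?_, by group⟩
  change ‖coef (X (s₁⁻¹ * s₂)) _‖ = _
  rw [coef_conj (hcomm _ h1 q hq h2.symm) g]

theorem unique_gl {g : Γ} {s t : Λ} {ζ ξ : ℂ} (hs : u g = ζ • X s) (ht : u g = ξ • X t) :
    s = t ∧ ζ = ξ := by
  have h1 : s = t := by
    by_contra h
    have h2 : tau (star (X s) * u g) = ζ := by
      rw [hs, mul_smul_comm, tau_smul, hX.tau_star_mul_self, mul_one]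
    have h3 : tau (star (X s) * u g) = 0 := by
      rw [ht, mul_smul_comm, tau_smul, hX.tau_star_mul_of_ne h, mul_zero]
    have h4 := hX.norm_eq_one hs
    rw [← h2, h3, norm_zero] at h4
    exact zero_ne_one h4
  refine ⟨h1, ?_⟩
  have h2 : tau (star (X s) * u g) = ζ := by
    rw [hs, mul_smul_comm, tau_smul, hX.tau_star_mul_self, mul_one]
  rw [ht, ← h1, mul_smul_comm, tau_smul, hX.tau_star_mul_self, mul_one] at h2
  exact h2.symm

/-- If every element of `Γ` is a multiple of an element of the group, then `Γ` and the group are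
isomorphic. -/
theorem exists_iso (hgl : hX.gl = ⊤) :
    ∃ (δ : Γ ≃* Λ) (χ : Γ →* Circle), ∀ g, u g = (χ g : ℂ) • X (δ g) := by
  have hex : ∀ g : Γ, ∃ (s : Λ) (ζ : ℂ), u g = ζ • X s := fun g => by
    have h : g ∈ hX.gl := by rw [hgl]; trivial
    exact h
  choose δ χ hδ using hex
  have hmul : ∀ g h, δ (g * h) = δ g * δ h ∧ χ (g * h) = χ g * χ h := by
    intro g h
    refine hX.unique_gl (hδ (g * h)) ?_
    rw [u_mul, hδ g, hδ h, hX.map_mul, smul_mul_smul_comm]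
  have hinj : Function.Injective δ := by
    intro g h hgh
    have h1 := hδ h
    rw [← hgh] at h1
    by_contra hne
    have h2 : coef (u g) h = 0 := coef_u_ne (Ne.symm hne)
    have h3 : coef (u h) h = 1 := coef_u_self h
    rw [hδ g, coef_smul] at h2
    rw [h1, coef_smul] at h3
    have h4 : coef (X (δ g)) h ≠ 0 := by
      intro h5
      rw [h5, mul_zero] at h3
      exact zero_ne_one h3
    have h5 : χ g ≠ 0 := by
      intro h5
      have h6 := hX.norm_eq_one (hδ g)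
      rw [h5, norm_zero] at h6
      exact zero_ne_one h6
    exact mul_ne_zero h5 h4 h2
  have hsurj : Function.Surjective δ := by
    intro s
    obtain ⟨g, hg⟩ := hX.exists_coef_ne_zero s
    refine ⟨g, ?_⟩
    by_contra hne
    rw [coef_eq_tau, hδ g, star_smul, smul_mul_assoc, tau_smul, hX.tau_star_mul_of_ne hne,
      mul_zero] at hg
    exact hg rfl
  let δm : Γ →* Λ := MonoidHom.mk' δ fun g h => (hmul g h).1
  let χm : Γ →* Circle := MonoidHom.mk'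
    (fun g => ⟨χ g, mem_sphere_zero_iff_norm.2 (hX.norm_eq_one (hδ g))⟩)
    fun g h => Subtype.ext (hmul g h).2
  refine ⟨MulEquiv.ofBijective δm ⟨hinj, hsurj⟩, χm, fun g => hδ g⟩

end OGroup

end

end Vale.Agent.P092
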