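import Vale.Agent.P092.H414.RootMat

/-!
# Groups generated by elementary matrices over the fraction field of a domain
-/

namespace Vale.Agent.P092

open Matrix

section elem

variable {ι K : Type} [Fintype ι] [DecidableEq ι] [CommRing K] {H : Subgroup (GL ι K)}

theorem transvection_mul_neg {i j : ι} (hij : i ≠ j) (c : K) :
    transvection i j c * transvection i j (-c) = 1 := by
  rw [transvection_mul_transvection_same _ _ hij, add_neg_cancel, transvection_zero]

theorem transvection_comm {i l j : ι} (hil : i ≠ l) (hlj : l ≠ j) (hij : i ≠ j) (a b : K) :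
    transvection i l a * transvection l j b * transvection i l (-a) * transvection l j (-b) =
      transvection i j (a * b) := by
  have h := comm_one_add (X := Matrix.single i l a) (Y := Matrix.single l j b)
    (single_mul_single_of_ne _ _ _ _ hil.symm _) (single_mul_single_of_ne _ _ _ _ hlj.symm _)
    (single_mul_single_of_ne _ _ _ _ hij.symm _)
  rw [single_mul_single_same] at h
  simpa only [transvection, single_neg, sub_eq_add_neg] using h

/-- The set of `c` such that the elementary matrix with entry `c` at `(i, j)` is in `H`. -/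
def elI (H : Subgroup (GL ι K)) {i j : ι} (hij : i ≠ j) : AddSubgroup K where
  carrier := {c | InM H (transvection i j c)}
  zero_mem' := by
    change InM H (transvection i j 0)
    rw [transvection_zero]
    exact InM.one
  add_mem' {a b} ha hb := by
    change InM H (transvection i j (a + b))
    rw [← transvection_mul_transvection_same _ _ hij]
    exact InM.mul ha hb
  neg_mem' {a} ha := InM.inv ha (transvection_mul_neg hij a)

theorem mem_elI {i j : ι} (hij : i ≠ j) {c : K} : c ∈ elI H hij ↔ InM H (transvection i j c) :=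
  Iff.rfl

theorem mul_mem_elI {i l j : ι} (hil : i ≠ l) (hlj : l ≠ j) (hij : i ≠ j) {a b : K}
    (ha : a ∈ elI H hil) (hb : b ∈ elI H hlj) : a * b ∈ elI H hij := by
  rw [mem_elI, ← transvection_comm hil hlj hij]
  exact ((InM.mul ha hb).mul ((elI H hil).neg_mem ha)).mul ((elI H hlj).neg_mem hb)

theorem conj_transvection (g : GL ι K) (k l : ι) (c : K) :
    (g : Matrix ι ι K) * transvection k l c * ((g⁻¹ : GL ι K) : Matrix ι ι K) =
      EE (fun i => (g : Matrix ι ι K) i k) (c • fun j => ((g⁻¹ : GL ι K) : Matrix ι ι K) l j) := by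
  have h1 : (g : Matrix ι ι K) * ((g⁻¹ : GL ι K) : Matrix ι ι K) = 1 := Units.mul_inv g
  have h2 : Matrix.single k l c = vecMulVec (Pi.single k (1 : K)) (Pi.single l c) := by
    rw [vecMulVec_single, one_mul]
  rw [transvection, mul_add, mul_one, add_mul, h1, EE, h2, mul_vecMulVec, vecMulVec_mul]
  congr 1
  congr 1
  · ext i
    simp [mulVec_single]
  · ext j
    simp [single_vecMul]

end elem

section frac

variable {ι R K : Type} [Fintype ι] [DecidableEq ι] [CommRing R] [IsDomain R] [Field K]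
  [Algebra R K] [IsFractionRing R K] {H : Subgroup (GL ι K)}

/-- The multiples of `κ ∈ R`, in `K`. -/
def mulI (K : Type) [Field K] [Algebra R K] (κ : R) : AddSubgroup K :=
  ((Algebra.linearMap R K).comp (LinearMap.mulLeft R κ)).toAddMonoidHom.range

omit [IsDomain R] [IsFractionRing R K] in
theorem mem_mulI {κ : R} {c : K} : c ∈ mulI K κ ↔ ∃ r : R, algebraMap R K (κ * r) = c := Iff.rfl

theorem exists_conj (h3 : ∀ i j : ι, ∃ m, i ≠ m ∧ j ≠ m) {κ : R} (hκ : κ ≠ 0)
    (hκH : ∀ i j : ι, i ≠ j → ∀ r : R, InM H (transvection i j (algebraMap R K (κ * r))))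
    (g : GL ι K) : ∃ t : R, t ≠ 0 ∧ κ ∣ t ∧ ∀ k l : ι, k ≠ l → ∀ r : R,
      InM H ((g : Matrix ι ι K) * transvection k l (algebraMap R K (t * r)) *
        ((g⁻¹ : GL ι K) : Matrix ι ι K)) := by
  obtain ⟨⟨d, hd⟩, hdi⟩ := IsLocalization.exist_integer_multiples_of_finite (nonZeroDivisors R)
    (fun p : (ι × ι) ⊕ (ι × ι) => Sum.elim (fun p => (g : Matrix ι ι K) p.1 p.2)
      (fun p => ((g⁻¹ : GL ι K) : Matrix ι ι K) p.1 p.2) p)
  have hd0 : d ≠ 0 := nonZeroDivisors.ne_zero hd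
  have hg : ∀ i j, ∃ a : R, algebraMap R K a = algebraMap R K d * (g : Matrix ι ι K) i j := by
    intro i j
    obtain ⟨a, ha⟩ := hdi (Sum.inl (i, j))
    exact ⟨a, by rw [ha, Algebra.smul_def]; rfl⟩
  have hg' : ∀ i j, ∃ a : R, algebraMap R K a =
      algebraMap R K d * ((g⁻¹ : GL ι K) : Matrix ι ι K) i j := by
    intro i j
    obtain ⟨a, ha⟩ := hdi (Sum.inr (i, j))
    exact ⟨a, by rw [ha, Algebra.smul_def]; rfl⟩
  choose G₁ hG₁ using hg
  choose G₂ hG₂ using hg'
  refine ⟨κ ^ 2 * d ^ 4, mul_ne_zero (pow_ne_zero _ hκ) (pow_ne_zero _ hd0),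
    ⟨κ * d ^ 4, by ring⟩, fun k l hkl r => ?_⟩
  rw [conj_transvection]
  have hinv : ((g⁻¹ : GL ι K) : Matrix ι ι K) * (g : Matrix ι ι K) = 1 := Units.inv_mul g
  refine inM_suslin (I := mulI K κ) ?_ h3 (u := fun i => (g : Matrix ι ι K) i k)
    (v := fun j => ((g⁻¹ : GL ι K) : Matrix ι ι K) l j)
    (w := fun j => ((g⁻¹ : GL ι K) : Matrix ι ι K) k j) ?_ ?_ _ ?_
  · rintro i j hij c ⟨r, rfl⟩
    exact hκH i j hij r
  · have h := congrFun (congrFun hinv l) k
    rw [Matrix.mul_apply, Matrix.one_apply_ne hkl.symm] at h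
    exact h
  · have h := congrFun (congrFun hinv k) k
    rw [Matrix.mul_apply, Matrix.one_apply_eq] at h
    exact h
  · intro i j
    refine ⟨algebraMap R K (κ * d), algebraMap R K (κ * d * r) *
      (algebraMap R K (G₂ l i) * algebraMap R K (G₂ k j)), ?_, ?_, ?_, ?_⟩
    · rw [hG₂, hG₂]
      simp only [map_mul, map_pow]
      ring
    · intro m
      refine mem_mulI.2 ⟨G₁ m k, ?_⟩
      rw [map_mul, map_mul, hG₁]
      ring
    · intro m
      refine mem_mulI.2 ⟨r * G₂ l i * G₂ k j * G₁ m k, ?_⟩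
      simp only [map_mul, hG₁]
      ring
    · intro m m'
      refine mem_mulI.2 ⟨κ * r * G₂ l i * G₂ k j * G₁ m k * G₁ m' k, ?_⟩
      simp only [map_mul, hG₁, hG₂, map_pow]
      ring

theorem exists_ideal_right {i l j : ι} (hil : i ≠ l) (hlj : l ≠ j) (hij : i ≠ j)
    (h1 : ∃ κ : R, κ ≠ 0 ∧ ∀ r : R, algebraMap R K (κ * r) ∈ elI H hil)
    (h2 : ∃ c : K, c ≠ 0 ∧ c ∈ elI H hlj) :
    ∃ κ : R, κ ≠ 0 ∧ ∀ r : R, algebraMap R K (κ * r) ∈ elI H hij := by
  obtain ⟨κ, hκ, h1⟩ := h1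
  obtain ⟨c, hc, h2⟩ := h2
  obtain ⟨a, b, hb, rfl⟩ := IsFractionRing.div_surjective (A := R) c
  have hb0 : algebraMap R K b ≠ 0 :=
    IsLocalization.to_map_ne_zero_of_mem_nonZeroDivisors _ le_rfl hb
  have ha : a ≠ 0 := by
    rintro rfl
    simp at hc
  refine ⟨κ * a, mul_ne_zero hκ ha, fun r => ?_⟩
  have h4 : algebraMap R K (κ * a * r) =
      algebraMap R K (κ * (b * r)) * (algebraMap R K a / algebraMap R K b) := by
    simp only [map_mul]
    field_simp
  rw [h4]
  exact mul_mem_elI hil hlj hij (h1 _) h2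

theorem exists_ideal_left {i l j : ι} (hil : i ≠ l) (hlj : l ≠ j) (hij : i ≠ j)
    (h1 : ∃ κ : R, κ ≠ 0 ∧ ∀ r : R, algebraMap R K (κ * r) ∈ elI H hlj)
    (h2 : ∃ c : K, c ≠ 0 ∧ c ∈ elI H hil) :
    ∃ κ : R, κ ≠ 0 ∧ ∀ r : R, algebraMap R K (κ * r) ∈ elI H hij := by
  obtain ⟨κ, hκ, h1⟩ := h1
  obtain ⟨c, hc, h2⟩ := h2
  obtain ⟨a, b, hb, rfl⟩ := IsFractionRing.div_surjective (A := R) c
  have hb0 : algebraMap R K b ≠ 0 :=
    IsLocalization.to_map_ne_zero_of_mem_nonZeroDivisors _ le_rfl hb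
  have ha : a ≠ 0 := by
    rintro rfl
    simp at hc
  refine ⟨κ * a, mul_ne_zero hκ ha, fun r => ?_⟩
  have h4 : algebraMap R K (κ * a * r) =
      (algebraMap R K a / algebraMap R K b) * algebraMap R K (κ * (b * r)) := by
    simp only [map_mul]
    field_simp
  rw [h4]
  exact mul_mem_elI hil hlj hij h2 (h1 _)

theorem mul_mem_elI_ne {i l j : ι} (hil : i ≠ l) (hlj : l ≠ j) (hij : i ≠ j)
    (h1 : ∃ c : K, c ≠ 0 ∧ c ∈ elI H hil) (h2 : ∃ c : K, c ≠ 0 ∧ c ∈ elI H hlj) :
    ∃ c : K, c ≠ 0 ∧ c ∈ elI H hij := by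
  obtain ⟨a, ha, h1⟩ := h1
  obtain ⟨b, hb, h2⟩ := h2
  exact ⟨a * b, mul_ne_zero ha hb, mul_mem_elI hil hlj hij h1 h2⟩

end frac

section cyc

variable {n : ℕ}

theorem exists_third (hn : 3 ≤ n) (i j : Fin n) : ∃ m, i ≠ m ∧ j ≠ m := by
  by_contra hcon
  push Not at hcon
  have h1 : (Finset.univ : Finset (Fin n)) ⊆ {i, j} := by
    intro m _
    rw [Finset.mem_insert, Finset.mem_singleton]
    by_cases h : i = m
    · exact Or.inl h.symm
    · exact Or.inr (hcon m h).symm
  have h2 := Finset.card_le_card h1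
  rw [Finset.card_univ, Fintype.card_fin] at h2
  have h3 := Finset.card_le_two (a := i) (b := j)
  omega

theorem succ_ne [NeZero n] (hn : 3 ≤ n) (i : Fin n) :
    i ≠ i + 1 ∧ i + 1 ≠ i + 1 + 1 ∧ i ≠ i + 1 + 1 := by
  have h1 : (1 : Fin n) ≠ 0 := by
    intro h
    have h2 := congrArg Fin.val h
    rw [Fin.val_one', Fin.val_zero, Nat.mod_eq_of_lt (by omega)] at h2
    omega
  have h2 : (1 : Fin n) + 1 ≠ 0 := by
    intro h
    have h2 := congrArg Fin.val h
    rw [Fin.val_add, Fin.val_one', Fin.val_zero, Nat.mod_eq_of_lt (show 1 < n by omega),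
      Nat.mod_eq_of_lt (by omega)] at h2
    omega
  refine ⟨fun h => h1 (left_eq_add.1 h), fun h => h1 (left_eq_add.1 h), fun h => h2 ?_⟩
  rw [add_assoc] at h
  exact left_eq_add.1 h

theorem cyc_induction [NeZero n] {N : Fin n → Fin n → Prop}
    (htrans : ∀ i l j, i ≠ l → l ≠ j → i ≠ j → N i l → N l j → N i j)
    (h1 : ∀ i, N i (i + 1)) (i j : Fin n) (hij : i ≠ j) : N i j := by
  have h2 : ∀ i l j, (i = l ∨ N i l) → (l = j ∨ N l j) → (i = j ∨ N i j) := by
    intro i l j h h'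
    by_cases hij : i = j
    · exact Or.inl hij
    by_cases hil : i = l
    · rw [hil]
      exact h'
    by_cases hlj : l = j
    · rw [← hlj]
      exact h
    exact Or.inr (htrans i l j hil hlj hij (h.resolve_left hil) (h'.resolve_left hlj))
  have hsucc : ∀ m : ℕ, Fin.ofNat n (m + 1) = Fin.ofNat n m + 1 := by
    intro m
    apply Fin.ext
    rw [Fin.val_add, Fin.val_ofNat, Fin.val_ofNat, Fin.val_one', ← Nat.add_mod]
  have h3 : ∀ m : ℕ, i = i + Fin.ofNat n m ∨ N i (i + Fin.ofNat n m) := by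
    intro m
    induction m with
    | zero =>
      left
      have h0 : Fin.ofNat n 0 = 0 := rfl
      rw [h0, add_zero]
    | succ m ih =>
      rw [hsucc, ← add_assoc]
      exact h2 _ _ _ ih (Or.inr (h1 _))
  have h4 := h3 (j - i).val
  have h5 : Fin.ofNat n (j - i).val = j - i := by
    apply Fin.ext
    rw [Fin.val_ofNat, Nat.mod_eq_of_lt (j - i).isLt]
  rw [h5, add_sub_cancel] at h4
  exact h4.resolve_left hij

end cyc

end Vale.Agent.P092
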