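import Vale.Agent.P092.H414.RootC
import Vale.Agent.P092.H414.RootGL

/-!
# Root subgroups in quotients of groups containing elementary matrices
-/

namespace Vale.Agent.P092

open scoped InnerProductSpace ENNReal ComplexConjugate
open Matrix

noncomputable section

section grp

variable {G : Type} [Group G]

theorem commute_commutator {M x y : G} (hx : M * x * M⁻¹ * x⁻¹ ∈ Subgroup.center G)
    (hy : M * y * M⁻¹ * y⁻¹ ∈ Subgroup.center G) :
    M * (x * y * x⁻¹ * y⁻¹) = x * y * x⁻¹ * y⁻¹ * M := by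
  set z := M * x * M⁻¹ * x⁻¹ with hz
  set z' := M * y * M⁻¹ * y⁻¹ with hz'
  rw [Subgroup.mem_center_iff] at hx hy
  have h1 : M * x * M⁻¹ = z * x := by rw [hz]; group
  have h2 : M * y * M⁻¹ = z' * y := by rw [hz']; group
  have h3 : M * x⁻¹ * M⁻¹ = x⁻¹ * z⁻¹ := by
    have : M * x⁻¹ * M⁻¹ = (M * x * M⁻¹)⁻¹ := by group
    rw [this, h1, _root_.mul_inv_rev]
  have h4 : M * y⁻¹ * M⁻¹ = y⁻¹ * z'⁻¹ := by
    have : M * y⁻¹ * M⁻¹ = (M * y * M⁻¹)⁻¹ := by group
    rw [this, h2, _root_.mul_inv_rev]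
  calc M * (x * y * x⁻¹ * y⁻¹)
      = (M * x * M⁻¹) * (M * y * M⁻¹) * (M * x⁻¹ * M⁻¹) * (M * y⁻¹ * M⁻¹) * M := by group
    _ = (z * x) * (z' * y) * (x⁻¹ * z⁻¹) * (y⁻¹ * z'⁻¹) * M := by rw [h1, h2, h3, h4]
    _ = x * (y * z') * z * (x⁻¹ * z⁻¹) * (y⁻¹ * z'⁻¹) * M := by
        rw [← hx x, ← hy y]
        have h5 : x * z * (y * z') = x * (y * z') * z := by
          rw [mul_assoc, ← hx (y * z'), ← mul_assoc]
        rw [h5]
    _ = x * y * x⁻¹ * y⁻¹ * M := by
        have h6 : z * (x⁻¹ * z⁻¹) = x⁻¹ := by rw [← mul_assoc, ← hx x⁻¹]; group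
        have h7 : x * (y * z') * z * (x⁻¹ * z⁻¹) * (y⁻¹ * z'⁻¹) =
            x * y * (z' * (x⁻¹ * y⁻¹)) * z'⁻¹ := by
          calc x * (y * z') * z * (x⁻¹ * z⁻¹) * (y⁻¹ * z'⁻¹)
              = x * (y * z') * (z * (x⁻¹ * z⁻¹)) * (y⁻¹ * z'⁻¹) := by group
            _ = x * y * (z' * (x⁻¹ * y⁻¹)) * z'⁻¹ := by rw [h6]; group
        rw [h7, ← hy (x⁻¹ * y⁻¹)]
        group

end grp

variable {ι K Γ : Type} [Fintype ι] [DecidableEq ι] [Field K] [Group Γ] {G : Subgroup (GL ι K)}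

theorem mat_inv_of_transvection {x : G} {i j : ι} (hij : i ≠ j) {c : K}
    (hx : ((x : GL ι K) : Matrix ι ι K) = transvection i j c) :
    (((x⁻¹ : G) : GL ι K) : Matrix ι ι K) = transvection i j (-c) := by
  have h1 : ((x : GL ι K) : Matrix ι ι K) * transvection i j (-c) = 1 := by
    rw [hx, transvection_mul_neg hij]
  exact Units.inv_eq_of_mul_eq_one_right h1

theorem glmat_injective {x y : G}
    (h : ((x : GL ι K) : Matrix ι ι K) = ((y : GL ι K) : Matrix ι ι K)) : x = y :=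
  Subtype.ext (Units.ext h)

theorem mat_comm {x y : G} {i l j : ι} (hil : i ≠ l) (hlj : l ≠ j) (hij : i ≠ j) {a b : K}
    (hx : ((x : GL ι K) : Matrix ι ι K) = transvection i l a)
    (hy : ((y : GL ι K) : Matrix ι ι K) = transvection l j b) :
    (((x * y * x⁻¹ * y⁻¹ : G) : GL ι K) : Matrix ι ι K) = transvection i j (a * b) := by
  have h1 := mat_inv_of_transvection hil hx
  have h2 := mat_inv_of_transvection hlj hy
  change ((x : GL ι K) : Matrix ι ι K) * ((y : GL ι K) : Matrix ι ι K) *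
    (((x⁻¹ : G) : GL ι K) : Matrix ι ι K) * (((y⁻¹ : G) : GL ι K) : Matrix ι ι K) = _
  rw [hx, hy, h1, h2, transvection_comm hil hlj hij]

theorem transvection_commute {i j l : ι} (hij : i ≠ j) (hil : i ≠ l) (a b : K) :
    transvection i j a * transvection i l b = transvection i l b * transvection i j a := by
  rw [transvection, transvection, add_mul, one_mul, mul_add, mul_one, add_mul, one_mul, mul_add,
    mul_one, single_mul_single_of_ne _ _ _ _ hij.symm, single_mul_single_of_ne _ _ _ _ hil.symm]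
  abel

theorem transvection_commute' {i j l : ι} (hij : i ≠ j) (hlj : l ≠ j) (a b : K) :
    transvection i j a * transvection l j b = transvection l j b * transvection i j a := by
  rw [transvection, transvection, add_mul, one_mul, mul_add, mul_one, add_mul, one_mul, mul_add,
    mul_one, single_mul_single_of_ne _ _ _ _ hlj.symm, single_mul_single_of_ne _ _ _ _ hij.symm]
  abel

/-- The image in `Γ` of the elementary matrices in `G` with entry in `I` at `(i, j)`. -/
def elSub (π : G →* Γ) {i j : ι} (hij : i ≠ j) (I : AddSubgroup K) : Subgroup Γ where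
  carrier := {g | ∃ (x : G) (c : K), c ∈ I ∧
    ((x : GL ι K) : Matrix ι ι K) = transvection i j c ∧ π x = g}
  mul_mem' := by
    rintro _ _ ⟨x, a, ha, hx, rfl⟩ ⟨y, b, hb, hy, rfl⟩
    refine ⟨x * y, a + b, I.add_mem ha hb, ?_, map_mul π x y⟩
    change ((x : GL ι K) : Matrix ι ι K) * ((y : GL ι K) : Matrix ι ι K) = _
    rw [hx, hy, transvection_mul_transvection_same _ _ hij]
  one_mem' := ⟨1, 0, I.zero_mem, by rw [transvection_zero]; rfl, map_one π⟩
  inv_mem' := by
    rintro _ ⟨x, a, ha, hx, rfl⟩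
    exact ⟨x⁻¹, -a, I.neg_mem ha, mat_inv_of_transvection hij hx, map_inv π x⟩

/-- The preimage in `GL` of a subgroup of `Γ`. -/
def pull (π : G →* Γ) (P : Subgroup Γ) : Subgroup (GL ι K) := (P.comap π).map G.subtype

theorem inM_pull {π : G →* Γ} {P : Subgroup Γ} {M : Matrix ι ι K} :
    InM (pull π P) M ↔ ∃ x : G, π x ∈ P ∧ ((x : GL ι K) : Matrix ι ι K) = M := by
  constructor
  · rintro ⟨_, ⟨x, hx, rfl⟩, hM⟩
    exact ⟨x, hx, hM⟩
  · rintro ⟨x, hx, hM⟩
    exact ⟨x, ⟨x, hx, rfl⟩, hM⟩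

variable {π : G →* Γ} (hker : π.ker ≤ Subgroup.center G)

include hker

theorem comm_mem_center {x y : G} (h : π x * π y = π y * π x) :
    x * y * x⁻¹ * y⁻¹ ∈ Subgroup.center G := by
  apply hker
  rw [MonoidHom.mem_ker]
  simp only [map_mul, map_inv, h]
  group

theorem eq_zero_of_map_eq_one {i j l : ι} (hij : i ≠ j) (hjl : j ≠ l) (hil : i ≠ l)
    (hG : ∃ c : K, c ≠ 0 ∧ InM G (transvection j l c)) {x : G} {c : K}
    (hx : ((x : GL ι K) : Matrix ι ι K) = transvection i j c) (hπ : π x = 1) : c = 0 := by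
  obtain ⟨d, hd, ⟨y, hy, hyd⟩⟩ := hG
  have h1 : x ∈ Subgroup.center G := hker hπ
  rw [Subgroup.mem_center_iff] at h1
  have h2 : (⟨y, hy⟩ : G) * x = x * ⟨y, hy⟩ := h1 _
  have h3 : x * ⟨y, hy⟩ * x⁻¹ * (⟨y, hy⟩ : G)⁻¹ = 1 := by
    rw [← h2]
    group
  have h4 := mat_comm hij hjl hil (x := x) (y := ⟨y, hy⟩) hx hyd
  rw [h3] at h4
  have h5 : (1 : Matrix ι ι K) = transvection i l (c * d) := h4
  have h6 := congrFun (congrFun h5 i) l
  rw [transvection, Matrix.add_apply, Matrix.one_apply_ne hil, single_apply_same, zero_add] at h6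
  exact (mul_eq_zero.1 h6.symm).resolve_right hd

theorem heisPair_root {i j l : ι} (hij : i ≠ j) (hjl : j ≠ l) (hil : i ≠ l)
    (hG : ∀ i j : ι, i ≠ j → ∃ c : K, c ≠ 0 ∧ InM G (transvection i j c)) :
    HeisPair (elSub π hij ⊤) (elSub π hjl ⊤) where
  commA := by
    rintro _ ⟨x, a, -, hx, rfl⟩ _ ⟨y, b, -, hy, rfl⟩
    rw [← map_mul, ← map_mul]
    congr 1
    apply glmat_injective
    change ((x : GL ι K) : Matrix ι ι K) * ((y : GL ι K) : Matrix ι ι K) =
      ((y : GL ι K) : Matrix ι ι K) * ((x : GL ι K) : Matrix ι ι K)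
    rw [hx, hy, transvection_commute hij hij]
  commB := by
    rintro _ ⟨x, a, -, hx, rfl⟩ _ ⟨y, b, -, hy, rfl⟩
    rw [← map_mul, ← map_mul]
    congr 1
    apply glmat_injective
    change ((x : GL ι K) : Matrix ι ι K) * ((y : GL ι K) : Matrix ι ι K) =
      ((y : GL ι K) : Matrix ι ι K) * ((x : GL ι K) : Matrix ι ι K)
    rw [hx, hy, transvection_commute hjl hjl]
  centA := by
    rintro _ ⟨x, a, -, hx, rfl⟩ _ ⟨y, b, -, hy, rfl⟩ _ ⟨z, c, -, hz, rfl⟩
    simp only [← map_mul, ← map_inv]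
    congr 1
    apply glmat_injective
    change (((x * y * x⁻¹ * y⁻¹ : G) : GL ι K) : Matrix ι ι K) * ((z : GL ι K) : Matrix ι ι K) =
      ((z : GL ι K) : Matrix ι ι K) * (((x * y * x⁻¹ * y⁻¹ : G) : GL ι K) : Matrix ι ι K)
    rw [mat_comm hij hjl hil hx hy, hz, transvection_commute hil hij]
  centB := by
    rintro _ ⟨x, a, -, hx, rfl⟩ _ ⟨y, b, -, hy, rfl⟩ _ ⟨z, c, -, hz, rfl⟩
    simp only [← map_mul, ← map_inv]
    congr 1
    apply glmat_injective
    change (((x * y * x⁻¹ * y⁻¹ : G) : GL ι K) : Matrix ι ι K) * ((z : GL ι K) : Matrix ι ι K) =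
      ((z : GL ι K) : Matrix ι ι K) * (((x * y * x⁻¹ * y⁻¹ : G) : GL ι K) : Matrix ι ι K)
    rw [mat_comm hij hjl hil hx hy, hz, transvection_commute' hil hjl]
  nondeg := by
    rintro _ ⟨x, a, -, hx, rfl⟩ _ ⟨y, b, -, hy, rfl⟩ h
    have h1 : π (x * y * x⁻¹ * y⁻¹) = 1 := by
      simp only [map_mul, map_inv, h]
      group
    have h2 := eq_zero_of_map_eq_one hker hil hjl.symm hij (hG l j hjl.symm)
      (mat_comm hij hjl hil hx hy) h1
    rcases mul_eq_zero.1 h2 with h3 | h3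
    · left
      have h4 : x = 1 := glmat_injective (by rw [hx, h3, transvection_zero]; rfl)
      rw [h4, map_one]
    · right
      have h4 : y = 1 := glmat_injective (by rw [hy, h3, transvection_zero]; rfl)
      rw [h4, map_one]

omit [Group Γ] hker in
theorem commute_single_of_commute {M : Matrix ι ι K} {k l : ι} {c : K} (hc : c ≠ 0)
    (h : M * transvection k l c = transvection k l c * M) : Commute (Matrix.single k l 1) M := by
  rw [transvection, mul_add, mul_one, add_mul, one_mul, add_right_inj] at h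
  have h1 : Matrix.single k l c = c • Matrix.single k l (1 : K) := by
    rw [smul_single, smul_eq_mul, mul_one]
  rw [h1, mul_smul_comm, smul_mul_assoc] at h
  exact (smul_right_injective _ hc h).symm

theorem eq_one_of_commute (h3 : ∀ i j : ι, ∃ m, i ≠ m ∧ j ≠ m) (hsurj : Function.Surjective π)
    (hicc : IsICC Γ) {g : Γ}
    (h : ∀ (k l : ι) (hkl : k ≠ l), ∃ q ∈ elSub π hkl ⊤, q ≠ 1 ∧ q * g = g * q) : g = 1 := by
  obtain ⟨M, rfl⟩ := hsurj g
  have h1 : ∀ k l : ι, k ≠ l → ∃ (x : G) (c : K), c ≠ 0 ∧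
      ((x : GL ι K) : Matrix ι ι K) = transvection k l c ∧
        M * x * M⁻¹ * x⁻¹ ∈ Subgroup.center G := by
    intro k l hkl
    obtain ⟨_, ⟨x, c, -, hx, rfl⟩, hq1, hq⟩ := h k l hkl
    refine ⟨x, c, ?_, hx, comm_mem_center hker hq.symm⟩
    rintro rfl
    apply hq1
    have h4 : x = 1 := glmat_injective (by rw [hx, transvection_zero]; rfl)
    rw [h4, map_one]
  have h2 : ∀ k l : ι, k ≠ l → Commute (Matrix.single k l 1) ((M : GL ι K) : Matrix ι ι K) := by
    intro k l hkl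
    obtain ⟨m, hkm, hlm⟩ := h3 k l
    obtain ⟨x, a, ha, hx, hxc⟩ := h1 k m hkm
    obtain ⟨y, b, hb, hy, hyc⟩ := h1 m l hlm.symm
    have h4 := commute_commutator hxc hyc
    have h5 := mat_comm hkm hlm.symm hkl hx hy
    refine commute_single_of_commute (mul_ne_zero ha hb) ?_
    rw [← h5]
    exact congrArg (fun z : G => ((z : GL ι K) : Matrix ι ι K)) h4
  obtain ⟨r, hr⟩ := mem_range_scalar_of_commute_single h2
  have h4 : ∀ x : G, M * x = x * M := by
    intro x
    apply glmat_injective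
    change ((M : GL ι K) : Matrix ι ι K) * ((x : GL ι K) : Matrix ι ι K) =
      ((x : GL ι K) : Matrix ι ι K) * ((M : GL ι K) : Matrix ι ι K)
    rw [← hr]
    exact scalar_commute r (fun r' => mul_comm _ _) _
  by_contra hne
  apply hicc _ hne
  refine (Set.finite_singleton (π M)).subset ?_
  intro y hy
  obtain ⟨c, hc⟩ := isConj_iff.1 hy
  obtain ⟨x, rfl⟩ := hsurj c
  rw [Set.mem_singleton_iff, ← hc, ← map_mul, ← map_inv, ← map_mul, ← h4 x]
  congr 1
  group

end

end Vale.Agent.P092
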