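import Vale.Agent.P092.H414.RootD

/-!
# The criterion for groups containing elementary matrices
-/

namespace Vale.Agent.P092

open scoped InnerProductSpace ENNReal ComplexConjugate
open Matrix

noncomputable section

theorem finite_frac {R K : Type} [CommRing R] [IsDomain R] [Field K] [Algebra R K]
    [IsFractionRing R K] [Finite R] : Finite K :=
  Finite.of_surjective (fun p : R × R => algebraMap R K p.1 / algebraMap R K p.2) fun c => by
    obtain ⟨a, b, -, h⟩ := IsFractionRing.div_surjective (A := R) c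
    exact ⟨(a, b), h⟩

/-- An orthogonal group of unitaries of `L(Γ)`, `Γ` finite, is finite. -/
theorem OGroup.finite {Γ Λ : Type} [Group Γ] [Group Λ] {X : Λ → LG Γ} (hX : OGroup X)
    {A B : Subgroup Γ} (h : HeisPair A B) (hA : (hX.supp A : Set Λ).Infinite)
    (hB : (hX.supp B : Set Λ).Infinite) : Infinite Γ := by
  have hex : ∀ s : Λ, ∃ a : Γ, s ∈ hX.supp A → ∃ ζ : ℂ, X s = ζ • u a := by
    intro s
    by_cases hs : s ∈ hX.supp A
    · obtain ⟨a, -, ζ, h⟩ := hX.eq_smul_u h hA hB hs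
      exact ⟨a, fun _ => ⟨ζ, h⟩⟩
    · exact ⟨1, fun h => absurd h hs⟩
  choose f hf using hex
  have : Infinite (hX.supp A) := Set.infinite_coe_iff.2 hA
  refine Infinite.of_injective (fun s : hX.supp A => f s) ?_
  rintro ⟨s, hs⟩ ⟨t, ht⟩ hst
  change f s = f t at hst
  obtain ⟨ζ, h1⟩ := hf s hs
  obtain ⟨ξ, h2⟩ := hf t ht
  apply Subtype.ext
  change s = t
  by_contra hne
  have h3 := hX.tau_star_mul_of_ne hne
  have hζ : ζ ≠ 0 := by
    rintro rfl
    rw [zero_smul] at h1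
    exact hX.ne_zero s h1
  have hξ : ξ ≠ 0 := by
    rintro rfl
    rw [zero_smul] at h2
    exact hX.ne_zero t h2
  rw [h1, h2, hst, star_smul, smul_mul_smul_comm, star_u, ← u_mul, inv_mul_cancel, u_one, tau_smul,
    tau_one, mul_one] at h3
  rcases mul_eq_zero.1 h3 with h4 | h4
  · exact hζ (star_eq_zero.1 h4)
  · exact hξ h4

variable {R K Γ Λ : Type} [CommRing R] [IsDomain R] [Field K] [Algebra R K] [IsFractionRing R K]
  [Group Γ] [Group Λ] {n : ℕ} [NeZero n] {G : Subgroup (GL (Fin n) K)} {π : G →* Γ}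

omit [IsDomain R] [IsFractionRing R K] [NeZero n] in
theorem infinite_elSub [Infinite R] [FaithfulSMul R K] (hker : π.ker ≤ Subgroup.center G)
    (hn : 3 ≤ n) (hG : ∀ i j : Fin n, i ≠ j → ∃ c : K, c ≠ 0 ∧ InM G (transvection i j c)) {t : R}
    (ht : ∀ r : R, t * r = 0 → r = 0) {i j : Fin n} (hij : i ≠ j)
    (htG : ∀ r : R, InM G (transvection i j (algebraMap R K (t * r)))) :
    (elSub π hij (mulI K t) : Set Γ).Infinite := by
  choose x hx hxm using htG
  have hinj : Function.Injective fun r : R => π ⟨x r, hx r⟩ := by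
    intro r r' hrr
    change π ⟨x r, hx r⟩ = π ⟨x r', hx r'⟩ at hrr
    obtain ⟨m, him, hjm⟩ := exists_third hn i j
    have h1 : π ((⟨x r, hx r⟩ : G) * (⟨x r', hx r'⟩ : G)⁻¹) = 1 := by
      rw [map_mul, map_inv, hrr, mul_inv_cancel]
    have h2 : ((((⟨x r, hx r⟩ : G) * (⟨x r', hx r'⟩ : G)⁻¹ : G) : GL (Fin n) K) :
        Matrix (Fin n) (Fin n) K) =
        transvection i j (algebraMap R K (t * r) + -algebraMap R K (t * r')) := by
      rw [← transvection_mul_transvection_same _ _ hij, ← hxm r,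
        ← mat_inv_of_transvection hij (x := (⟨x r', hx r'⟩ : G)) (hxm r')]
      rfl
    have h3 := eq_zero_of_map_eq_one hker hij hjm him (hG j m hjm) h2 h1
    rw [← map_neg, ← map_add, FaithfulSMul.algebraMap_eq_zero_iff] at h3
    have h4 := ht (r - r') (by rw [← h3]; ring)
    exact sub_eq_zero.1 h4
  refine (Set.infinite_range_of_injective hinj).mono ?_
  rintro _ ⟨r, rfl⟩
  exact ⟨⟨x r, hx r⟩, _, ⟨r, rfl⟩, hxm r, rfl⟩

/-- **The criterion.** -/
theorem OGroup.gl_eq_top (hn : 3 ≤ n) (hker : π.ker ≤ Subgroup.center G)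
    (hsurj : Function.Surjective π) (hicc : IsICC Γ)
    (hG : ∀ i j : Fin n, i ≠ j → ∃ c : K, c ≠ 0 ∧ InM G (transvection i j c))
    {X : Λ → LG Γ} (hX : OGroup X)
    (hfull : ∀ x : LG Γ, (∀ s, tau (star (X s) * x) = 0) → x = 0)
    (ha : ∀ i : Fin n, (hX.supp (elSub π (succ_ne hn i).1 ⊤) : Set Λ).Infinite)
    (hb : (∀ i j : Fin n, ∀ hij : i ≠ j, ∃ c : K, c ≠ 0 ∧ c ∈ elI (pull π hX.gl) hij) →
      ∃ (i j : Fin n) (hij : i ≠ j), ∃ κ : R, κ ≠ 0 ∧
        ∀ r : R, algebraMap R K (κ * r) ∈ elI (pull π hX.gl) hij) :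
    hX.gl = ⊤ := by
  classical
  have hpair : ∀ i : Fin n,
      HeisPair (elSub π (succ_ne hn i).1 ⊤) (elSub π (succ_ne hn (i + 1)).1 ⊤) := fun i =>
    heisPair_root hker (succ_ne hn i).1 (succ_ne hn (i + 1)).1 (succ_ne hn i).2.2 hG
  -- nontrivial elements
  have hN1 : ∀ i : Fin n, ∃ c : K, c ≠ 0 ∧ c ∈ elI (pull π hX.gl) (succ_ne hn i).1 := by
    intro i
    obtain ⟨s, hs, hs1⟩ := (Set.Infinite.nontrivial (ha i)).exists_ne 1
    obtain ⟨_, ⟨x, c, -, hx, rfl⟩, ζ, hζ⟩ := hX.eq_smul_u (hpair i) (ha i) (ha (i + 1)) hs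
    refine ⟨c, ?_, inM_pull.2 ⟨x, hX.mem_gl_of_eq hζ, hx⟩⟩
    rintro rfl
    have h1 : x = 1 := glmat_injective (by rw [hx, transvection_zero]; rfl)
    have h2 := hX.tau_eq s hs1
    rw [hζ, h1, _root_.map_one, u_one, tau_smul, tau_one, mul_one] at h2
    rw [h2, zero_smul] at hζ
    exact hX.ne_zero s hζ
  have hN : ∀ (i j : Fin n) (hij : i ≠ j), ∃ c : K, c ≠ 0 ∧ c ∈ elI (pull π hX.gl) hij := by
    intro i j hij
    refine cyc_induction (N := fun i j => ∀ hij : i ≠ j, ∃ c : K, c ≠ 0 ∧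
      c ∈ elI (pull π hX.gl) hij) ?_ (fun i _ => hN1 i) i j hij hij
    intro i l j hil hlj hij h1 h2 _
    exact mul_mem_elI_ne hil hlj hij (h1 hil) (h2 hlj)
  -- ideals
  obtain ⟨a, b, hab, hκab⟩ := hb hN
  have hDa : ∀ (j : Fin n) (haj : a ≠ j), ∃ κ : R, κ ≠ 0 ∧
      ∀ r : R, algebraMap R K (κ * r) ∈ elI (pull π hX.gl) haj := by
    intro j haj
    by_cases hbj : b = j
    · subst hbj
      exact hκab
    · exact exists_ideal_right hab hbj haj hκab (hN b j hbj)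
  have hDi : ∀ (i j : Fin n) (hij : i ≠ j), j ≠ a → ∃ κ : R, κ ≠ 0 ∧
      ∀ r : R, algebraMap R K (κ * r) ∈ elI (pull π hX.gl) hij := by
    intro i j hij hja
    by_cases hia : i = a
    · subst hia
      exact hDa j hij
    · exact exists_ideal_left hia hja.symm hij (hDa j hja.symm) (hN i a hia)
  have hD : ∀ (i j : Fin n) (hij : i ≠ j), ∃ κ : R, κ ≠ 0 ∧
      ∀ r : R, algebraMap R K (κ * r) ∈ elI (pull π hX.gl) hij := by
    intro i j hij
    by_cases hja : j = a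
    · obtain ⟨m, him, hjm⟩ := exists_third hn i j
      have hma : m ≠ a := by rw [← hja]; exact hjm.symm
      exact exists_ideal_right him hjm.symm hij (hDi i m him hma) (hN m j hjm.symm)
    · exact hDi i j hij hja
  -- a common multiple
  have hκ : ∃ κ : R, κ ≠ 0 ∧ ∀ (i j : Fin n) (hij : i ≠ j),
      ∀ r : R, algebraMap R K (κ * r) ∈ elI (pull π hX.gl) hij := by
    have h1 : ∀ p : Fin n × Fin n, ∃ κ : R, κ ≠ 0 ∧ ∀ hij : p.1 ≠ p.2,
        ∀ r : R, algebraMap R K (κ * r) ∈ elI (pull π hX.gl) hij := by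
      intro p
      by_cases hp : p.1 = p.2
      · exact ⟨1, one_ne_zero, fun h => absurd hp h⟩
      · obtain ⟨κ, hκ, h⟩ := hD p.1 p.2 hp
        exact ⟨κ, hκ, fun _ => h⟩
    choose k hk0 hk using h1
    refine ⟨∏ p, k p, Finset.prod_ne_zero_iff.2 fun p _ => hk0 p, fun i j hij r => ?_⟩
    obtain ⟨c, hc⟩ := Finset.dvd_prod_of_mem k (Finset.mem_univ (i, j))
    rw [hc, mul_assoc]
    exact hk (i, j) hij _
  obtain ⟨κ, hκ0, hκ⟩ := hκ
  -- `R` is infinite
  have hR : Infinite R := by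
    by_contra hfin
    rw [not_infinite_iff_finite] at hfin
    have hK : Finite K := finite_frac (R := R)
    have : Infinite Γ := hX.finite (hpair 0) (ha 0) (ha (0 + 1))
    have hM : Finite (Matrix (Fin n) (Fin n) K) := inferInstanceAs (Finite (Fin n → Fin n → K))
    have hGL : Finite (GL (Fin n) K) :=
      Finite.of_injective (fun x : GL (Fin n) K => (x : Matrix (Fin n) (Fin n) K))
        fun x y h => Units.ext h
    have hΓ : Finite Γ := Finite.of_surjective π hsurj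
    exact not_finite Γ
  have h3 := exists_third hn
  rw [eq_top_iff]
  rintro g -
  obtain ⟨g₀, rfl⟩ := hsurj g
  obtain ⟨t, ht0, ⟨t', rfl⟩, ht⟩ := exists_conj (H := pull π hX.gl) h3 hκ0 hκ (g₀ : GL (Fin n) K)
  have htG : ∀ (i j : Fin n) (_ : i ≠ j) (r : R),
      InM (pull π hX.gl) (transvection i j (algebraMap R K (κ * t' * r))) := by
    intro i j hij r
    rw [mul_assoc]
    exact hκ i j hij _
  refine hX.mem_gl_of_conj hfull (K := {p : Fin n × Fin n // p.1 ≠ p.2})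
    (fun p => elSub π p.2 (mulI K (κ * t'))) ?_ ?_ ?_ ?_
  · rintro ⟨⟨i, j⟩, hij⟩
    have : FaithfulSMul R K := inferInstance
    refine infinite_elSub hker hn hG (t := κ * t') (fun r hr => ?_) hij fun r => ?_
    · exact (mul_eq_zero.1 hr).resolve_left ht0
    · obtain ⟨x, -, hx⟩ := inM_pull.1 (htG i j hij r)
      exact ⟨x, x.2, hx⟩
  · rintro ⟨⟨i, j⟩, hij⟩ _ ⟨x, _, ⟨r, rfl⟩, hx, rfl⟩
    obtain ⟨y, hy, hyx⟩ := inM_pull.1 (htG i j hij r)
    have h1 : x = y := glmat_injective (by rw [hx, hyx]; rfl)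
    rw [h1]
    exact hy
  · rintro ⟨⟨i, j⟩, hij⟩ _ ⟨x, _, ⟨r, rfl⟩, hx, rfl⟩
    obtain ⟨y, hy, hyx⟩ := inM_pull.1 (ht i j hij r)
    have h1 : g₀ * x * g₀⁻¹ = y := by
      apply glmat_injective
      rw [hyx]
      change ((g₀ : GL (Fin n) K) : Matrix (Fin n) (Fin n) K) * ((x : GL (Fin n) K) : Matrix _ _ K) *
        (((g₀ : GL (Fin n) K)⁻¹ : GL (Fin n) K) : Matrix _ _ K) = _
      rw [hx]
      rfl
    rw [← _root_.map_mul, ← map_inv, ← _root_.map_mul, h1]
    exact hy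
  · intro g hg
    by_contra hcon
    push Not at hcon
    apply hg
    refine eq_one_of_commute hker h3 hsurj hicc fun k l hkl => ?_
    obtain ⟨q, ⟨x, c, _, hx, hq⟩, hqg, hq1⟩ := hcon ⟨(k, l), hkl⟩
    exact ⟨q, ⟨x, c, AddSubgroup.mem_top c, hx, hq⟩, hq1, hqg⟩

end

end Vale.Agent.P092
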