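import Vale.Agent.P092.H414.RootE

/-!
# The orthogonal group of unitaries attached to an isomorphism with a corner
-/

namespace Vale.Agent.P092

open scoped InnerProductSpace ENNReal ComplexConjugate

noncomputable section

variable {Γ Λ : Type} [Group Γ] [Group Λ] {n : ℕ}

theorem sum_tau_mul_comm' {m k : ℕ} (A : Matrix (Fin m) (Fin k) (LG Γ))
    (B : Matrix (Fin k) (Fin m) (LG Γ)) :
    ∑ i, tau ((A * B) i i) = ∑ i, tau ((B * A) i i) := by
  simp only [Matrix.mul_apply, tau_sum]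
  rw [Finset.sum_comm]
  exact Finset.sum_congr rfl fun i _ => Finset.sum_congr rfl fun j _ => tau_mul_comm _ _

theorem tau_mul_00 {m : ℕ} (A : Matrix (Fin 1) (Fin m) (LG Γ))
    (B : Matrix (Fin m) (Fin 1) (LG Γ)) : tau ((A * B) 0 0) = ∑ i, tau ((B * A) i i) := by
  rw [← sum_tau_mul_comm', Fin.sum_univ_one]

theorem mul_00 (A B : Matrix (Fin 1) (Fin 1) (LG Γ)) : (A * B) 0 0 = A 0 0 * B 0 0 := by
  rw [Matrix.mul_apply, Fin.sum_univ_one]

/-- A `1 × 1` matrix. -/
def one1 (x : LG Γ) : Matrix (Fin 1) (Fin 1) (LG Γ) := Matrix.of fun _ _ => x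

theorem one1_00 (A : Matrix (Fin 1) (Fin 1) (LG Γ)) : one1 (A 0 0) = A := by
  ext i j : 2
  rw [Subsingleton.elim i 0, Subsingleton.elim j 0]
  rfl

namespace AmpIso

variable (Φ : AmpIso Γ Λ n) {w : Matrix (Fin n) (Fin 1) (LG Γ)}

/-- The unitary `w^* Φ(v_s) w`. -/
def XX (w : Matrix (Fin n) (Fin 1) (LG Γ)) (s : Λ) : LG Γ :=
  (w.conjTranspose * Φ.toHom (u s) * w) 0 0

theorem tau_XX {t : ℝ} (htr : ∀ x : LG Λ, ∑ i, tau (Φ.toHom x i i) = t * tau x)
    (hw2 : w * w.conjTranspose = Φ.p) (x : LG Λ) :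
    tau ((w.conjTranspose * Φ.toHom x * w) 0 0) = t * tau x := by
  rw [Matrix.mul_assoc, tau_mul_00, Matrix.mul_assoc, hw2, Φ.mul_p, htr]

theorem oGroup (hicc : IsICC Λ) (hw1 : w.conjTranspose * w = 1)
    (hw2 : w * w.conjTranspose = Φ.p) : OGroup (Φ.XX w) where
  map_one := by
    rw [XX, u_one, Φ.map_one_eq, ← hw2, ← Matrix.mul_assoc, hw1, Matrix.one_mul, hw1,
      Matrix.one_apply_eq]
  map_mul s t := by
    rw [XX, XX, XX, ← mul_00, u_mul, map_mul]
    have h1 : w * (w.conjTranspose * Φ.toHom (u t) * w) = Φ.toHom (u t) * w := by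
      rw [← Matrix.mul_assoc, ← Matrix.mul_assoc, hw2, Φ.p_mul]
    rw [Matrix.mul_assoc _ w, h1]
    simp only [Matrix.mul_assoc]
  map_star s := by
    rw [XX, XX, ← star_u, map_star, Matrix.star_eq_conjTranspose]
    have h1 : (w.conjTranspose * Φ.toHom (u s) * w).conjTranspose =
        w.conjTranspose * (Φ.toHom (u s)).conjTranspose * w := by
      rw [Matrix.conjTranspose_mul, Matrix.conjTranspose_mul, Matrix.conjTranspose_conjTranspose,
        Matrix.mul_assoc]
    rw [← h1, Matrix.conjTranspose_apply]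
  tau_eq s hs := by
    obtain ⟨t, -, htr⟩ := Φ.exists_trace hicc
    rw [XX, Φ.tau_XX htr hw2, ← coef_one, coef_u_ne (Ne.symm hs), mul_zero]

theorem full (hicc : IsICC Λ) (hw1 : w.conjTranspose * w = 1)
    (hw2 : w * w.conjTranspose = Φ.p) (x : LG Γ)
    (hx : ∀ s, tau (star (Φ.XX w s) * x) = 0) : x = 0 := by
  obtain ⟨t, ht, htr⟩ := Φ.exists_trace hicc
  obtain ⟨z, hz⟩ := Φ.exists_of_corner (y := w * one1 x * w.conjTranspose) (by
    rw [← hw2]
    have h1 : w * w.conjTranspose * (w * one1 x * w.conjTranspose) * (w * w.conjTranspose) =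
        w * (w.conjTranspose * w) * one1 x * (w.conjTranspose * w) * w.conjTranspose := by
      simp only [Matrix.mul_assoc]
    rw [h1, hw1, Matrix.mul_one, Matrix.mul_one])
  have hzx : w.conjTranspose * Φ.toHom z * w = one1 x := by
    rw [hz]
    have h1 : w.conjTranspose * (w * one1 x * w.conjTranspose) * w =
        (w.conjTranspose * w) * one1 x * (w.conjTranspose * w) := by
      simp only [Matrix.mul_assoc]
    rw [h1, hw1, Matrix.one_mul, Matrix.mul_one]
  have hz0 : z = 0 := by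
    refine eq_zero_of_coef fun s => ?_
    have h1 := hx s
    have h2 : star (Φ.XX w s) * x =
        (w.conjTranspose * Φ.toHom (star (u s) * z) * w) 0 0 := by
      have h3 : x = (w.conjTranspose * Φ.toHom z * w) 0 0 := by rw [hzx]; rfl
      rw [(Φ.oGroup hicc hw1 hw2).map_star, star_u, map_mul, XX]
      conv_lhs => rw [h3]
      rw [← mul_00]
      have h4 : w * (w.conjTranspose * Φ.toHom z * w) = Φ.toHom z * w := by
        rw [← Matrix.mul_assoc, ← Matrix.mul_assoc, hw2, Φ.p_mul]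
      rw [Matrix.mul_assoc _ w, h4]
      simp only [Matrix.mul_assoc]
    rw [h2, Φ.tau_XX htr hw2, ← coef_eq_tau] at h1
    exact (mul_eq_zero.1 h1).resolve_left (Complex.ofReal_ne_zero.2 ht.ne')
  rw [hz0, map_zero, Matrix.mul_zero, Matrix.zero_mul] at hzx
  have h5 := congrFun (congrFun hzx 0) 0
  exact h5.symm

theorem t_eq_one (hw1 : w.conjTranspose * w = 1) (hw2 : w * w.conjTranspose = Φ.p) :
    Φ.t = 1 := by
  rw [t, ← hw2, ← tau_mul_00, hw1, Matrix.one_apply_eq, tau_one]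

/-- If all the `u g` are multiples of the unitaries `w^* Φ(v_s) w`, then `Φ` is canonical. -/
theorem isCanonical_of_gl (hicc : IsICC Λ) (hw1 : w.conjTranspose * w = 1)
    (hw2 : w * w.conjTranspose = Φ.p) (h : (Φ.oGroup hicc hw1 hw2).gl = ⊤) : Φ.IsCanonical := by
  obtain ⟨δ, χ, hδ⟩ := (Φ.oGroup hicc hw1 hw2).exists_iso h
  refine ⟨Φ.t_eq_one hw1 hw2, δ, χ⁻¹, w, hw1, hw2, fun g => ?_⟩
  have h1 : (Matrix.of fun _ _ => u g : Matrix (Fin 1) (Fin 1) (LG Γ)) =
      (χ g : ℂ) • (w.conjTranspose * Φ.toHom (u (δ g)) * w) := by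
    rw [← one1_00 (w.conjTranspose * Φ.toHom (u (δ g)) * w)]
    change one1 (u g) = (χ g : ℂ) • one1 (Φ.XX w (δ g))
    rw [hδ g]
    rfl
  rw [h1, Matrix.mul_smul, Matrix.smul_mul, smul_smul]
  have h2 : w * (w.conjTranspose * Φ.toHom (u (δ g)) * w) * w.conjTranspose =
      Φ.toHom (u (δ g)) := by
    have h3 : w * (w.conjTranspose * Φ.toHom (u (δ g)) * w) * w.conjTranspose =
        (w * w.conjTranspose) * Φ.toHom (u (δ g)) * (w * w.conjTranspose) := by
      simp only [Matrix.mul_assoc]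
    rw [h3, hw2, Φ.p_mul, Φ.mul_p]
  rw [h2]
  have h4 : ((χ⁻¹ g : Circle) : ℂ) * (χ g : ℂ) = 1 := by
    rw [MonoidHom.inv_apply, Circle.coe_inv]
    exact inv_mul_cancel₀ (Circle.coe_ne_zero _)
  rw [h4, one_smul]

/-- For a canonical isomorphism, all the `u g` are multiples of the unitaries `w^* Φ(v_s) w`. -/
theorem IsCanonical.exists_frame {Φ : AmpIso Γ Λ n} (hcan : Φ.IsCanonical) :
    ∃ (w : Matrix (Fin n) (Fin 1) (LG Γ)) (δ : Γ ≃* Λ) (χ : Γ →* Circle),
      w.conjTranspose * w = 1 ∧ w * w.conjTranspose = Φ.p ∧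
        ∀ g, Φ.XX w (δ g) = (χ g : ℂ) • u g := by
  obtain ⟨-, δ, χ, w, hw1, hw2, hw⟩ := hcan
  refine ⟨w, δ, χ, hw1, hw2, fun g => ?_⟩
  rw [XX, hw g, Matrix.mul_smul, Matrix.smul_mul]
  have h1 : w.conjTranspose * (w * (Matrix.of fun _ _ => u g : Matrix (Fin 1) (Fin 1) (LG Γ)) *
      w.conjTranspose) * w = Matrix.of fun _ _ => u g := by
    have h3 : w.conjTranspose * (w * (Matrix.of fun _ _ => u g : Matrix (Fin 1) (Fin 1) (LG Γ)) *
        w.conjTranspose) * w = (w.conjTranspose * w) *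
          (Matrix.of fun _ _ => u g : Matrix (Fin 1) (Fin 1) (LG Γ)) *
            (w.conjTranspose * w) := by
      simp only [Matrix.mul_assoc]
    rw [h3, hw1, Matrix.one_mul, Matrix.mul_one]
  rw [h1]
  rfl

end AmpIso

end

end Vale.Agent.P092
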