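import Vale.Agent.P092.Stmt
import Vale.Agent.P092.H414.Main

/-!
# Translation between the statement layer and the working definitions
-/

namespace Vale.Agent.P092.Stmt

open scoped InnerProductSpace ENNReal
open ContinuousLinearMap InnerProductSpace

noncomputable section

variable {Γ Λ : Type} [Group Γ] [Group Λ] {n : ℕ}

/-- An element of `B Γ` as a bounded operator. -/
def op (x : B Γ) : ell2 Γ →L[ℂ] ell2 Γ := x

/-- A bounded operator as an element of `B Γ`. -/
def po (x : ell2 Γ →L[ℂ] ell2 Γ) : B Γ := x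

omit [Group Γ] in
theorem op_po (x : ell2 Γ →L[ℂ] ell2 Γ) : op (po x) = x := rfl

omit [Group Γ] in
theorem po_op (x : B Γ) : po (op x) = x := rfl

omit [Group Γ] in
theorem op_inj {x y : B Γ} (h : op x = op y) : x = y := h

omit [Group Γ] in
theorem op_add (x y : B Γ) : op (x + y) = op x + op y := rfl

omit [Group Γ] in
theorem op_mul (x y : B Γ) : op (x * y) = op x * op y := rfl

omit [Group Γ] in
theorem op_smul (c : ℂ) (x : B Γ) : op (c • x) = c • op x := rfl

omit [Group Γ] in
theorem op_star (x : B Γ) : op (star x) = star (op x) := rfl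

omit [Group Γ] in
theorem op_one : op (1 : B Γ) = 1 := rfl

omit [Group Γ] in
theorem op_zero : op (0 : B Γ) = 0 := rfl

omit [Group Γ] in
theorem op_sum {α : Type} (s : Finset α) (f : α → B Γ) : op (∑ i ∈ s, f i) = ∑ i ∈ s, op (f i) := by
  classical
  induction s using Finset.induction_on with
  | empty => rfl
  | insert a s ha ih => rw [Finset.sum_insert ha, Finset.sum_insert ha, op_add, ih]

theorem op_u (g : Γ) : op (u g) = lreg g := rfl

theorem coef_eq (x : B Γ) (y : Vale.Agent.P092.LG Γ) (h : op x = (y : ell2 Γ →L[ℂ] ell2 Γ))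
    (g : Γ) : coef x g = Vale.Agent.P092.coef y g := by
  rw [Vale.Agent.P092.coef, ← h, ← inner_delta]
  rfl

theorem mem_LG_iff (x : B Γ) : x ∈ LG Γ ↔ op x ∈ Vale.Agent.P092.LG Γ := by
  constructor
  · intro hx
    refine mem_LG_of_commute_rreg (op x) fun g => ?_
    exact hx (po (rreg g)) fun k => (lreg_rreg_comm k g).eq.symm
  · intro hx y hy
    have h1 : ∀ g, Commute (op y) (lreg g) := fun g => hy g
    rw [Vale.Agent.P092.LG, StarSubalgebra.mem_centralizer_iff] at hx
    have h2 : op y ∈ StarSubalgebra.centralizer ℂ (Set.range (lreg (Γ := Γ))) := by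
      rw [StarSubalgebra.mem_centralizer_iff]
      rintro _ ⟨g, rfl⟩
      refine ⟨(h1 g).eq.symm, ?_⟩
      have h3 : star (lreg g) = lreg g⁻¹ := adjoint_lreg g
      rw [h3]
      exact (h1 g⁻¹).eq.symm
    exact (hx (op y) h2).1.symm

/-- An element of `L(Γ)`. -/
def el (x : B Γ) (hx : x ∈ LG Γ) : Vale.Agent.P092.LG Γ := ⟨op x, (mem_LG_iff x).1 hx⟩

theorem el_coe (x : B Γ) (hx : x ∈ LG Γ) :
    (el x hx : ell2 Γ →L[ℂ] ell2 Γ) = op x := rfl

theorem coe_mem (x : Vale.Agent.P092.LG Γ) : po (x : ell2 Γ →L[ℂ] ell2 Γ) ∈ LG Γ :=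
  (mem_LG_iff _).2 x.2

theorem u_mem (g : Γ) : u g ∈ LG Γ := (mem_LG_iff _).2 (lreg_mem_LG g)

theorem PropertyT.old (h : PropertyT Γ) : Vale.Agent.P092.PropertyT Γ := by
  obtain ⟨Q, ε, hε, h⟩ := h
  refine ⟨Q, ε, hε, ?_⟩
  intro H _ _ _ π hπ
  exact h H (fun g ξ => (π g : H →L[ℂ] H) ξ)
    { map_add := fun g x y => _root_.map_add (π g : H →L[ℂ] H) x y
      map_smul := fun g c x => _root_.map_smul (π g : H →L[ℂ] H) c x
      norm_map := fun g x => by
        have h1 : star (π g : H →L[ℂ] H) * (π g : H →L[ℂ] H) = 1 := Unitary.coe_star_mul_self _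
        exact (ContinuousLinearMap.norm_map_iff_adjoint_comp_self _).2 h1 x
      map_one := fun x => by simp
      map_mul := fun g k x => by simp }
    hπ

/-- A matrix over `L(Γ)` as a matrix of bounded operators. -/
def up {m k : ℕ} (x : Matrix (Fin m) (Fin k) (Vale.Agent.P092.LG Γ)) :
    Matrix (Fin m) (Fin k) (B Γ) :=
  fun i j => po (x i j : ell2 Γ →L[ℂ] ell2 Γ)

theorem up_injective {m k : ℕ} {x y : Matrix (Fin m) (Fin k) (Vale.Agent.P092.LG Γ)}
    (h : up x = up y) : x = y :=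
  Matrix.ext fun i j => Subtype.ext (congrFun (congrFun h i) j)

theorem up_add {m k : ℕ} (x y : Matrix (Fin m) (Fin k) (Vale.Agent.P092.LG Γ)) :
    up (x + y) = up x + up y := rfl

theorem up_smul {m k : ℕ} (c : ℂ) (x : Matrix (Fin m) (Fin k) (Vale.Agent.P092.LG Γ)) :
    up (c • x) = c • up x := rfl

theorem up_zero {m k : ℕ} :
    up (0 : Matrix (Fin m) (Fin k) (Vale.Agent.P092.LG Γ)) = 0 := rfl

theorem up_conjTranspose {m k : ℕ} (x : Matrix (Fin m) (Fin k) (Vale.Agent.P092.LG Γ)) :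
    up x.conjTranspose = (up x).conjTranspose := rfl

theorem up_mul {m k l : ℕ} (x : Matrix (Fin m) (Fin k) (Vale.Agent.P092.LG Γ))
    (y : Matrix (Fin k) (Fin l) (Vale.Agent.P092.LG Γ)) : up (x * y) = up x * up y := by
  ext i j : 2
  apply op_inj
  rw [Matrix.mul_apply, op_sum, up, op_po, Matrix.mul_apply, coe_sum_LG]
  rfl

/-- A matrix of bounded operators with entries in `L(Γ)` as a matrix over `L(Γ)`. -/
def down {m k : ℕ} (y : Matrix (Fin m) (Fin k) (B Γ)) (hy : ∀ i j, y i j ∈ LG Γ) :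
    Matrix (Fin m) (Fin k) (Vale.Agent.P092.LG Γ) :=
  fun i j => el (y i j) (hy i j)

theorem up_down {m k : ℕ} (y : Matrix (Fin m) (Fin k) (B Γ)) (hy : ∀ i j, y i j ∈ LG Γ) :
    up (down y hy) = y := rfl

theorem up_mem {m k : ℕ} (x : Matrix (Fin m) (Fin k) (Vale.Agent.P092.LG Γ)) (i : Fin m)
    (j : Fin k) : up x i j ∈ LG Γ := coe_mem (x i j)

namespace AmpIso

variable (Φ : AmpIso Γ Λ n)

/-- The amplification as a structure over the working definitions. -/
def old : Vale.Agent.P092.AmpIso Γ Λ n where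
  p := down Φ.p Φ.p_mem
  isStarProjection :=
    { isIdempotentElem := up_injective (by rw [up_mul, up_down, Φ.p_mul])
      isSelfAdjoint := up_injective (by
        rw [Matrix.star_eq_conjTranspose, up_conjTranspose, up_down, Φ.p_star]) }
  toHom :=
    { toFun := fun x => down (Φ.φ (po (x : ell2 Λ →L[ℂ] ell2 Λ))) (Φ.mem _ (coe_mem x))
      map_smul' := fun c x => up_injective (Φ.map_smul c _ (coe_mem x))
      map_zero' := up_injective (by
        have h := Φ.map_smul 0 _ (coe_mem (0 : Vale.Agent.P092.LG Λ))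
        rw [zero_smul, zero_smul] at h
        exact h)
      map_add' := fun x y => up_injective (Φ.map_add _ (coe_mem x) _ (coe_mem y))
      map_mul' := fun x y => up_injective (by
        rw [up_mul]
        exact Φ.map_mul _ (coe_mem x) _ (coe_mem y))
      map_star' := fun x => up_injective (by
        rw [Matrix.star_eq_conjTranspose, up_conjTranspose]
        exact Φ.map_star _ (coe_mem x)) }
  injective := fun x y h =>
    Subtype.ext (Φ.injOn (coe_mem x) (coe_mem y) (congrArg up h))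
  range_eq := by
    ext y
    constructor
    · rintro ⟨x, rfl⟩
      have h : Φ.φ (po (x : ell2 Λ →L[ℂ] ell2 Λ)) ∈ Φ.φ '' LG Λ := ⟨_, coe_mem x, rfl⟩
      rw [Φ.image_eq] at h
      refine up_injective ?_
      rw [up_mul, up_mul]
      exact h.2
    · intro hy
      have hy' : down Φ.p Φ.p_mem * y * down Φ.p Φ.p_mem = y := hy
      have h : up y ∈ Φ.φ '' LG Λ := by
        rw [Φ.image_eq]
        refine ⟨fun i j => up_mem y i j, ?_⟩
        have h2 := congrArg up hy'
        rwa [up_mul, up_mul, up_down] at h2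
      obtain ⟨x, hx, hxy⟩ := h
      exact ⟨el x hx, up_injective hxy⟩

theorem old_toHom (x : Vale.Agent.P092.LG Λ) :
    up (Φ.old.toHom x) = Φ.φ (po (x : ell2 Λ →L[ℂ] ell2 Λ)) := rfl

theorem old_fourth (g : Γ) : Φ.old.fourth g = Φ.fourth g := by
  rw [Vale.Agent.P092.AmpIso.fourth, fourth]
  refine tsum_congr fun s => Finset.sum_congr rfl fun i _ => Finset.sum_congr rfl fun j _ => ?_
  rw [coef_eq (Φ.φ (u s) i j) (Φ.old.toHom (Vale.Agent.P092.u s) i j) rfl g]

theorem old_t : Φ.old.t = Φ.t := by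
  rw [Vale.Agent.P092.AmpIso.t, t]
  refine Finset.sum_congr rfl fun i _ => ?_
  rfl

theorem isCanonical_of_old (h : Φ.old.IsCanonical) : Φ.IsCanonical := by
  obtain ⟨ht, δ, χ, w, hw1, hw2, hw3⟩ := h
  refine ⟨by rw [← Φ.old_t, ht], δ, χ, fun i => up w i 0, fun i => up_mem w i 0, ?_, ?_, ?_⟩
  · have h1 := congrFun (congrFun (congrArg up hw1) 0) 0
    rw [up_mul, up_conjTranspose, Matrix.mul_apply] at h1
    exact h1
  · intro i j
    have h1 := congrFun (congrFun (congrArg up hw2) i) j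
    rw [up_mul, up_conjTranspose, Matrix.mul_apply, Fin.sum_univ_one] at h1
    exact h1
  · intro g i j
    have h1 := congrFun (congrFun (congrArg up (hw3 g)) i) j
    rw [up_smul, up_mul, up_mul, up_conjTranspose, Matrix.smul_apply, Matrix.mul_apply,
      Fin.sum_univ_one, Matrix.mul_apply, Fin.sum_univ_one] at h1
    exact h1

end AmpIso

/-- The dichotomy over the definitions of the statement layer. -/
theorem PropertyT.dichotomy [Countable Γ] (hicc : IsICC Γ)
    (hT : PropertyT Γ) (S : Finset Γ) (h1 : (1 : Γ) ∈ S)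
    (hS : Subgroup.closure (S : Set Γ) = ⊤) :
    ∃ c : ℝ≥0∞, c < 1 ∧ ∀ (Λ : Type) [Group Λ], IsICC Λ → ∀ (n : ℕ) (Φ : AmpIso Γ Λ n),
      Φ.IsCanonical ∨ ∀ k : ℕ, walkAvg S k Φ.fourth ≤ c ^ k * Φ.fourth 1 := by
  obtain ⟨c, hc, h⟩ := hT.old.ampIso_dichotomy hicc S h1 hS
  refine ⟨c, hc, ?_⟩
  intro Λ _ hΛ n Φ
  rcases h Λ hΛ n Φ.old with h2 | h2
  · exact Or.inl (Φ.isCanonical_of_old h2)
  · right
    intro k
    have h3 := h2 k
    rw [show Φ.old.fourth = Φ.fourth from funext Φ.old_fourth] at h3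
    exact h3

end

end Vale.Agent.P092.Stmt
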