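import Vale.Agent.P092.StmtRoot
import Vale.Agent.P092.H414.StmtEquiv
import Vale.Agent.P092.H414.RootF

/-!
# Translation to the statement layer
-/

namespace Vale.Agent.P092

open scoped InnerProductSpace ENNReal

noncomputable section

section cut

variable {Γ : Type}

open Classical in
theorem memlp_cut (P : Set Γ) (ξ : ell2 Γ) : Memℓp (fun x => if x ∈ P then ξ x else 0) 2 := by
  refine (memℓp_gen_iff (by simp)).2 (Summable.of_nonneg_of_le (fun x => by positivity) (fun x => ?_)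
    ((memℓp_gen_iff (by simp)).1 (lp.memℓp ξ)))
  by_cases hx : x ∈ P
  · rw [if_pos hx]
  · rw [if_neg hx, norm_zero]
    simp

open Classical in
/-- The projection onto `ℓ²(P)`. -/
def cut (P : Set Γ) : ell2 Γ →L[ℂ] ell2 Γ :=
  LinearMap.mkContinuous
    { toFun := fun ξ => ⟨fun x => if x ∈ P then ξ x else 0, memlp_cut P ξ⟩
      map_add' := fun ξ η => by
        ext x
        change (if x ∈ P then ξ x + η x else 0) = (if x ∈ P then ξ x else 0) +
          (if x ∈ P then η x else 0)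
        by_cases hx : x ∈ P
        · simp [hx]
        · simp [hx]
      map_smul' := fun c ξ => by
        ext x
        change (if x ∈ P then c * ξ x else 0) = c * (if x ∈ P then ξ x else 0)
        by_cases hx : x ∈ P
        · simp [hx]
        · simp [hx] } 1 fun ξ => by
    rw [one_mul, lp.norm_eq_tsum_rpow (by simp), lp.norm_eq_tsum_rpow (by simp)]
    refine Real.rpow_le_rpow (tsum_nonneg fun _ => by positivity) ?_ (by simp)
    refine Summable.tsum_le_tsum (fun x => ?_) ((memℓp_gen_iff (by simp)).1 (memlp_cut P ξ))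
      ((memℓp_gen_iff (by simp)).1 (lp.memℓp ξ))
    change ‖(if x ∈ P then ξ x else 0)‖ ^ (2 : ℝ≥0∞).toReal ≤ _
    by_cases hx : x ∈ P
    · rw [if_pos hx]
    · rw [if_neg hx, norm_zero]
      simp

theorem cut_apply_mem {P : Set Γ} (ξ : ell2 Γ) {x : Γ} (hx : x ∈ P) : cut P ξ x = ξ x :=
  if_pos hx

theorem cut_apply_notMem {P : Set Γ} (ξ : ell2 Γ) {x : Γ} (hx : x ∉ P) : cut P ξ x = 0 :=
  if_neg hx

variable [Group Γ]

theorem cut_lreg {P : Subgroup Γ} {g : Γ} (hg : g ∈ P) (ξ : ell2 Γ) :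
    cut (P : Set Γ) (lreg g ξ) = lreg g (cut (P : Set Γ) ξ) := by
  ext x
  rw [lreg_apply]
  by_cases hx : x ∈ P
  · rw [cut_apply_mem _ hx, lreg_apply, cut_apply_mem]
    exact P.mul_mem (P.inv_mem hg) hx
  · rw [cut_apply_notMem _ hx, cut_apply_notMem]
    intro h
    exact hx (by simpa using P.mul_mem hg h)

theorem cut_delta_one {P : Subgroup Γ} : cut (P : Set Γ) (delta 1) = delta 1 := by
  ext x
  by_cases hx : x ∈ P
  · rw [cut_apply_mem _ hx]
  · rw [cut_apply_notMem _ hx, delta_apply_ne]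
    rintro rfl
    exact hx P.one_mem

end cut

end

namespace Stmt

open scoped InnerProductSpace ENNReal

noncomputable section

variable {Γ Λ : Type} [Group Γ] [Group Λ] {n : ℕ}

theorem suppIn_of_LS {P : Subgroup Γ} {x : Vale.Agent.P092.LG Γ}
    (h : po (x : ell2 Γ →L[ℂ] ell2 Γ) ∈ LS (P : Set Γ)) : SuppIn x (P : Set Γ) := by
  have h1 := h (po (cut (P : Set Γ))) fun g hg => ?_
  · intro g hg
    have h2 : (x : ell2 Γ →L[ℂ] ell2 Γ) (cut (P : Set Γ) (Vale.Agent.P092.delta 1)) =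
        cut (P : Set Γ) ((x : ell2 Γ →L[ℂ] ell2 Γ) (Vale.Agent.P092.delta 1)) :=
      DFunLike.congr_fun (F := ell2 Γ →L[ℂ] ell2 Γ) h1 (Vale.Agent.P092.delta 1)
    rw [cut_delta_one] at h2
    rw [Vale.Agent.P092.coef, h2, cut_apply_notMem _ hg]
  · refine op_inj (ContinuousLinearMap.ext fun ξ => ?_)
    exact cut_lreg hg ξ

omit [Group Γ] in
theorem smul_mul_B (c : ℂ) (x y : B Γ) : (c • x) * y = c • (x * y) := rfl

omit [Group Γ] in
theorem mul_smul_B (c : ℂ) (x y : B Γ) : x * (c • y) = c • (x * y) :=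
  op_inj (mul_smul_comm c (op x) (op y))

theorem sum_sum_mul {A : Type} [Ring A] (a b : Fin n → A) (c : A) :
    ∑ i, ∑ j, a i * c * b j = (∑ i, a i) * c * ∑ j, b j := by
  rw [Finset.sum_mul, Finset.sum_mul]
  exact Finset.sum_congr rfl fun i _ => (Finset.mul_sum _ _ _).symm

theorem u_mem_LS {S : Set Γ} {g : Γ} (hg : g ∈ S) (c : ℂ) : c • u g ∈ LS S := by
  intro y hy
  rw [smul_mul_B, mul_smul_B, hy g hg]

theorem HeisPair.old {A B : Subgroup Γ} (h : HeisPair A B) : Vale.Agent.P092.HeisPair A B :=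
  ⟨h.commA, h.commB, h.centA, h.centB, h.nondeg⟩

/-- A column over `L(Γ)`. -/
def col (w : Fin n → B Γ) (hw : ∀ i, w i ∈ LG Γ) :
    Matrix (Fin n) (Fin 1) (Vale.Agent.P092.LG Γ) := fun i _ => el (w i) (hw i)

namespace AmpIso

variable {Φ : AmpIso Γ Λ n} {w : Fin n → B Γ}

theorem IsFrame.col1 (hw : Φ.IsFrame w) : (col w hw.1).conjTranspose * col w hw.1 = 1 := by
  refine up_injective ?_
  rw [up_mul, up_conjTranspose]
  ext i j : 2
  rw [Matrix.mul_apply, Subsingleton.elim i 0, Subsingleton.elim j 0]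
  exact hw.2.1

theorem IsFrame.col2 (hw : Φ.IsFrame w) : col w hw.1 * (col w hw.1).conjTranspose = Φ.old.p := by
  refine up_injective ?_
  rw [up_mul, up_conjTranspose]
  ext i j : 2
  rw [Matrix.mul_apply, Fin.sum_univ_one]
  exact hw.2.2 i j

theorem IsFrame.XX (hw : Φ.IsFrame w) (s : Λ) :
    po (Φ.old.XX (col w hw.1) s : ell2 Γ →L[ℂ] ell2 Γ) = Φ.V w s := by
  change up ((col w hw.1).conjTranspose * Φ.old.toHom (Vale.Agent.P092.u s) * col w hw.1) 0 0 = _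
  rw [up_mul, up_mul, up_conjTranspose, Matrix.mul_apply, V, Finset.sum_comm]
  refine Finset.sum_congr rfl fun j _ => ?_
  rw [Matrix.mul_apply]
  exact Finset.sum_mul _ _ _

theorem IsFrame.isCan_iff (hw : Φ.IsFrame w) (hΛ : IsICC Λ) (g : Γ) :
    Φ.IsCan w g ↔ g ∈ (Φ.old.oGroup hΛ hw.col1 hw.col2).gl := by
  constructor
  · rintro ⟨s, ζ, h⟩
    refine (Φ.old.oGroup hΛ hw.col1 hw.col2).mem_gl_of_eq (s := s) (ζ := ζ) ?_
    rw [← hw.XX s] at h
    exact Subtype.ext h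
  · rintro ⟨s, ζ, h⟩
    have hζ := (Φ.old.oGroup hΛ hw.col1 hw.col2).norm_eq_one h
    have hζ0 : ζ ≠ 0 := by
      rintro rfl
      rw [norm_zero] at hζ
      exact zero_ne_one hζ
    refine ⟨s, ζ⁻¹, ?_⟩
    have h1 : Φ.old.XX (col w hw.1) s = ζ⁻¹ • Vale.Agent.P092.u g := by
      rw [h, smul_smul, inv_mul_cancel₀ hζ0, one_smul]
    rw [← hw.XX s, h1]
    rfl

/-- **Heisenberg pairs.** -/
theorem IsFrame.heis (hw : Φ.IsFrame w) (hΛ : IsICC Λ) {A B : Subgroup Γ}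
    (h : HeisPair A B) (hA : {s | Φ.V w s ∈ LS (A : Set Γ)}.Infinite)
    (hB : {s | Φ.V w s ∈ LS (B : Set Γ)}.Infinite) (s : Λ) (hs : Φ.V w s ∈ LS (A : Set Γ)) :
    ∃ a ∈ A, ∃ ζ : ℂ, Φ.V w s = ζ • u a := by
  have hX := Φ.old.oGroup hΛ hw.col1 hw.col2
  have hsupp : ∀ (P : Subgroup Γ) (t : Λ), Φ.V w t ∈ LS (P : Set Γ) → t ∈ hX.supp P := by
    intro P t ht
    rw [← hw.XX t] at ht
    exact suppIn_of_LS ht
  obtain ⟨a, ha, ζ, haζ⟩ := hX.eq_smul_u h.old (hA.mono fun t ht => hsupp A t ht)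
    (hB.mono fun t ht => hsupp B t ht) (hsupp A s hs)
  refine ⟨a, ha, ζ, ?_⟩
  rw [← hw.XX s, haζ]
  rfl

/-- **The commensuration principle.** -/
theorem IsFrame.commens (hw : Φ.IsFrame w) (hΛ : IsICC Λ) (Q : Subgroup Γ)
    (hQ : ∀ g : Γ, g ≠ 1 → {x | ∃ q ∈ Q, x = q * g * q⁻¹}.Infinite) (hQw : ∀ q ∈ Q, Φ.IsCan w q)
    (g₀ : Γ) (hg₀ : ∀ q ∈ Q, Φ.IsCan w (g₀ * q * g₀⁻¹)) : Φ.IsCan w g₀ := by
  rw [hw.isCan_iff hΛ]
  exact (Φ.old.oGroup hΛ hw.col1 hw.col2).mem_gl_of_conj'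
    (Φ.old.full hΛ hw.col1 hw.col2) Q (fun q hq => (hw.isCan_iff hΛ q).1 (hQw q hq))
    (fun q hq => (hw.isCan_iff hΛ _).1 (hg₀ q hq)) hQ

theorem IsFrame.isCanonical (hw : Φ.IsFrame w) (hΛ : IsICC Λ) (h : ∀ g, Φ.IsCan w g) :
    Φ.IsCanonical := by
  refine isCanonical_of_old Φ (Φ.old.isCanonical_of_gl hΛ hw.col1 hw.col2 ?_)
  rw [eq_top_iff]
  rintro g -
  exact (hw.isCan_iff hΛ g).1 (h g)

theorem IsCanonical.exists_frame (h : Φ.IsCanonical) :
    ∃ w, Φ.IsFrame w ∧ ∃ (δ : Γ ≃* Λ) (χ : Γ →* Circle), ∀ g, Φ.V w (δ g) = (χ g : ℂ) • u g := by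
  obtain ⟨-, δ, χ, w, hw, hw1, hw2, hw3⟩ := h
  refine ⟨w, ⟨hw, hw1, hw2⟩, δ, χ, fun g => ?_⟩
  have h1 : ∀ i j, star (w i) * Φ.φ (u (δ g)) i j * w j =
      (χ g : ℂ) • ((star (w i) * w i) * u g * (star (w j) * w j)) := by
    intro i j
    rw [hw3, mul_smul_B, smul_mul_B]
    simp only [mul_assoc]
  have h2 : ∑ i, ∑ j, (star (w i) * w i) * u g * (star (w j) * w j) = u g := by
    rw [sum_sum_mul, hw1, one_mul, mul_one]
  simp only [V, h1]
  simp only [← Finset.smul_sum]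
  rw [h2]

end AmpIso

end

end Stmt

end Vale.Agent.P092
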