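import Vale.Agent.P092.H414.RootG

/-!
# The root subgroup criterion
-/

namespace Vale.Agent.P092.Stmt

open scoped InnerProductSpace ENNReal
open Matrix

noncomputable section

/-- The image in `Γ` of the elementary matrices `1 + c E_ij ∈ G`. -/
def rootSet {K : Type} [Field K] {m : ℕ} {G : Subgroup (GL (Fin m) K)}
    {Γ : Type} [Group Γ] (π : G →* Γ) (i j : Fin m) : Set Γ :=
  {g | ∃ (x : G) (c : K), x.1.val = Matrix.transvection i j c ∧ π x = g}

theorem rootSet_eq {K : Type} [Field K] {m : ℕ} {G : Subgroup (GL (Fin m) K)} {Γ : Type} [Group Γ]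
    (π : G →* Γ) {i j : Fin m} (hij : i ≠ j) :
    rootSet π i j = (elSub π hij ⊤ : Set Γ) := by
  ext g
  constructor
  · rintro ⟨x, c, h1, h2⟩
    exact ⟨x, c, AddSubgroup.mem_top c, h1, h2⟩
  · rintro ⟨x, c, -, h1, h2⟩
    exact ⟨x, c, h1, h2⟩

theorem coef_po {Γ : Type} [Group Γ] (x : Vale.Agent.P092.LG Γ) (g : Γ) :
    coef (po (x : ell2 Γ →L[ℂ] ell2 Γ)) g = Vale.Agent.P092.coef x g :=
  coef_eq _ x rfl g

theorem coef_smul_u {Γ : Type} [Group Γ] (c : ℂ) (g : Γ) : coef (c • u g) g = c := by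
  have h := coef_po (c • Vale.Agent.P092.u g) g
  rw [coef_smul, coef_u_self, mul_one] at h
  exact h

variable {R K Γ Λ : Type} [CommRing R] [IsDomain R] [Field K] [Algebra R K] [IsFractionRing R K]
  [Group Γ] [Group Λ] {n m : ℕ} [NeZero m] {G : Subgroup (GL (Fin m) K)} {π : G →* Γ}

theorem infinite_ring (hm : 3 ≤ m) {k : R} (hk : k ≠ 0)
    (hG : ∀ i j : Fin m, i ≠ j → ∀ r : R, ∃ x ∈ G,
      x.val = transvection i j (algebraMap R K (k * r)))
    (hπ : Function.Surjective π) (hker : π.ker ≤ Subgroup.center G) (hicc : IsICC Γ) :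
    Infinite R := by
  by_contra hfin
  rw [not_infinite_iff_finite] at hfin
  have hK : Finite K := finite_frac (R := R)
  have hM : Finite (Matrix (Fin m) (Fin m) K) := inferInstanceAs (Finite (Fin m → Fin m → K))
  have hGL : Finite (GL (Fin m) K) :=
    Finite.of_injective (fun x : GL (Fin m) K => (x : Matrix (Fin m) (Fin m) K))
      fun x y h => Units.ext h
  have hΓ : Finite Γ := Finite.of_surjective π hπ
  obtain ⟨h01, h12, h02⟩ := succ_ne hm 0
  obtain ⟨x, hx, hxm⟩ := hG _ _ h01 1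
  have hk' : algebraMap R K (k * 1) ≠ 0 := by
    rw [mul_one]
    exact (map_ne_zero_iff _ (IsFractionRing.injective R K)).2 hk
  have h1 : π ⟨x, hx⟩ ≠ 1 := by
    intro h1
    exact hk' (eq_zero_of_map_eq_one hker h01 h12 h02
      (by obtain ⟨y, hy, hym⟩ := hG _ _ h12 1; exact ⟨_, hk', y, hy, hym⟩)
      (x := ⟨x, hx⟩) hxm h1)
  exact hicc _ h1 (Set.toFinite _)

theorem rootSet_infinite (hm : 3 ≤ m) {k : R} (hk : k ≠ 0)
    (hG : ∀ i j : Fin m, i ≠ j → ∀ r : R, ∃ x ∈ G,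
      x.val = transvection i j (algebraMap R K (k * r)))
    (hπ : Function.Surjective π) (hker : π.ker ≤ Subgroup.center G) (hicc : IsICC Γ)
    {i j : Fin m} (hij : i ≠ j) : (rootSet π i j).Infinite := by
  have : Infinite R := infinite_ring hm hk hG hπ hker hicc
  have hk' : ∀ r : R, k * r = 0 → r = 0 := fun r hr => (mul_eq_zero.1 hr).resolve_left hk
  have : FaithfulSMul R K := inferInstance
  refine (infinite_elSub hker hm (fun i j hij => ?_) hk' hij fun r => ?_).mono ?_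
  · obtain ⟨y, hy, hym⟩ := hG _ _ hij 1
    refine ⟨_, ?_, y, hy, hym⟩
    rw [mul_one]
    exact (map_ne_zero_iff _ (IsFractionRing.injective R K)).2 hk
  · obtain ⟨y, hy, hym⟩ := hG _ _ hij r
    exact ⟨y, hy, hym⟩
  · rintro _ ⟨x, c, -, h1, h2⟩
    exact ⟨x, c, h1, h2⟩

theorem AmpIso.IsCanonical.root {Φ : AmpIso Γ Λ n} (hcan : Φ.IsCanonical) (hm : 3 ≤ m) {k : R}
    (hk : k ≠ 0)
    (hG : ∀ i j : Fin m, i ≠ j → ∀ r : R, ∃ x ∈ G,
      x.val = transvection i j (algebraMap R K (k * r)))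
    (hπ : Function.Surjective π) (hker : π.ker ≤ Subgroup.center G) (hicc : IsICC Γ) :
    ∃ w, Φ.IsFrame w ∧ (∀ i : Fin m, {s | Φ.V w s ∈ LS (rootSet π i (i + 1))}.Infinite) ∧
      ∀ (i : Fin m) (c : K) (x : G), x.1.val = transvection i (i + 1) c →
        ∃ s, Φ.V w s ∈ LS (rootSet π i (i + 1)) ∧ coef (Φ.V w s) (π x) ≠ 0 := by
  obtain ⟨w, hw, δ, χ, hδ⟩ := hcan.exists_frame
  refine ⟨w, hw, fun i => ?_, fun i c x hx => ⟨δ (π x), ?_, ?_⟩⟩
  · refine ((rootSet_infinite hm hk hG hπ hker hicc (succ_ne hm i).1).image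
      (f := δ) δ.injective.injOn).mono ?_
    rintro _ ⟨g, hg, rfl⟩
    change Φ.V w (δ g) ∈ LS _
    rw [hδ]
    exact u_mem_LS hg _
  · rw [hδ]
    exact u_mem_LS (S := rootSet π i (i + 1)) ⟨x, c, hx, rfl⟩ _
  · rw [hδ, coef_smul_u]
    exact Circle.coe_ne_zero _

theorem AmpIso.isCanonical_of_root {Φ : AmpIso Γ Λ n} (hm : 3 ≤ m) {k : R}
    (hk : k ≠ 0)
    (hG : ∀ i j : Fin m, i ≠ j → ∀ r : R, ∃ x ∈ G,
      x.val = transvection i j (algebraMap R K (k * r)))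
    (hπ : Function.Surjective π) (hker : π.ker ≤ Subgroup.center G) (hicc : IsICC Γ)
    (hΛ : IsICC Λ) {w : Fin n → B Γ} (hw : Φ.IsFrame w)
    (ha : ∀ i : Fin m, {s | Φ.V w s ∈ LS (rootSet π i (i + 1))}.Infinite)
    (hb : (∀ (i j : Fin m) (hij : i ≠ j), ∃ c : K, c ≠ 0 ∧
        c ∈ elI (pull π (Φ.old.oGroup hΛ hw.col1 hw.col2).gl) hij) →
      ∃ (i j : Fin m) (hij : i ≠ j), ∃ κ : R, κ ≠ 0 ∧
        ∀ r : R, algebraMap R K (κ * r) ∈
          elI (pull π (Φ.old.oGroup hΛ hw.col1 hw.col2).gl) hij) : Φ.IsCanonical := by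
  refine isCanonical_of_old Φ (Φ.old.isCanonical_of_gl hΛ hw.col1 hw.col2 ?_)
  refine OGroup.gl_eq_top (R := R) hm hker hπ hicc (fun i j hij => ?_)
    (Φ.old.oGroup hΛ hw.col1 hw.col2) (Φ.old.full hΛ hw.col1 hw.col2) (fun i => ?_) hb
  · obtain ⟨y, hy, hym⟩ := hG _ _ hij 1
    refine ⟨_, ?_, y, hy, hym⟩
    rw [mul_one]
    exact (map_ne_zero_iff _ (IsFractionRing.injective R K)).2 hk
  · refine (ha i).mono fun s hs => ?_
    change Φ.V w s ∈ LS (rootSet π i (i + 1)) at hs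
    rw [← hw.XX s, rootSet_eq π (succ_ne hm i).1] at hs
    exact suppIn_of_LS hs

/-- **The root subgroup criterion.** -/
theorem root_criterion (hm : 3 ≤ m) {k : R} (hk : k ≠ 0)
    (hG : ∀ i j : Fin m, i ≠ j → ∀ r : R, ∃ x ∈ G,
      x.val = transvection i j (algebraMap R K (k * r)))
    (hπ : Function.Surjective π) (hker : π.ker ≤ Subgroup.center G) (hicc : IsICC Γ)
    (hΛ : IsICC Λ) (Φ : AmpIso Γ Λ n) :
    Φ.IsCanonical ↔ ∃ w, Φ.IsFrame w ∧
      (∀ i : Fin m, {s | Φ.V w s ∈ LS (rootSet π i (i + 1))}.Infinite) ∧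
      ∃ (i : Fin m) (κ : R), κ ≠ 0 ∧ ∀ (r : R) (x : G),
        x.1.val = transvection i (i + 1) (algebraMap R K (κ * r)) →
          ∃ s, Φ.V w s ∈ LS (rootSet π i (i + 1)) ∧ coef (Φ.V w s) (π x) ≠ 0 := by
  constructor
  · intro hcan
    obtain ⟨w, hw, h1, h2⟩ := hcan.root hm hk hG hπ hker hicc
    exact ⟨w, hw, h1, 0, 1, one_ne_zero, fun r x hx => h2 0 _ x hx⟩
  · rintro ⟨w, hw, ha, i, κ, hκ, hb⟩
    refine AmpIso.isCanonical_of_root hm hk hG hπ hker hicc hΛ hw ha fun _ =>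
      ⟨i, i + 1, (succ_ne hm i).1, κ * k, mul_ne_zero hκ hk, fun r => ?_⟩
    have hX := Φ.old.oGroup hΛ hw.col1 hw.col2
    obtain ⟨x, hx, hxm⟩ := hG i (i + 1) (succ_ne hm i).1 (κ * r)
    have hxm' : ((⟨x, hx⟩ : G) : GL (Fin m) K).val =
        transvection i (i + 1) (algebraMap R K (κ * (k * r))) := by
      rw [show κ * (k * r) = k * (κ * r) by ring]
      exact hxm
    obtain ⟨s, hs, hsc⟩ := hb (k * r) ⟨x, hx⟩ hxm'
    have hpair : Vale.Agent.P092.HeisPair (elSub π (succ_ne hm i).1 ⊤)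
        (elSub π (succ_ne hm (i + 1)).1 ⊤) :=
      heisPair_root hker (succ_ne hm i).1 (succ_ne hm (i + 1)).1 (succ_ne hm i).2.2
        fun i j hij => by
          obtain ⟨y, hy, hym⟩ := hG _ _ hij 1
          refine ⟨_, ?_, y, hy, hym⟩
          rw [mul_one]
          exact (map_ne_zero_iff _ (IsFractionRing.injective R K)).2 hk
    have hsupp : ∀ (j : Fin m) (t : Λ), Φ.V w t ∈ LS (rootSet π j (j + 1)) →
        t ∈ hX.supp (elSub π (succ_ne hm j).1 ⊤) := by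
      intro j t ht
      rw [← hw.XX t, rootSet_eq π (succ_ne hm j).1] at ht
      exact suppIn_of_LS ht
    obtain ⟨a, -, ζ, haζ⟩ := hX.eq_smul_u hpair ((ha i).mono fun t ht => hsupp i t ht)
      ((ha (i + 1)).mono fun t ht => hsupp (i + 1) t ht) (hsupp i s hs)
    rw [← hw.XX s, haζ, coef_po, coef_smul] at hsc
    have hπa : π ⟨x, hx⟩ = a := by
      by_contra hne
      rw [coef_u_ne hne, mul_zero] at hsc
      exact hsc rfl
    rw [mem_elI, inM_pull]
    refine ⟨⟨x, hx⟩, ?_, ?_⟩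
    · rw [hπa]
      exact hX.mem_gl_of_eq haζ
    · rw [mul_assoc]
      exact hxm'

/-- **The root subgroup criterion over `ℤ`.** -/
theorem root_criterion_int {m : ℕ} [NeZero m] (hm : 3 ≤ m) {G : Subgroup (GL (Fin m) ℚ)} {k : ℤ}
    (hk : k ≠ 0) (hG : ∀ i j : Fin m, i ≠ j → ∃ x ∈ G, x.val = transvection i j (k : ℚ))
    {π : G →* Γ} (hπ : Function.Surjective π) (hker : π.ker ≤ Subgroup.center G) (hicc : IsICC Γ)
    (hΛ : IsICC Λ) (Φ : AmpIso Γ Λ n) :
    Φ.IsCanonical ↔ ∃ w, Φ.IsFrame w ∧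
      ∀ i : Fin m, {s | Φ.V w s ∈ LS (rootSet π i (i + 1))}.Infinite := by
  have hG' : ∀ i j : Fin m, i ≠ j → ∀ r : ℤ, ∃ x ∈ G,
      x.val = transvection i j (algebraMap ℤ ℚ (k * r)) := by
    intro i j hij r
    have h1 : (k : ℚ) ∈ elI G hij := hG i j hij
    have h2 := (elI G hij).zsmul_mem h1 r
    have h3 : algebraMap ℤ ℚ (k * r) = r • (k : ℚ) := by
      simp [mul_comm]
    rw [h3]
    exact h2
  constructor
  · intro hcan
    obtain ⟨w, hw, h1, -⟩ := hcan.root hm hk hG' hπ hker hicc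
    exact ⟨w, hw, h1⟩
  · rintro ⟨w, hw, ha⟩
    refine AmpIso.isCanonical_of_root hm hk hG' hπ hker hicc hΛ hw ha fun hN => ?_
    obtain ⟨h01, -, -⟩ := succ_ne hm 0
    obtain ⟨c, hc, hcm⟩ := hN _ _ h01
    refine ⟨_, _, h01, c.num, Rat.num_ne_zero.2 hc, fun r => ?_⟩
    have h2 := (elI (pull π (Φ.old.oGroup hΛ hw.col1 hw.col2).gl) h01).zsmul_mem hcm (r * c.den)
    have h3 : algebraMap ℤ ℚ (c.num * r) = (r * (c.den : ℤ)) • c := by
      have h4 : (c.den : ℚ) * c = c.num := Rat.den_mul_eq_num c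
      simp only [algebraMap_int_eq, eq_intCast, Int.cast_mul, zsmul_eq_mul, Int.cast_natCast]
      rw [mul_assoc, h4, mul_comm]
    rw [h3]
    exact h2

end

end Vale.Agent.P092.Stmt
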