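import Mathlib

/-!
# Conjugates of elementary matrices (after Suslin)
-/

namespace Vale.Agent.P092

open Matrix

section ring

variable {A : Type} [Ring A]

theorem comm_one_add {X Y : A} (hXX : X * X = 0) (hYY : Y * Y = 0) (hYX : Y * X = 0) :
    (1 + X) * (1 + Y) * (1 - X) * (1 - Y) = 1 + X * Y := by
  have h1 : X * Y * X = 0 := by rw [mul_assoc, hYX, mul_zero]
  have h2 : X * Y * Y = 0 := by rw [mul_assoc, hYY, mul_zero]
  simp only [mul_add, add_mul, mul_sub, sub_mul, one_mul, mul_one, hXX, hYY, hYX, h1, h2, zero_mul]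
  abel

end ring

variable {ι K : Type} [Fintype ι] [DecidableEq ι] [CommRing K]

/-- `M` is the matrix of an element of the group `H`. -/
def InM (H : Subgroup (GL ι K)) (M : Matrix ι ι K) : Prop := ∃ x ∈ H, (x : Matrix ι ι K) = M

variable {H : Subgroup (GL ι K)}

theorem InM.one : InM H 1 := ⟨1, H.one_mem, rfl⟩

theorem InM.mul {M N : Matrix ι ι K} (hM : InM H M) (hN : InM H N) : InM H (M * N) := by
  obtain ⟨x, hx, rfl⟩ := hM
  obtain ⟨y, hy, rfl⟩ := hN
  exact ⟨x * y, H.mul_mem hx hy, rfl⟩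

theorem InM.inv {M N : Matrix ι ι K} (hM : InM H M) (hMN : M * N = 1) : InM H N := by
  obtain ⟨x, hx, rfl⟩ := hM
  refine ⟨x⁻¹, H.inv_mem hx, ?_⟩
  exact (Units.inv_eq_of_mul_eq_one_right hMN)

/-- The matrix `1 + u vᵀ`. -/
def EE (u v : ι → K) : Matrix ι ι K := 1 + vecMulVec u v

theorem EE_mul_left {u u' v : ι → K} (h : v ⬝ᵥ u' = 0) : EE u v * EE u' v = EE (u + u') v := by
  rw [EE, EE, EE, add_mul, one_mul, mul_add, mul_one, vecMulVec_mul_vecMulVec, h, zero_smul,
    vecMulVec_zero, add_vecMulVec]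
  abel

theorem EE_mul_right {u v v' : ι → K} (h : v ⬝ᵥ u = 0) : EE u v * EE u v' = EE u (v + v') := by
  rw [EE, EE, EE, add_mul, one_mul, mul_add, mul_one, vecMulVec_mul_vecMulVec, h, zero_smul,
    vecMulVec_zero, vecMulVec_add]
  abel

omit [Fintype ι] in
theorem EE_zero_left (v : ι → K) : EE (0 : ι → K) v = 1 := by
  rw [EE, zero_vecMulVec, add_zero]

omit [Fintype ι] in
theorem EE_zero_right (u : ι → K) : EE u (0 : ι → K) = 1 := by
  rw [EE, vecMulVec_zero, add_zero]

omit [Fintype ι] in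
theorem vecMulVec_single (i j : ι) (c d : K) :
    vecMulVec (Pi.single i c) (Pi.single j d) = Matrix.single i j (c * d) := by
  ext a b
  rw [vecMulVec_apply, Matrix.single_apply, Pi.single_apply, Pi.single_apply]
  by_cases ha : a = i
  · by_cases hb : b = j
    · simp [ha, hb]
    · simp [ha, hb, Ne.symm hb]
  · simp [ha, Ne.symm ha]

omit [Fintype ι] in
theorem EE_single (i j : ι) (c d : K) :
    EE (Pi.single i c) (Pi.single j d) = transvection i j (c * d) := by
  rw [EE, vecMulVec_single, transvection]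

theorem single_dot (m : ι) (c : K) (u : ι → K) : Pi.single m c ⬝ᵥ u = c * u m :=
  single_dotProduct _ _ _

theorem dot_single (m : ι) (c : K) (u : ι → K) : u ⬝ᵥ Pi.single m c = u m * c :=
  dotProduct_single _ _ _

section Elem

variable {I : AddSubgroup K}
  (hI : ∀ i j : ι, i ≠ j → ∀ c ∈ I, InM H (transvection i j c))

include hI

theorem inM_col (m : ι) (d : K) {u : ι → K} (hu : ∀ i, u i * d ∈ I) (hm : u m = 0) :
    InM H (EE u (Pi.single m d)) := by
  let S : AddSubmonoid (ι → K) :=
    { carrier := {x | x m = 0 ∧ InM H (EE x (Pi.single m d))}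
      zero_mem' := ⟨rfl, by rw [EE_zero_left]; exact InM.one⟩
      add_mem' := by
        rintro x y ⟨hx, hx'⟩ ⟨hy, hy'⟩
        refine ⟨by rw [Pi.add_apply, hx, hy, add_zero], ?_⟩
        rw [← EE_mul_left (by rw [single_dot, hy, mul_zero])]
        exact hx'.mul hy' }
  have h1 : u ∈ S := by
    rw [← Finset.univ_sum_single u]
    refine S.sum_mem fun i _ => ?_
    by_cases him : i = m
    · rw [him, hm, Pi.single_zero]
      exact S.zero_mem
    · refine ⟨Pi.single_eq_of_ne (Ne.symm him) _, ?_⟩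
      rw [EE_single]
      exact hI i m him _ (hu i)
  exact h1.2

theorem inM_row (m : ι) (d : K) {v : ι → K} (hv : ∀ i, d * v i ∈ I) (hm : v m = 0) :
    InM H (EE (Pi.single m d) v) := by
  let S : AddSubmonoid (ι → K) :=
    { carrier := {x | x m = 0 ∧ InM H (EE (Pi.single m d) x)}
      zero_mem' := ⟨rfl, by rw [EE_zero_right]; exact InM.one⟩
      add_mem' := by
        rintro x y ⟨hx, hx'⟩ ⟨hy, hy'⟩
        refine ⟨by rw [Pi.add_apply, hx, hy, add_zero], ?_⟩
        rw [← EE_mul_right (by rw [dot_single, hx, zero_mul])]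
        exact hx'.mul hy' }
  have h1 : v ∈ S := by
    rw [← Finset.univ_sum_single v]
    refine S.sum_mem fun i _ => ?_
    by_cases him : i = m
    · rw [him, hm, Pi.single_zero]
      exact S.zero_mem
    · refine ⟨Pi.single_eq_of_ne (Ne.symm him) _, ?_⟩
      rw [EE_single]
      exact hI m i (Ne.symm him) _ (hv i)
  exact h1.2

theorem inM_orth (m : ι) {a b : ι → K} (ha : ∀ i, a i ∈ I) (hb : ∀ i, b i ∈ I) (ham : a m = 0)
    (hbm : b m = 0) (hab : b ⬝ᵥ a = 0) : InM H (EE a b) := by
  have h1 : InM H (EE a (Pi.single m 1)) :=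
    inM_col hI m 1 (fun i => by rw [mul_one]; exact ha i) ham
  have h2 : InM H (EE (Pi.single m 1) b) :=
    inM_row hI m 1 (fun i => by rw [one_mul]; exact hb i) hbm
  have h3 : InM H (EE (-a) (Pi.single m 1)) := by
    refine inM_col hI m 1 (fun i => ?_) (by rw [Pi.neg_apply, ham, neg_zero])
    rw [mul_one]
    exact I.neg_mem (ha i)
  have h4 : InM H (EE (Pi.single m 1) (-b)) := by
    refine inM_row hI m 1 (fun i => ?_) (by rw [Pi.neg_apply, hbm, neg_zero])
    rw [one_mul]
    exact I.neg_mem (hb i)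
  have h5 : EE a (Pi.single m 1) * EE (Pi.single m 1) b * EE (-a) (Pi.single m 1) *
      EE (Pi.single m 1) (-b) = EE a b := by
    have h6 := comm_one_add (X := vecMulVec a (Pi.single m (1 : K)))
      (Y := vecMulVec (Pi.single m (1 : K)) b)
      (by rw [vecMulVec_mul_vecMulVec, single_dot, ham, mul_zero, zero_smul, vecMulVec_zero])
      (by rw [vecMulVec_mul_vecMulVec, dot_single, hbm, zero_mul, zero_smul, vecMulVec_zero])
      (by rw [vecMulVec_mul_vecMulVec, hab, zero_smul, vecMulVec_zero])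
    rw [vecMulVec_mul_vecMulVec a, single_dot, Pi.single_eq_same, mul_one, one_smul] at h6
    rw [EE, EE, EE, EE, EE, neg_vecMulVec, vecMulVec_neg, ← sub_eq_add_neg, ← sub_eq_add_neg]
    exact h6
  rw [← h5]
  exact ((h1.mul h2).mul h3).mul h4

/-- The matrix `1 + s u (u_j e_i - u_i e_j)ᵀ`. -/
theorem inM_pair {i j m : ι} (hij : i ≠ j) (him : i ≠ m) (hjm : j ≠ m) (u : ι → K) {s p q : K}
    (hs : s = p * q) (hp : ∀ l, p * u l ∈ I) (hq : ∀ l, q * u l ∈ I)
    (hsu : ∀ l l', s * u l * u l' ∈ I) :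
    InM H (EE u (s • (Pi.single i (u j) - Pi.single j (u i)))) := by
  set y : ι → K := Pi.single i (u j) - Pi.single j (u i) with hy
  have hyl : ∀ l, l ≠ i → l ≠ j → y l = 0 := by
    intro l hi hj
    rw [hy, Pi.sub_apply, Pi.single_eq_of_ne hi, Pi.single_eq_of_ne hj, sub_zero]
  have hyI : ∀ (c : K), (∀ l, c * u l ∈ I) → ∀ l, c * y l ∈ I := by
    intro c hc l
    by_cases hli : l = i
    · rw [hy, hli, Pi.sub_apply, Pi.single_eq_same, Pi.single_eq_of_ne hij, sub_zero]
      exact hc j
    · by_cases hlj : l = j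
      · rw [hy, hlj, Pi.sub_apply, Pi.single_eq_same, Pi.single_eq_of_ne hij.symm, zero_sub,
          mul_neg]
        exact I.neg_mem (hc i)
      · rw [hyl l hli hlj, mul_zero]
        exact I.zero_mem
  let S : AddSubmonoid (ι → K) :=
    { carrier := {x | y ⬝ᵥ x = 0 ∧ InM H (EE x (s • y))}
      zero_mem' := ⟨dotProduct_zero _, by rw [EE_zero_left]; exact InM.one⟩
      add_mem' := by
        rintro x x' ⟨hx, hx'⟩ ⟨hz, hz'⟩
        refine ⟨by rw [dotProduct_add, hx, hz, add_zero], ?_⟩
        rw [← EE_mul_left (by rw [smul_dotProduct, hz, smul_zero])]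
        exact hx'.mul hz' }
  have hS1 : ∀ l, l ≠ i → l ≠ j → Pi.single l (u l) ∈ S := by
    intro l hi hj
    refine ⟨by rw [dot_single, hyl l hi hj, zero_mul], ?_⟩
    refine inM_row hI l (u l) (fun l' => ?_) ?_
    · rw [Pi.smul_apply, smul_eq_mul, ← mul_assoc]
      refine hyI (u l * s) (fun l'' => ?_) l'
      rw [mul_comm (u l)]
      exact hsu l l''
    · rw [Pi.smul_apply, hyl l hi hj, smul_zero]
  have hS2 : Pi.single i (u i) + Pi.single j (u j) ∈ S := by
    have h1 : y ⬝ᵥ (Pi.single i (u i) + Pi.single j (u j)) = 0 := by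
      rw [dotProduct_add, dot_single, dot_single, hy, Pi.sub_apply, Pi.sub_apply,
        Pi.single_eq_same, Pi.single_eq_same, Pi.single_eq_of_ne hij, Pi.single_eq_of_ne hij.symm]
      ring
    refine ⟨h1, ?_⟩
    have h2 : EE (Pi.single i (u i) + Pi.single j (u j)) (s • y) =
        EE (p • (Pi.single i (u i) + Pi.single j (u j))) (q • y) := by
      rw [EE, EE, smul_vecMulVec, vecMulVec_smul, vecMulVec_smul, smul_smul, hs]
    rw [h2]
    refine inM_orth hI m (fun l => ?_) (fun l => ?_) ?_ ?_ ?_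
    · rw [Pi.smul_apply, smul_eq_mul, Pi.add_apply]
      by_cases hli : l = i
      · rw [hli, Pi.single_eq_same, Pi.single_eq_of_ne hij, add_zero]
        exact hp i
      · by_cases hlj : l = j
        · rw [hlj, Pi.single_eq_same, Pi.single_eq_of_ne hij.symm, zero_add]
          exact hp j
        · rw [Pi.single_eq_of_ne hli, Pi.single_eq_of_ne hlj, add_zero, mul_zero]
          exact I.zero_mem
    · rw [Pi.smul_apply, smul_eq_mul]
      exact hyI q hq l
    · rw [Pi.smul_apply, Pi.add_apply, Pi.single_eq_of_ne him.symm, Pi.single_eq_of_ne hjm.symm,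
        add_zero, smul_zero]
    · rw [Pi.smul_apply, hyl m him.symm hjm.symm, smul_zero]
    · rw [smul_dotProduct, dotProduct_smul, h1, smul_zero, smul_zero]
  have hu : u = (Pi.single i (u i) + Pi.single j (u j)) +
      ∑ l ∈ Finset.univ \ {i, j}, Pi.single l (u l) := by
    conv_lhs => rw [← Finset.univ_sum_single u]
    rw [← Finset.sum_pair (f := fun l => (Pi.single l (u l) : ι → K)) hij, add_comm,
      Finset.sum_sdiff (Finset.subset_univ _)]
  have h1 : u ∈ S := by
    rw [hu]
    refine S.add_mem hS2 (S.sum_mem fun l hl => ?_)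
    simp only [Finset.mem_sdiff, Finset.mem_univ, Finset.mem_insert, Finset.mem_singleton,
      true_and, not_or] at hl
    exact hS1 l hl.1 hl.2
  exact h1.2

/-- **Suslin's factorization.** -/
theorem inM_suslin (h3 : ∀ i j : ι, ∃ m, i ≠ m ∧ j ≠ m) {u v w : ι → K} (hvu : v ⬝ᵥ u = 0)
    (hwu : w ⬝ᵥ u = 1) (t : K)
    (hs : ∀ i j, ∃ p q, t * (v i * w j) = p * q ∧ (∀ l, p * u l ∈ I) ∧ (∀ l, q * u l ∈ I) ∧
      ∀ l l', t * (v i * w j) * u l * u l' ∈ I) : InM H (EE u (t • v)) := by
  let S : AddSubmonoid (ι → K) :=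
    { carrier := {x | x ⬝ᵥ u = 0 ∧ InM H (EE u x)}
      zero_mem' := ⟨zero_dotProduct _, by rw [EE_zero_right]; exact InM.one⟩
      add_mem' := by
        rintro x x' ⟨hx, hx'⟩ ⟨hz, hz'⟩
        refine ⟨by rw [add_dotProduct, hx, hz, add_zero], ?_⟩
        rw [← EE_mul_right hx]
        exact hx'.mul hz' }
  have h1 : t • v = ∑ i, ∑ j, (t * (v i * w j)) •
      (Pi.single i (u j) - Pi.single j (u i) : ι → K) := by
    have hA : ∑ i, ∑ j, (t * (v i * w j)) • (Pi.single i (u j) : ι → K) = t • v := by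
      funext l
      simp only [Finset.sum_apply, Pi.smul_apply, Pi.single_apply, smul_eq_mul, mul_ite, mul_zero]
      rw [Finset.sum_eq_single l]
      · simp only [if_true]
        have : ∑ j, t * (v l * w j) * u j = t * v l * (w ⬝ᵥ u) := by
          rw [dotProduct, Finset.mul_sum]
          exact Finset.sum_congr rfl fun j _ => by ring
        rw [this, hwu, mul_one]
      · intro b _ hb
        exact Finset.sum_eq_zero fun j _ => if_neg (Ne.symm hb)
      · intro h
        exact absurd (Finset.mem_univ _) h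
    have hB : ∑ i, ∑ j, (t * (v i * w j)) • (Pi.single j (u i) : ι → K) = 0 := by
      funext l
      simp only [Finset.sum_apply, Pi.smul_apply, Pi.single_apply, smul_eq_mul, mul_ite, mul_zero,
        Pi.zero_apply]
      have : ∀ i, ∑ j, (if l = j then t * (v i * w j) * u i else 0) = t * (v i * w l) * u i :=
        fun i => by simp
      rw [Finset.sum_congr rfl fun i _ => this i]
      have h4 : ∑ i, t * (v i * w l) * u i = t * w l * (v ⬝ᵥ u) := by
        rw [dotProduct, Finset.mul_sum]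
        exact Finset.sum_congr rfl fun j _ => by ring
      rw [h4, hvu, mul_zero]
    simp only [smul_sub, Finset.sum_sub_distrib]
    rw [hA, hB, sub_zero]
  have h2 : t • v ∈ S := by
    rw [h1]
    refine S.sum_mem fun i _ => S.sum_mem fun j _ => ?_
    by_cases hij : i = j
    · subst hij
      rw [sub_self, smul_zero]
      exact S.zero_mem
    · obtain ⟨m, him, hjm⟩ := h3 i j
      obtain ⟨p, q, hpq, hp, hq, hsu⟩ := hs i j
      refine ⟨?_, inM_pair hI hij him hjm u hpq hp hq hsu⟩
      rw [smul_dotProduct, sub_dotProduct, single_dot, single_dot, mul_comm (u j), sub_self,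
        smul_zero]
  exact h2.2

end Elem

end Vale.Agent.P092
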