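import Vale.Agent.P092.H414.PreGood

/-!
# Step 1: the averaged operator
-/

namespace Vale.Agent.P092

open scoped InnerProductSpace ENNReal ComplexConjugate ComplexOrder
open ContinuousLinearMap InnerProductSpace Filter Topology

noncomputable section

section general

variable {τ : Type} {K : Type} [NormedAddCommGroup K] [InnerProductSpace ℂ K]

omit [InnerProductSpace ℂ K] in
theorem enorm_sq_eq_ofReal (z : K) : ‖z‖ₑ ^ 2 = ENNReal.ofReal (‖z‖ ^ 2) := by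
  rw [ENNReal.ofReal_pow (norm_nonneg _), ofReal_norm]

theorem enorm_parallelogram (x y : K) :
    ‖x + y‖ₑ ^ 2 + ‖x - y‖ₑ ^ 2 = 2 * ‖x‖ₑ ^ 2 + 2 * ‖y‖ₑ ^ 2 := by
  have h := parallelogram_law_with_norm ℂ x y
  have h2 : (2 : ℝ≥0∞) = ENNReal.ofReal 2 := by simp
  rw [enorm_sq_eq_ofReal, enorm_sq_eq_ofReal, enorm_sq_eq_ofReal, enorm_sq_eq_ofReal, h2,
    ← ENNReal.ofReal_mul (by norm_num), ← ENNReal.ofReal_mul (by norm_num),
    ← ENNReal.ofReal_add (by positivity) (by positivity),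
    ← ENNReal.ofReal_add (by positivity) (by positivity)]
  congr 1
  nlinarith

/-- The square sum of `T` over a family `t`. -/
def nL (t : τ → K) (T : K →L[ℂ] K) : ℝ≥0∞ := ∑' p, ‖T (t p)‖ₑ ^ 2

theorem nL_parallelogram (t : τ → K) (A B : K →L[ℂ] K) :
    nL t (A + B) + nL t (A - B) = 2 * nL t A + 2 * nL t B := by
  simp only [nL]
  rw [← ENNReal.tsum_add, ← ENNReal.tsum_mul_left, ← ENNReal.tsum_mul_left, ← ENNReal.tsum_add]
  exact tsum_congr fun p => enorm_parallelogram _ _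

theorem nL_smul (t : τ → K) (c : ℂ) (A : K →L[ℂ] K) : nL t (c • A) = ‖c‖ₑ ^ 2 * nL t A := by
  simp only [nL]
  rw [← ENNReal.tsum_mul_left]
  refine tsum_congr fun p => ?_
  rw [_root_.smul_apply, enorm_smul, mul_pow]

theorem nL_half (t : τ → K) (A B : K →L[ℂ] K) :
    4 * nL t ((1 / 2 : ℂ) • A + (1 / 2 : ℂ) • B) = nL t (A + B) := by
  have h : A + B = (2 : ℂ) • ((1 / 2 : ℂ) • A + (1 / 2 : ℂ) • B) := by
    rw [smul_add, smul_smul, smul_smul]
    norm_num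
  rw [h, nL_smul]
  congr 1
  rw [enorm_sq_eq_ofReal]
  norm_num

theorem enorm_apply_le_nL (t : τ → K) (A : K →L[ℂ] K) (p : τ) : ‖A (t p)‖ₑ ^ 2 ≤ nL t A :=
  ENNReal.le_tsum p

/-- Elements of a midpoint-convex set with almost minimal `nL` are close. -/
theorem nL_sub_le {𝒦 : Set (K →L[ℂ] K)} {t : τ → K}
    (hconv : ∀ A ∈ 𝒦, ∀ B ∈ 𝒦, ((1 / 2 : ℂ) • A + (1 / 2 : ℂ) • B) ∈ 𝒦)
    {δ η : ℝ≥0∞} (hδ : δ ≠ ∞) (hmin : ∀ A ∈ 𝒦, δ ≤ nL t A) {A B : K →L[ℂ] K} (hA : A ∈ 𝒦)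
    (hB : B ∈ 𝒦) (hA' : nL t A ≤ δ + η) (hB' : nL t B ≤ δ + η) : nL t (A - B) ≤ 4 * η := by
  have h1 := nL_parallelogram t A B
  rw [← nL_half] at h1
  have h2 : 4 * δ + nL t (A - B) ≤ 4 * δ + 4 * η := by
    calc 4 * δ + nL t (A - B)
        ≤ 4 * nL t ((1 / 2 : ℂ) • A + (1 / 2 : ℂ) • B) + nL t (A - B) := by
          gcongr
          exact hmin _ (hconv A hA B hB)
      _ = 2 * nL t A + 2 * nL t B := h1
      _ ≤ 2 * (δ + η) + 2 * (δ + η) := by gcongr
      _ = 4 * δ + 4 * η := by ring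
  exact (ENNReal.add_le_add_iff_left (by finiteness)).1 h2

variable [CompleteSpace K]

theorem norm_le_one_of_isPositive {T : K →L[ℂ] K} (h0 : T.IsPositive) (h1 : (1 - T).IsPositive) :
    ‖T‖ ≤ 1 := by
  have h0' : 0 ≤ T := (ContinuousLinearMap.nonneg_iff_isPositive T).2 h0
  exact (CStarAlgebra.norm_le_one_iff_of_nonneg T h0').2 ((ContinuousLinearMap.le_def _ _).2 h1)

omit [CompleteSpace K] in
theorem cauchySeq_of_dense {Tm : ℕ → K →L[ℂ] K} (hb : ∀ m, ‖Tm m‖ ≤ 1) {S : Set K}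
    (hS : (Submodule.span ℂ S).topologicalClosure = ⊤)
    (h : ∀ x ∈ S, CauchySeq fun m => Tm m x) (x : K) : CauchySeq fun m => Tm m x := by
  have h1 : ∀ x ∈ Submodule.span ℂ S, CauchySeq fun m => Tm m x := by
    intro x hx
    induction hx using Submodule.span_induction with
    | mem x hx => exact h x hx
    | zero => simpa using (cauchySeq_const (0 : K))
    | add x y _ _ hx hy =>
      have e : (fun m => Tm m (x + y)) = (fun m => Tm m x) + fun m => Tm m y := by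
        ext m
        simp
      rw [e]
      exact hx.add hy
    | smul c x _ hx =>
      have e : (fun m => Tm m (c • x)) = fun m => c • Tm m x := by
        ext m
        simp
      rw [e]
      exact (uniformContinuous_const_smul c).comp_cauchySeq hx
  have hx : x ∈ closure ((Submodule.span ℂ S : Submodule ℂ K) : Set K) := by
    rw [← Submodule.topologicalClosure_coe, hS]
    trivial
  rw [Metric.cauchySeq_iff']
  intro ε hε
  obtain ⟨y, hy, hxy⟩ := Metric.mem_closure_iff.1 hx (ε / 3) (by positivity)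
  obtain ⟨N, hN⟩ := Metric.cauchySeq_iff'.1 (h1 y hy) (ε / 3) (by positivity)
  refine ⟨N, fun n hn => ?_⟩
  have hle : ∀ m, dist (Tm m x) (Tm m y) ≤ dist x y := by
    intro m
    rw [dist_eq_norm, dist_eq_norm, ← map_sub]
    calc ‖Tm m (x - y)‖ ≤ ‖Tm m‖ * ‖x - y‖ := (Tm m).le_opNorm _
      _ ≤ 1 * ‖x - y‖ := by
          gcongr
          exact hb m
      _ = ‖x - y‖ := one_mul _
  calc dist (Tm n x) (Tm N x)
      ≤ dist (Tm n x) (Tm n y) + dist (Tm n y) (Tm N y) + dist (Tm N y) (Tm N x) :=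
        dist_triangle4 _ _ _ _
    _ ≤ dist x y + dist (Tm n y) (Tm N y) + dist x y := by
        gcongr
        · exact hle n
        · rw [dist_comm]
          exact hle N
    _ < ε / 3 + ε / 3 + ε / 3 := by
        gcongr
        exact hN n hn
    _ = ε := by ring

end general

variable {ι κ τ Γ Λ : Type} [Group Γ] [Group Λ]
  {H : Type} [NormedAddCommGroup H] [InnerProductSpace ℂ H] [CompleteSpace H]
  (b : HilbertBasis ι ℂ H) (U : Γ →* unitary (H →L[ℂ] H)) (V : Λ →* unitary (H →L[ℂ] H))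

/-- Abstract form of Step 1. -/
theorem exists_goodOp (hUV : ∀ g s, Commute (U g : H →L[ℂ] H) (V s : H →L[ℂ] H))
    {𝒦 : Set (HS ι H →L[ℂ] HS ι H)} (hpre : ∀ T ∈ 𝒦, PreGood b V T)
    (hconv : ∀ A ∈ 𝒦, ∀ B ∈ 𝒦, ((1 / 2 : ℂ) • A + (1 / 2 : ℂ) • B) ∈ 𝒦)
    (hinv : ∀ T ∈ 𝒦, ∀ g,
      Ad b (U g : H →L[ℂ] H) * T * Ad b (U g⁻¹ : H →L[ℂ] H) ∈ 𝒦)
    {t : τ → HS ι H} (ht : IsFrame (AdRep b V) t)
    {T0 : HS ι H →L[ℂ] HS ι H} (hT0 : T0 ∈ 𝒦) (hfin : nL t T0 ≠ ∞)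
    {ε : ℝ≥0∞} (hε0 : ε ≠ 0) (hε : ∀ T ∈ 𝒦, ε ≤ nL t T) : ∃ T, GoodOp b U V T := by
  -- the infimum and a minimizing sequence
  obtain ⟨δ, hδ⟩ : ∃ δ, δ = ⨅ T : 𝒦, nL t (T : HS ι H →L[ℂ] HS ι H) := ⟨_, rfl⟩
  have hmin : ∀ A ∈ 𝒦, δ ≤ nL t A := fun A hA => hδ ▸ iInf_le (fun T : 𝒦 => nL t T.1) ⟨A, hA⟩
  have hδtop : δ ≠ ∞ := ne_top_of_le_ne_top hfin (hmin T0 hT0)
  let η : ℕ → ℝ≥0∞ := fun m => ((m + 1 : ℕ) : ℝ≥0∞)⁻¹
  have hη0 : ∀ m, η m ≠ 0 := fun m => ENNReal.inv_ne_zero.2 (ENNReal.natCast_ne_top _)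
  have hηanti : Antitone η := by
    intro m n hmn
    refine ENNReal.inv_le_inv.2 ?_
    exact_mod_cast Nat.succ_le_succ hmn
  have hηlim : Tendsto η atTop (𝓝 0) :=
    ENNReal.tendsto_inv_nat_nhds_zero.comp (tendsto_add_atTop_nat 1)
  have hseq : ∀ m : ℕ, ∃ T ∈ 𝒦, nL t T ≤ δ + η m := by
    intro m
    have hlt : δ < δ + η m := ENNReal.lt_add_right hδtop (hη0 m)
    nth_rewrite 1 [hδ] at hlt
    obtain ⟨T, hT⟩ := iInf_lt_iff.1 hlt
    exact ⟨T.1, T.2, hT.le⟩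
  choose Tm hTm hTmle using hseq
  have hle' : ∀ m n, m ≤ n → nL t (Tm n) ≤ δ + η m := fun m n hmn =>
    (hTmle n).trans (by gcongr; exact hηanti hmn)
  have hclose : ∀ m n N, N ≤ m → N ≤ n → nL t (Tm m - Tm n) ≤ 4 * η N := fun m n N hm hn =>
    nL_sub_le hconv hδtop hmin (hTm m) (hTm n) (hle' N m hm) (hle' N n hn)
  -- the total set
  have htot := total_of_isParseval ht
  have hcomm : ∀ m s x, Tm m ((AdRep b V s : HS ι H →L[ℂ] HS ι H) x)
      = (AdRep b V s : HS ι H →L[ℂ] HS ι H) (Tm m x) := fun m s x =>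
    (DFunLike.congr_fun ((hpre _ (hTm m)).commV s).eq x).symm
  have hηlim4 : Tendsto (fun m => 4 * η m) atTop (𝓝 0) := by
    have := ENNReal.Tendsto.const_mul (a := 4) hηlim (Or.inr (by simp))
    simpa using this
  -- convergence to 0 from smallness of `nL`
  have hzero : ∀ (D : ℕ → HS ι H →L[ℂ] HS ι H), (∀ m, nL t (D m) ≤ 4 * η m) → ∀ p,
      Tendsto (fun m => D m (t p)) atTop (𝓝 0) := by
    intro D hD p
    rw [tendsto_zero_iff_norm_tendsto_zero]
    have h1 : Tendsto (fun m => ‖D m (t p)‖ₑ ^ 2) atTop (𝓝 0) :=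
      tendsto_of_tendsto_of_tendsto_of_le_of_le tendsto_const_nhds hηlim4
        (fun m => zero_le) fun m => (enorm_apply_le_nL t (D m) p).trans (hD m)
    have h2 : Tendsto (fun m => ‖D m (t p)‖ ^ 2) atTop (𝓝 0) := by
      have h3 := (ENNReal.tendsto_toReal ENNReal.zero_ne_top).comp h1
      simpa [Function.comp_def] using h3
    have h4 := h2.sqrt
    simpa [Real.sqrt_sq_eq_abs] using h4
  have hcauchy0 : ∀ p, CauchySeq fun m => Tm m (t p) := by
    intro p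
    have hb4 : Tendsto (fun N : ℕ => Real.sqrt (4 * η N).toReal) atTop (𝓝 0) := by
      have h3 := ((ENNReal.tendsto_toReal ENNReal.zero_ne_top).comp hηlim4).sqrt
      simpa [Function.comp_def] using h3
    refine cauchySeq_of_le_tendsto_0 _ (fun m n N hm hn => ?_) hb4
    have h1 := (enorm_apply_le_nL t (Tm m - Tm n) p).trans (hclose m n N hm hn)
    have hfinN : 4 * η N ≠ ∞ :=
      ENNReal.mul_ne_top (by simp) (ENNReal.inv_ne_top.2 (by simp))
    have h2 := (ENNReal.toReal_le_toReal (by finiteness) hfinN).2 h1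
    rw [dist_eq_norm]
    refine Real.le_sqrt_of_sq_le ?_
    simpa using h2
  have hbd : ∀ m, ‖Tm m‖ ≤ 1 := fun m =>
    norm_le_one_of_isPositive (hpre _ (hTm m)).pos (hpre _ (hTm m)).le_one
  have hcauchy : ∀ x, CauchySeq fun m => Tm m x := by
    refine cauchySeq_of_dense hbd htot ?_
    rintro _ ⟨⟨p, s⟩, rfl⟩
    simp only [hcomm]
    exact (hcauchy0 p).map (AdRep b V s : HS ι H →L[ℂ] HS ι H).uniformContinuous
  choose f hf using fun x => cauchySeq_tendsto_of_complete (hcauchy x)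
  have hf' : Tendsto (fun m x => Tm m x) atTop (𝓝 f) := tendsto_pi_nhds.2 hf
  let T : HS ι H →L[ℂ] HS ι H := continuousLinearMapOfTendsto Tm hf'
  have hT : ∀ x, Tendsto (fun m => Tm m x) atTop (𝓝 (T x)) := hf
  have hPre : PreGood b V T := PreGood.of_tendsto (fun m => hpre _ (hTm m)) hT
  refine ⟨T, { pos := hPre.pos, le_one := hPre.le_one, symm := hPre.symm, commV := hPre.commV
               fbound := hPre.fbound, pbound := hPre.pbound, commU := ?_, ne_zero := ?_ }⟩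
  · intro g
    -- the translated sequence
    have hWW'0 : Ad b (U g : H →L[ℂ] H) * Ad b (U g⁻¹ : H →L[ℂ] H) = 1 := by
      rw [← Ad_mul, ← Submonoid.coe_mul, ← map_mul, mul_inv_cancel, map_one]
      exact Ad_one b
    have hW'W0 : Ad b (U g⁻¹ : H →L[ℂ] H) * Ad b (U g : H →L[ℂ] H) = 1 := by
      rw [← Ad_mul, ← Submonoid.coe_mul, ← map_mul, inv_mul_cancel, map_one]
      exact Ad_one b
    have hWV0 : ∀ s, Commute (AdRep b V s : HS ι H →L[ℂ] HS ι H)
        (Ad b (U g⁻¹ : H →L[ℂ] H)) := by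
      intro s
      show Ad b (V s : H →L[ℂ] H) * Ad b (U g⁻¹ : H →L[ℂ] H)
        = Ad b (U g⁻¹ : H →L[ℂ] H) * Ad b (V s : H →L[ℂ] H)
      rw [← Ad_mul, ← Ad_mul, (hUV g⁻¹ s).eq]
    have hnormW0 : ∀ x, ‖Ad b (U g : H →L[ℂ] H) x‖ₑ = ‖x‖ₑ := fun x =>
      rep_enorm (AdRep b U) g x
    have hinner0 : ∀ x y, ⟪Ad b (U g⁻¹ : H →L[ℂ] H) x, y⟫_ℂ
        = ⟪x, Ad b (U g : H →L[ℂ] H) y⟫_ℂ := by
      intro x y
      have h5 := rep_inner_left (AdRep b U) g⁻¹ x y
      rw [inv_inv] at h5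
      exact h5
    have hinvg : ∀ m, Ad b (U g : H →L[ℂ] H) * Tm m * Ad b (U g⁻¹ : H →L[ℂ] H) ∈ 𝒦 :=
      fun m => hinv _ (hTm m) g
    obtain ⟨W, hW⟩ : ∃ W, W = Ad b (U g : H →L[ℂ] H) := ⟨_, rfl⟩
    obtain ⟨W', hW'⟩ : ∃ W', W' = Ad b (U g⁻¹ : H →L[ℂ] H) := ⟨_, rfl⟩
    rw [← hW, ← hW'] at hWW'0 hW'W0 hinvg
    simp only [← hW'] at hWV0
    simp only [← hW] at hnormW0
    simp only [← hW, ← hW'] at hinner0
    rw [← hW]
    obtain ⟨Tm', hTm'eq⟩ : ∃ Tm' : ℕ → HS ι H →L[ℂ] HS ι H, ∀ m, Tm' m = W * Tm m * W' :=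
      ⟨_, fun _ => rfl⟩
    have hTm' : ∀ m, Tm' m ∈ 𝒦 := fun m => by rw [hTm'eq]; exact hinvg m
    have hTm'app : ∀ m x, Tm' m x = W (Tm m (W' x)) := fun m x => by rw [hTm'eq]; rfl
    have hcomm' : ∀ m s x, Tm' m ((AdRep b V s : HS ι H →L[ℂ] HS ι H) x)
        = (AdRep b V s : HS ι H →L[ℂ] HS ι H) (Tm' m x) := fun m s x =>
      (DFunLike.congr_fun ((hpre _ (hTm' m)).commV s).eq x).symm
    have hframe' : IsFrame (AdRep b V) fun p => W' (t p) := by
      intro x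
      have h1 := ht (W x)
      rw [hnormW0] at h1
      rw [← h1]
      refine tsum_congr fun p => ?_
      have h3 : (AdRep b V p.2 : HS ι H →L[ℂ] HS ι H) (W' (t p.1))
          = W' ((AdRep b V p.2 : HS ι H →L[ℂ] HS ι H) (t p.1)) :=
        DFunLike.congr_fun (hWV0 p.2).eq (t p.1)
      show ‖⟪(AdRep b V p.2 : HS ι H →L[ℂ] HS ι H) (W' (t p.1)), x⟫_ℂ‖ₑ ^ 2
        = ‖⟪(AdRep b V p.2 : HS ι H →L[ℂ] HS ι H) (t p.1), W x⟫_ℂ‖ₑ ^ 2
      rw [h3, hinner0]
    have hnL : ∀ m, nL t (Tm' m) = nL t (Tm m) := by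
      intro m
      have h1 : nL t (Tm' m) = ∑' p, ‖Tm m (W' (t p))‖ₑ ^ 2 :=
        tsum_congr fun p => by rw [hTm'app, hnormW0]
      rw [h1]
      exact frame_indep (AdRep b V) hframe' ht (Tm m) fun s => (hpre _ (hTm m)).commV s
    have hdiff : ∀ m, nL t (Tm' m - Tm m) ≤ 4 * η m := fun m =>
      nL_sub_le hconv hδtop hmin (hTm' m) (hTm m) ((hnL m).le.trans (hTmle m)) (hTmle m)
    have hkey : ∀ p s, W (T (W' ((AdRep b V s : HS ι H →L[ℂ] HS ι H) (t p))))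
        = T ((AdRep b V s : HS ι H →L[ℂ] HS ι H) (t p)) := by
      intro p s
      have h1 : Tendsto (fun m => Tm' m ((AdRep b V s : HS ι H →L[ℂ] HS ι H) (t p))
          - Tm m ((AdRep b V s : HS ι H →L[ℂ] HS ι H) (t p))) atTop (𝓝 0) := by
        have h2 := ((AdRep b V s : HS ι H →L[ℂ] HS ι H).continuous.tendsto 0).comp
          (hzero _ hdiff p)
        rw [map_zero] at h2
        refine h2.congr fun m => ?_
        rw [hcomm', hcomm]
        exact (AdRep b V s : HS ι H →L[ℂ] HS ι H).map_sub (Tm' m (t p)) (Tm m (t p))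
      have h3 : Tendsto (fun m => Tm' m ((AdRep b V s : HS ι H →L[ℂ] HS ι H) (t p))
          - Tm m ((AdRep b V s : HS ι H →L[ℂ] HS ι H) (t p))) atTop
          (𝓝 (W (T (W' ((AdRep b V s : HS ι H →L[ℂ] HS ι H) (t p))))
            - T ((AdRep b V s : HS ι H →L[ℂ] HS ι H) (t p)))) := by
        refine Tendsto.sub ?_ (hT _)
        simp only [hTm'app]
        exact (W.continuous.tendsto _).comp (hT _)
      exact sub_eq_zero.1 (tendsto_nhds_unique h3 h1)
    have heq : W * T * W' = T := by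
      refine ContinuousLinearMap.ext_on
        (Submodule.dense_iff_topologicalClosure_eq_top.2 htot) ?_
      rintro _ ⟨⟨p, s⟩, rfl⟩
      exact hkey p s
    show W * T = T * W
    calc W * T = W * T * (W' * W) := by rw [hW'W0, mul_one]
      _ = (W * T * W') * W := (mul_assoc (W * T) W' W).symm
      _ = T * W := congrArg (· * W) heq
  · intro h0
    -- if `T = 0` the minimal value would be `0`
    have hsmall : ∀ m, nL t (Tm m) ≤ 4 * η m := by
      intro m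
      refine tsum_le_of_tendsto (f := fun n p => ‖(Tm m - Tm n) (t p)‖ₑ ^ 2) ?_ ?_
      · filter_upwards [eventually_ge_atTop m] with n hn
        exact hclose m n m le_rfl hn
      · intro p
        have h1 : Tendsto (fun n => (Tm m - Tm n) (t p)) atTop (𝓝 (Tm m (t p) - T (t p))) :=
          tendsto_const_nhds.sub (hT (t p))
        rw [h0] at h1
        have h2 : Tm m (t p) - (0 : HS ι H →L[ℂ] HS ι H) (t p) = Tm m (t p) := by simp
        rw [h2] at h1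
        exact (ENNReal.continuous_pow 2).continuousAt.tendsto.comp h1.enorm
    have h1 : ε ≤ 0 := ge_of_tendsto' hηlim4 fun m => (hε _ (hTm m)).trans (hsmall m)
    exact hε0 (le_antisymm h1 zero_le)

end

end Vale.Agent.P092
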