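import Vale.Agent.P092.H414.Step1
import Vale.Agent.P092.Defs

/-!
# Step 2: `T R_k T = 0` for `k ≠ 1`
-/

namespace Vale.Agent.P092

open scoped InnerProductSpace ENNReal ComplexConjugate ComplexOrder
open ContinuousLinearMap InnerProductSpace Filter Topology

noncomputable section

theorem enorm_sq_le_quad {K : Type} [NormedAddCommGroup K] [InnerProductSpace ℂ K]
    {T : K →L[ℂ] K} (h0 : T.IsPositive) (h1 : (1 - T).IsPositive)
    (W : K) : ‖T W‖ₑ ^ 2 ≤ quad T W := by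
  have h2 : 0 ≤ RCLike.re ⟪T W, (1 - T) (T W)⟫_ℂ := h1.re_inner_nonneg_right _
  have h3 : 0 ≤ RCLike.re ⟪W - T W, T (W - T W)⟫_ℂ := h0.re_inner_nonneg_right _
  have h4 : ⟪W, T (T W)⟫_ℂ = ⟪T W, T W⟫_ℂ := (h0.inner_left_eq_inner_right W (T W)).symm
  have h5 : RCLike.re ⟪T W, T W⟫_ℂ = ‖T W‖ ^ 2 := inner_self_eq_norm_sq _
  have h6 : (1 - T) (T W) = T W - T (T W) := rfl
  rw [h6, inner_sub_right, map_sub] at h2
  rw [map_sub, inner_sub_left, inner_sub_right, inner_sub_right, map_sub, map_sub, map_sub, h4]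
    at h3
  rw [enorm_sq_eq_ofReal, quad]
  refine ENNReal.ofReal_le_ofReal ?_
  linarith

variable {ι κ γ τ Γ Λ : Type} [Group Γ] [Group Λ]
  {H : Type} [NormedAddCommGroup H] [InnerProductSpace ℂ H] [CompleteSpace H]
  (b : HilbertBasis ι ℂ H) (U : Γ →* unitary (H →L[ℂ] H)) (V : Λ →* unitary (H →L[ℂ] H))

theorem op_Ad_rep (s : Λ) (Z : HS ι H) : op b (Ad b (V s : H →L[ℂ] H) Z)
    = (V s : H →L[ℂ] H) ∘L op b Z ∘L (V s⁻¹ : H →L[ℂ] H) := by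
  rw [op_Ad, adjoint_rep]

theorem rep_comp (s t : Λ) : (V s : H →L[ℂ] H) ∘L (V t : H →L[ℂ] H) = (V (s * t) : H →L[ℂ] H) := by
  rw [map_mul]; rfl

theorem rep_coe_mul (s t : Λ) :
    (V s : H →L[ℂ] H) * (V t : H →L[ℂ] H) = (V (s * t) : H →L[ℂ] H) := by
  rw [map_mul]; rfl

theorem rep_coe_one : (V 1 : H →L[ℂ] H) = 1 := by
  rw [map_one]; rfl

/-- `R_k Ad(U_g) = Ad(U_g) R_k`. -/
theorem rmul_Ad_comm (hUV : ∀ g s, Commute (U g : H →L[ℂ] H) (V s : H →L[ℂ] H)) (g : Γ) (k : Λ) :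
    Commute (Ad b (U g : H →L[ℂ] H)) (rmul b (V k : H →L[ℂ] H)) := by
  refine ContinuousLinearMap.ext fun Z => op_injective b ?_
  show op b (Ad b (U g : H →L[ℂ] H) (rmul b (V k : H →L[ℂ] H) Z))
    = op b (rmul b (V k : H →L[ℂ] H) (Ad b (U g : H →L[ℂ] H) Z))
  rw [op_Ad_rep, op_rmul, op_rmul, op_Ad_rep]
  have h : (V k : H →L[ℂ] H) ∘L (U g⁻¹ : H →L[ℂ] H)
      = (U g⁻¹ : H →L[ℂ] H) ∘L (V k : H →L[ℂ] H) := ((hUV g⁻¹ k).eq).symm
  simp only [comp_assoc, h]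

/-- `R_k Ad(V_s) = Ad(V_s) R_{s⁻¹ k s}`. -/
theorem rmul_Ad_conj (s k : Λ) (Z : HS ι H) :
    rmul b (V k : H →L[ℂ] H) (Ad b (V s : H →L[ℂ] H) Z)
      = Ad b (V s : H →L[ℂ] H) (rmul b (V (s⁻¹ * k * s) : H →L[ℂ] H) Z) := by
  refine op_injective b ?_
  rw [op_Ad_rep, op_rmul, op_rmul, op_Ad_rep]
  simp only [comp_assoc, rep_comp]
  congr 3
  group

/-- `R_k R_s = R_{s k}`. -/
theorem rmul_rmul (s k : Λ) (Z : HS ι H) :
    rmul b (V k : H →L[ℂ] H) (rmul b (V s : H →L[ℂ] H) Z)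
      = rmul b (V (s * k) : H →L[ℂ] H) Z := by
  refine op_injective b ?_
  rw [op_rmul, op_rmul, op_rmul, comp_assoc, rep_comp]

/-- A translate of a frame by a commuting unitary is a frame. -/
theorem IsFrame.translate {K : Type} [NormedAddCommGroup K] [InnerProductSpace ℂ K]
    [CompleteSpace K] {W : Γ →* unitary (K →L[ℂ] K)} {W' : Λ →* unitary (K →L[ℂ] K)}
    {t : τ → K} (ht : IsFrame W t) (s : Λ)
    (hcomm : ∀ g, Commute (W g : K →L[ℂ] K) (W' s : K →L[ℂ] K)) :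
    IsFrame W fun p => (W' s : K →L[ℂ] K) (t p) := by
  intro x
  have h1 := ht ((W' s⁻¹ : K →L[ℂ] K) x)
  rw [rep_enorm] at h1
  rw [← h1]
  refine tsum_congr fun p => ?_
  have h3 : (W p.2 : K →L[ℂ] K) ((W' s : K →L[ℂ] K) (t p.1))
      = (W' s : K →L[ℂ] K) ((W p.2 : K →L[ℂ] K) (t p.1)) :=
    DFunLike.congr_fun (hcomm p.2).eq (t p.1)
  show ‖⟪(W p.2 : K →L[ℂ] K) ((W' s : K →L[ℂ] K) (t p.1)), x⟫_ℂ‖ₑ ^ 2
    = ‖⟪(W p.2 : K →L[ℂ] K) (t p.1), (W' s⁻¹ : K →L[ℂ] K) x⟫_ℂ‖ₑ ^ 2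
  rw [h3, rep_inner_left]

variable {b U V}

theorem GoodOp.malnormal (hUV : ∀ g s, Commute (U g : H →L[ℂ] H) (V s : H →L[ℂ] H))
    {T : HS ι H →L[ℂ] HS ι H} (hT : GoodOp b U V T)
    {z : γ → H} (hz : IsFrame U z) (hzfin : ∑' i, ‖z i‖ₑ ^ 2 ≠ ∞) (hicc : IsICC Λ)
    (k : Λ) (hk : k ≠ 1) : T * rmul b (V k : H →L[ℂ] H) * T = 0 := by
  -- the frame of `HS` for `Ad U`
  let t : γ × ι → HS ι H := fun p => ten b (z p.1) (b p.2)
  have ht : IsFrame (AdRep b U) t := isFrame_ten b U hz (parseval_hilbertBasis b)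
  let A : Λ → HS ι H →L[ℂ] HS ι H := fun k => T * rmul b (V k : H →L[ℂ] H) * T
  have hTU : ∀ g, Commute (AdRep b U g : HS ι H →L[ℂ] HS ι H) T := hT.commU
  have hAU : ∀ g k, Commute (AdRep b U g : HS ι H →L[ℂ] HS ι H) (A k) := fun g k =>
    ((hTU g).mul_right (rmul_Ad_comm b U V hUV g k)).mul_right (hTU g)
  have hAapp : ∀ k x, A k x = T (rmul b (V k : H →L[ℂ] H) (T x)) := fun _ _ => rfl
  have hTV : ∀ s x, T (Ad b (V s : H →L[ℂ] H) x) = Ad b (V s : H →L[ℂ] H) (T x) := fun s x =>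
    (DFunLike.congr_fun (hT.commV s).eq x).symm
  -- the traces are constant along conjugacy classes
  have hconj : ∀ s k, nL t (A (s⁻¹ * k * s)) = nL t (A k) := by
    intro s k
    have hfr : IsFrame (AdRep b U) fun p => (AdRep b V s : HS ι H →L[ℂ] HS ι H) (t p) := by
      refine ht.translate s fun g => ?_
      show Ad b (U g : H →L[ℂ] H) * Ad b (V s : H →L[ℂ] H)
        = Ad b (V s : H →L[ℂ] H) * Ad b (U g : H →L[ℂ] H)
      rw [← Ad_mul, ← Ad_mul, (hUV g s).eq]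
    have h1 := frame_indep (AdRep b U) hfr ht (A k) fun g => hAU g k
    have h2 : ∀ p, ‖A k ((AdRep b V s : HS ι H →L[ℂ] HS ι H) (t p))‖ₑ
        = ‖A (s⁻¹ * k * s) (t p)‖ₑ := by
      intro p
      rw [hAapp, hAapp, AdRep_coe, hTV, rmul_Ad_conj, hTV]
      exact rep_enorm (AdRep b V) s _
    simp only [h2] at h1
    exact h1
  -- the sum of all traces is finite
  have hsum : ∑' k, nL t (A k) ≤ ∑' i, ‖z i‖ₑ ^ 2 := by
    calc ∑' k, nL t (A k)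
        = ∑' p : γ × ι, ∑' k, ‖A k (t p)‖ₑ ^ 2 := ENNReal.tsum_comm
      _ ≤ ∑' p : γ × ι, ∑' k, quad T (rmul b (V k : H →L[ℂ] H) (T (t p))) :=
          ENNReal.tsum_le_tsum fun p => ENNReal.tsum_le_tsum fun k =>
            enorm_sq_le_quad hT.pos hT.le_one _
      _ ≤ ∑' p : γ × ι, ‖T (t p)‖ₑ ^ 2 := ENNReal.tsum_le_tsum fun p => hT.fbound _
      _ ≤ ∑' p : γ × ι, quad T (t p) :=
          ENNReal.tsum_le_tsum fun p => enorm_sq_le_quad hT.pos hT.le_one _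
      _ = ∑' i, ∑' l, quad T (ten b (z i) (b l)) := ENNReal.tsum_prod'
      _ ≤ ∑' i, ‖z i‖ₑ ^ 2 := ENNReal.tsum_le_tsum fun i => hT.pbound _
  have hfin : ∑' k, nL t (A k) ≠ ∞ := ne_top_of_le_ne_top hzfin hsum
  have hzero : nL t (A k) = 0 := by
    by_contra hne
    have : Infinite {x : Λ | IsConj k x} := (hicc k hk).to_subtype
    have h1 : ∑' x : {x : Λ | IsConj k x}, nL t (A x) ≤ ∑' k, nL t (A k) :=
      ENNReal.tsum_comp_le_tsum_of_injective Subtype.val_injective _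
    have h2 : ∀ x : {x : Λ | IsConj k x}, nL t (A x) = nL t (A k) := by
      rintro ⟨x, hx⟩
      obtain ⟨s, hs⟩ := isConj_iff.1 hx
      have h3 := hconj s⁻¹ k
      rw [inv_inv, hs] at h3
      exact h3
    simp only [h2] at h1
    rw [ENNReal.tsum_const_eq_top_of_ne_zero hne] at h1
    exact hfin (top_le_iff.1 h1)
  have hzero' : ∀ p, A k (t p) = 0 := by
    intro p
    have h1 := ENNReal.tsum_eq_zero.1 hzero p
    simpa using h1
  refine ContinuousLinearMap.ext_on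
    (Submodule.dense_iff_topologicalClosure_eq_top.2 (total_of_isParseval ht)) ?_
  rintro _ ⟨⟨p, g⟩, rfl⟩
  show A k ((AdRep b U g : HS ι H →L[ℂ] HS ι H) (t p)) = 0
  have h1 : A k ((AdRep b U g : HS ι H →L[ℂ] HS ι H) (t p))
      = (AdRep b U g : HS ι H →L[ℂ] HS ι H) (A k (t p)) :=
    (DFunLike.congr_fun (hAU g k).eq (t p)).symm
  rw [h1, hzero', map_zero]

end

end Vale.Agent.P092
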