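import Vale.Agent.P092.H414.StmtEquiv
import Vale.Agent.P092.H418.CanWalk

/-!
# The exclusive dichotomy over the statement layer
-/

namespace Vale.Agent.P092.Stmt

open scoped InnerProductSpace ENNReal
open ContinuousLinearMap InnerProductSpace

noncomputable section

variable {Γ Λ : Type} [Group Γ] [Group Λ] {n : ℕ}

theorem up_sum_apply {m k l : ℕ} (x : Matrix (Fin m) (Fin k) (Vale.Agent.P092.LG Γ))
    (y : Matrix (Fin k) (Fin l) (Vale.Agent.P092.LG Γ)) (i : Fin m) (j : Fin l) :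
    up (x * y) i j = ∑ r, up x i r * up y r j := by
  rw [up_mul, Matrix.mul_apply]

theorem up_one_apply {m : ℕ} (i j : Fin m) :
    up (1 : Matrix (Fin m) (Fin m) (Vale.Agent.P092.LG Γ)) i j = if i = j then 1 else 0 := by
  by_cases h : i = j
  · subst h
    rw [if_pos rfl, up, Matrix.one_apply_eq]
    rfl
  · rw [if_neg h, up, Matrix.one_apply_ne h]
    rfl

namespace AmpIso

variable (Φ : AmpIso Γ Λ n)

theorem old_isCanonical (h : Φ.IsCanonical) : Φ.old.IsCanonical := by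
  obtain ⟨ht, δ, χ, w, hw, hw1, hw2, hw3⟩ := h
  refine ⟨by rw [Φ.old_t, ht], δ, χ, down (fun i _ => w i) (fun i _ => hw i), ?_, ?_, ?_⟩
  · apply up_injective
    ext i j : 2
    rw [up_sum_apply, up_one_apply, if_pos (Subsingleton.elim i j)]
    exact hw1
  · apply up_injective
    ext i j : 2
    rw [up_sum_apply, Fin.sum_univ_one]
    exact hw2 i j
  · intro g
    apply up_injective
    ext i j : 2
    rw [up_smul, Matrix.smul_apply, up_sum_apply, Fin.sum_univ_one, up_sum_apply,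
      Fin.sum_univ_one]
    exact hw3 g i j

theorem old_isCanonical_iff : Φ.old.IsCanonical ↔ Φ.IsCanonical :=
  ⟨Φ.isCanonical_of_old, Φ.old_isCanonical⟩

end AmpIso

/-- The exclusive dichotomy over the definitions of the statement layer. -/
theorem PropertyT.exclusive [Countable Γ] (hicc : IsICC Γ)
    (hT : PropertyT Γ) (S : Finset Γ) (h1 : (1 : Γ) ∈ S)
    (hS : Subgroup.closure (S : Set Γ) = ⊤) :
    ∃ c : ℝ≥0∞, c < 1 ∧ ∀ (Λ : Type) [Group Λ], IsICC Λ → ∀ (n : ℕ) (Φ : AmpIso Γ Λ n),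
      (Φ.IsCanonical ∧ ∃ ε : ℝ≥0∞, ε ≠ 0 ∧ ∀ k : ℕ, ε ≤ walkAvg S k Φ.fourth) ∨
      (¬ Φ.IsCanonical ∧ ∀ k : ℕ, walkAvg S k Φ.fourth ≤ c ^ k * Φ.fourth 1) := by
  obtain ⟨c, hc, h⟩ := hT.old.ampIso_exclusive hicc S h1 hS
  refine ⟨c, hc, ?_⟩
  intro Λ _ hΛ n Φ
  have h2 := h Λ hΛ n Φ.old
  rw [Φ.old_isCanonical_iff, show Φ.old.fourth = Φ.fourth from funext Φ.old_fourth] at h2
  exact h2

end

end Vale.Agent.P092.Stmt
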