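import Vale.Agent.P092.StmtCoefDef
import Vale.Agent.P092.H414.StmtExcl
import Vale.Agent.P092.H414.Coef

/-!
# Unitary representations of the statement layer, and the coefficient criterion
-/

namespace Vale.Agent.P092.Stmt

open scoped InnerProductSpace ENNReal
open ContinuousLinearMap InnerProductSpace

noncomputable section

section rep

variable {G H : Type} [Group G] [NormedAddCommGroup H] [InnerProductSpace ℂ H]
  {π : G → H → H}

/-- The isometry `π g`. -/
def IsUnitaryRep.iso (h : IsUnitaryRep π) (g : G) : H →ₗᵢ[ℂ] H :=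
  ⟨⟨⟨π g, h.map_add g⟩, h.map_smul g⟩, h.norm_map g⟩

theorem IsUnitaryRep.iso_apply (h : IsUnitaryRep π) (g : G) (x : H) : h.iso g x = π g x := rfl

theorem IsUnitaryRep.inner_map (h : IsUnitaryRep π) (g : G) (x y : H) :
    ⟪π g x, π g y⟫_ℂ = ⟪x, y⟫_ℂ := (h.iso g).inner_map_map x y

theorem IsUnitaryRep.map_inv_map (h : IsUnitaryRep π) (g : G) (x : H) : π g⁻¹ (π g x) = x := by
  rw [← h.map_mul, inv_mul_cancel, h.map_one]

theorem IsUnitaryRep.map_map_inv (h : IsUnitaryRep π) (g : G) (x : H) : π g (π g⁻¹ x) = x := by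
  rw [← h.map_mul, mul_inv_cancel, h.map_one]

variable [CompleteSpace H]

theorem IsUnitaryRep.adjoint_iso (h : IsUnitaryRep π) (g : G) :
    adjoint (h.iso g).toContinuousLinearMap = (h.iso g⁻¹).toContinuousLinearMap := by
  refine ContinuousLinearMap.ext fun x => ext_inner_left ℂ fun y => ?_
  rw [adjoint_inner_right]
  change ⟪π g y, x⟫_ℂ = ⟪y, π g⁻¹ x⟫_ℂ
  rw [← h.inner_map g y, h.map_map_inv]

/-- The homomorphism to the unitary group given by a unitary representation. -/
def IsUnitaryRep.toHom (h : IsUnitaryRep π) : G →* unitary (H →L[ℂ] H) where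
  toFun g := ⟨(h.iso g).toContinuousLinearMap, by
    rw [Unitary.mem_iff, ContinuousLinearMap.star_eq_adjoint, h.adjoint_iso]
    constructor
    · refine ContinuousLinearMap.ext fun x => ?_
      exact h.map_inv_map g x
    · refine ContinuousLinearMap.ext fun x => ?_
      exact h.map_map_inv g x⟩
  map_one' := Subtype.ext (ContinuousLinearMap.ext fun x => h.map_one x)
  map_mul' g k := Subtype.ext (ContinuousLinearMap.ext fun x => h.map_mul g k x)

theorem IsUnitaryRep.toHom_apply (h : IsUnitaryRep π) (g : G) (x : H) :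
    (h.toHom g : H →L[ℂ] H) x = π g x := rfl

/-- The unitary representation given by a homomorphism to the unitary group. -/
theorem isUnitaryRep_of_hom (ρ : G →* unitary (H →L[ℂ] H)) :
    IsUnitaryRep fun g x => (ρ g : H →L[ℂ] H) x where
  map_add g x y := _root_.map_add (ρ g : H →L[ℂ] H) x y
  map_smul g c x := _root_.map_smul (ρ g : H →L[ℂ] H) c x
  norm_map g x := rep_norm ρ g x
  map_one x := rep_one_apply ρ x
  map_mul g k x := rep_mul_apply ρ g k x

end rep

variable {Γ Λ : Type} [Group Γ] [Group Λ] {n : ℕ}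

theorem isCoefNoInv_iff (f : Γ → ℝ≥0∞) :
    IsCoefNoInv f ↔ Vale.Agent.P092.IsCoefNoInv f := by
  constructor
  · rintro ⟨K, _, _, _, π, ξ, hπ, hinv, hf⟩
    exact ⟨K, inferInstance, inferInstance, inferInstance, hπ.toHom, ξ, hinv, hf⟩
  · rintro ⟨K, _, _, _, π, ξ, hinv, hf⟩
    exact ⟨K, inferInstance, inferInstance, inferInstance, _, ξ, isUnitaryRep_of_hom π, hinv, hf⟩

theorem AmpIso.isCanonical_iff [Countable Γ] (Φ : AmpIso Γ Λ n) (hicc : IsICC Γ)
    (hΛ : IsICC Λ) : Φ.IsCanonical ↔ ¬ IsCoefNoInv Φ.fourth := by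
  rw [← Φ.old_isCanonical_iff, Φ.old.isCanonical_iff hicc hΛ, isCoefNoInv_iff,
    show Φ.old.fourth = Φ.fourth from funext Φ.old_fourth]

end

end Vale.Agent.P092.Stmt
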